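import Crest.Agent.R186.BaseChangeAux

/-! Row 186, task BaseChange (+ S0281): base change of `CR`, `Van`, `NP`, `SplitBasic8` along a field
extension `E / k`.  `P' n = E ⊗[k] P n` as a module over `E ⊗[k] R`
(`(a ⊗ r) • (b ⊗ z) = (a * b) ⊗ (r • z)`; build it once for an arbitrary `R`-module, e.g. by
`Module.compHom`/`TensorProduct.Algebra.module`, on a type synonym if needed), projective through
dual bases (`exists_dualBasis`, `finite_projective_of_dualBasis`).  With a `k`-basis `(e i)` of `E`,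
an `E ⊗ R`-linear map `E ⊗ P → E ⊗ P'` is `∑ i, e i ⊗ f i` (finite sum, `P` is f.g.) with `R`-linear
`f i : P → P'`; this gives `ta`, `Van`; `NP` descends by a `k`-linear form on `E` sending `1` to `1`.
Finally `E ⊗ (P 0 / range) ≃ (E ⊗ P 0) / range`, and transport of `GorProjVanishingData` along a
linear equivalence of modules (or prove the `Ext.lean` statements for any `Z ≃ₗ T.Z`). -/

set_option autoImplicit false

namespace Crest.Agent.R186

open scoped TensorProduct

universe u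

section transport

open CategoryTheory

universe v

variable {F : Type v} [Field F] {S : Type u} [Ring S] [Algebra F S]

theorem ext_subsingleton_of_iso {X X' Y Y' : ModuleCat.{u} S} (e : X ≅ X') (e' : Y ≅ Y') (i : ℕ)
    (h : Subsingleton (Abelian.Ext X Y i)) : Subsingleton (Abelian.Ext X' Y' i) := by
  refine subsingleton_of_forall_eq 0 fun x => ?_
  have h0 : (Abelian.Ext.mk₀ e.hom).comp (x.comp (Abelian.Ext.mk₀ e'.inv) (add_zero i))
      (zero_add i) = 0 := Subsingleton.elim _ _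
  have h1 : x.comp (Abelian.Ext.mk₀ e'.inv) (add_zero i) = 0 := by
    rw [← (x.comp (Abelian.Ext.mk₀ e'.inv) (add_zero i)).mk₀_id_comp, ← e.inv_hom_id,
      ← Abelian.Ext.mk₀_comp_mk₀, Abelian.Ext.comp_assoc_of_second_deg_zero, h0,
      Abelian.Ext.comp_zero]
  rw [← x.comp_mk₀_id, ← e'.inv_hom_id, ← Abelian.Ext.mk₀_comp_mk₀,
    ← Abelian.Ext.comp_assoc_of_third_deg_zero, h1, Abelian.Ext.zero_comp]

theorem data_of_equiv {Z Z' : Type u} [AddCommGroup Z] [Module S Z] [AddCommGroup Z'] [Module S Z']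
    (e : Z ≃ₗ[S] Z') (h : Crest.AlgebraR.GorProjVanishingData F S Z) :
    Crest.AlgebraR.GorProjVanishingData F S Z' := by
  obtain ⟨h1, h2, h3, h4, h5, ⟨P, i1, i2, d, h6, h7, h8, ⟨e'⟩⟩, h9, h10⟩ := h
  refine ⟨h1, h2, h3, Module.Finite.equiv e, fun h => h5 (Module.Projective.of_equiv e.symm),
    ⟨P, i1, i2, d, h6, h7, h8, ⟨e.symm.trans e'⟩⟩, fun i hi => ?_, fun i hi => ?_⟩
  · exact ext_subsingleton_of_iso e.toModuleIso e.toModuleIso i (h9 i hi)
  · exact ext_subsingleton_of_iso e.toModuleIso (Iso.refl _) i (h10 i hi)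

end transport

section bc

variable {k : Type} [Field k] {R : Type} [Ring R] [Algebra k R]
  (E : Type u) [Field E] [Algebra k E]

theorem SplitBasic8.baseChange (h : SplitBasic8 k R) : SplitBasic8 E (E ⊗[k] R) := by
  classical
  obtain ⟨φ, hφ, ⟨N, hN⟩, a, b, c, d, ha, hb, hc, hd, habcd⟩ := h
  let φ' : E ⊗[k] R →ₐ[E] (Fin 8 → E) :=
    Algebra.TensorProduct.lift (Algebra.ofId E _)
      (((Algebra.ofId k E).compLeft (Fin 8)).comp φ) (fun _ _ => Commute.all _ _)
  have hφ' : ∀ (x : E) (r : R) (i : Fin 8), φ' (x ⊗ₜ[k] r) i = x * algebraMap k E (φ r i) := by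
    intro x r i
    simp [φ', Algebra.ofId_apply, AlgHom.compLeft]
  choose e he using fun i : Fin 8 => hφ (Pi.single i 1)
  let j : R →ₐ[k] E ⊗[k] R := Algebra.TensorProduct.includeRight
  have hj : ∀ r, j r = (1 : E) ⊗ₜ[k] r := fun _ => rfl
  have hj0 : ∀ r, φ r = 0 → φ' (j r) = 0 := by
    intro r hr
    ext i
    rw [hj, hφ', hr]
    simp
  let K : Set R := LinearMap.ker φ.toLinearMap
  have hker : ∀ x : E ⊗[k] R, x - ∑ i, φ' x i • j (e i) ∈ Submodule.span E (j '' K) := by
    intro x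
    induction x using TensorProduct.induction_on with
    | zero => simp
    | tmul x r =>
      have h1 : r - ∑ i, φ r i • e i ∈ K := by
        change φ (r - ∑ i, φ r i • e i) = 0
        rw [map_sub, map_sum]
        simp only [map_smul, he]
        ext l
        simp [Finset.sum_apply, Pi.single_apply]
      have h2 : x ⊗ₜ[k] r - ∑ i, φ' (x ⊗ₜ[k] r) i • j (e i) = x • j (r - ∑ i, φ r i • e i) := by
        rw [map_sub, map_sum, smul_sub, Finset.smul_sum]
        congr 1
        · rw [hj, TensorProduct.smul_tmul', smul_eq_mul, mul_one]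
        · refine Finset.sum_congr rfl fun i _ => ?_
          rw [hφ', map_smul, mul_smul, algebraMap_smul]
      rw [h2]
      exact Submodule.smul_mem _ _ (Submodule.subset_span ⟨_, h1, rfl⟩)
    | add x y hx hy =>
      have : x + y - ∑ i, φ' (x + y) i • j (e i) =
          (x - ∑ i, φ' x i • j (e i)) + (y - ∑ i, φ' y i • j (e i)) := by
        simp only [map_add, Pi.add_apply, add_smul, Finset.sum_add_distrib]
        abel
      rw [this]
      exact Submodule.add_mem _ hx hy
  refine ⟨φ', fun y => ⟨∑ i, y i ⊗ₜ[k] e i, ?_⟩, ⟨N, ?_⟩, j a, j b, j c, j d, hj0 a ha, hj0 b hb,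
    hj0 c hc, hj0 d hd, ?_⟩
  · ext l
    rw [map_sum, Finset.sum_apply]
    simp only [hφ', he]
    simp [Pi.single_apply]
  · have h1 : LinearMap.ker φ'.toLinearMap ≤ Submodule.span E (j '' K) := by
      intro x hx
      have hx' : φ' x = 0 := hx
      have := hker x
      simpa [hx'] using this
    refine le_bot_iff.1 ((pow_le_pow_left' h1 N).trans ?_)
    rw [Submodule.span_pow, ← Set.image_pow, Submodule.span_le]
    rintro _ ⟨x, hx, rfl⟩
    have := Submodule.pow_subset_pow _ hx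
    rw [hN] at this
    have hx0 : x = 0 := this
    simp [hx0]
  · rw [← map_mul, ← map_mul, ← map_mul]
    intro h0
    apply habcd
    apply Algebra.TensorProduct.includeRight_injective (A := E) (algebraMap k E).injective
    rw [map_zero]
    exact h0

theorem CR.H_baseChange (T : CR k R) (M : Type) [AddCommGroup M] [Module k M] [Module R M]
    [IsScalarTower k R M] (n : ℤ) (h : T.H M n)
    (F : BC k E (T.P (n + 1)) →ₗ[E ⊗[k] R] BC k E M) (hF : F ∘ₗ BC.map k E (T.d (n + 1)) = 0) :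
    ∃ G : BC k E (T.P n) →ₗ[E ⊗[k] R] BC k E M, G ∘ₗ BC.map k E (T.d n) = F := by
  let b := Module.Basis.ofVectorSpace k E
  obtain ⟨s, hs⟩ := BC.exists_decomp b F
  choose g hg using fun i => h (BC.cmp (b.coord i) F) (by rw [BC.cmp_comp, hF, BC.cmp_zero])
  refine ⟨∑ i ∈ s, b i • BC.map k E (g i), ?_⟩
  conv_rhs => rw [hs]
  ext x
  simp only [LinearMap.comp_apply, LinearMap.sum_apply, LinearMap.smul_apply]
  refine Finset.sum_congr rfl fun i _ => ?_
  rw [← hg i, ← BC.map_comp, LinearMap.comp_apply]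

/-- base change of a complete resolution -/
noncomputable def CR.baseChange (T : CR k R) : CR E (E ⊗[k] R) where
  P n := BC k E (T.P n)
  fin n := (BC.finite_projective (T.P n)).1
  proj n := (BC.finite_projective (T.P n)).2
  d n := BC.map k E (T.d n)
  exact n := BC.map_exact (T.exact n)
  ta n f hf := by
    obtain ⟨G, hG⟩ := T.H_baseChange E R n (T.ta n)
      ((BC.equivSelf k E R).symm.toLinearMap ∘ₗ f)
      (by rw [LinearMap.comp_assoc, hf, LinearMap.comp_zero])
    refine ⟨(BC.equivSelf k E R).toLinearMap ∘ₗ G, ?_⟩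
    rw [LinearMap.comp_assoc, hG]
    rfl

theorem CR.van_baseChange (T : CR k R) (n m : ℤ) (h : T.Van n m) : (T.baseChange E).Van n m := by
  intro (F : BC k E (T.P (n + 1)) →ₗ[E ⊗[k] R] BC k E (T.P (m + 1)))
    (hF1 : BC.map k E (T.d m) ∘ₗ F = 0) (hF2 : F ∘ₗ BC.map k E (T.d (n + 1)) = 0)
  change ∃ G : BC k E (T.P n) →ₗ[E ⊗[k] R] BC k E (T.P (m + 1)),
    BC.map k E (T.d m) ∘ₗ G = 0 ∧ G ∘ₗ BC.map k E (T.d n) = F
  let b := Module.Basis.ofVectorSpace k E
  obtain ⟨s, hs⟩ := BC.exists_decomp b F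
  choose g hg0 hg using fun i => h (BC.cmp (b.coord i) F) (by rw [BC.comp_cmp, hF1, BC.cmp_zero])
    (by rw [BC.cmp_comp, hF2, BC.cmp_zero])
  refine ⟨∑ i ∈ s, b i • BC.map k E (g i), ?_, ?_⟩
  · ext x
    simp only [LinearMap.comp_apply, LinearMap.sum_apply, LinearMap.smul_apply, map_sum,
      LinearMap.zero_apply]
    refine Finset.sum_eq_zero fun i _ => ?_
    rw [LinearMap.map_smul_of_tower, ← LinearMap.comp_apply, BC.map_comp, hg0, BC.map_zero',
      LinearMap.zero_apply, smul_zero]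
  · conv_rhs => rw [hs]
    ext x
    simp only [LinearMap.comp_apply, LinearMap.sum_apply, LinearMap.smul_apply]
    refine Finset.sum_congr rfl fun i _ => ?_
    rw [← hg i, ← BC.map_comp, LinearMap.comp_apply]

theorem CR.np_baseChange (T : CR k R) (m : ℤ) (h : T.NP m) : (T.baseChange E).NP m := by
  rintro ⟨σ : BC k E (T.P m) →ₗ[E ⊗[k] R] BC k E (T.P (m + 1)),
    hσ : BC.map k E (T.d m) ∘ₗ σ ∘ₗ BC.map k E (T.d m) = BC.map k E (T.d m)⟩
  obtain ⟨l, hl⟩ := Module.Projective.exists_dual_eq_one k (one_ne_zero : (1 : E) ≠ 0)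
  refine h ⟨BC.cmp l σ, ?_⟩
  rw [BC.cmp_comp, BC.comp_cmp, hσ, BC.cmp_map l hl]

/-- base change commutes with the cokernel -/
noncomputable def CR.zEquiv (T : CR k R) : (T.baseChange E).Z ≃ₗ[E ⊗[k] R] BC k E T.Z :=
  (Submodule.quotEquivOfEq (LinearMap.range (BC.map k E (T.d 0)))
    (LinearMap.ker (BC.map k E (LinearMap.range (T.d 0)).mkQ))
    (LinearMap.exact_iff.1 (BC.map_exact (LinearMap.exact_map_mkQ_range (T.d 0)))).symm).trans
    (LinearMap.quotKerEquivOfSurjective _ (BC.map_surjective (Submodule.mkQ_surjective _)))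

end bc

theorem baseChange_data (k : Type) [Field k] (R : Type) [Ring R] [Algebra k R]
    [FiniteDimensional k R] (h : SplitBasic8 k R) (T : CR k R)
    (hV : ∀ n m : ℤ, 1 ≤ n - m - 1 → T.Van n m) (hN : ∀ m, T.NP m)
    (E : Type u) [Field E] [Algebra k E] :
    ∃ (_ : Module (E ⊗[k] R) (E ⊗[k] T.Z)),
      (∀ (a b : E) (r : R) (z : T.Z), (a ⊗ₜ[k] r) • (b ⊗ₜ[k] z) = (a * b) ⊗ₜ[k] (r • z)) ∧
      Crest.AlgebraR.GorProjVanishingData E (E ⊗[k] R) (E ⊗[k] T.Z) :=
  ⟨(inferInstance : Module (E ⊗[k] R) (BC k E T.Z)), BC.tmul_smul_tm,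
    data_of_equiv (Z' := BC k E T.Z) (T.zEquiv E) ((T.baseChange E).data (h.baseChange E)
      (fun n m hnm => T.van_baseChange E n m (hV n m hnm)) fun m => T.np_baseChange E m (hN m))⟩

end Crest.Agent.R186
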