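import Crest.Agent.R186.Ext

/-! Row 186: base change of modules and linear maps along a field extension `E / k`. -/

set_option autoImplicit false

namespace Crest.Agent.R186

open scoped TensorProduct

universe u

/-- `E ⊗[k] M`, as a module over `E ⊗[k] R` -/
def BC (k : Type) [Field k] (E : Type u) [Field E] [Algebra k E] (M : Type) [AddCommGroup M]
    [Module k M] : Type u := E ⊗[k] M

namespace BC

variable {k : Type} [Field k] {E : Type u} [Field E] [Algebra k E]

section basic
variable {M : Type} [AddCommGroup M] [Module k M]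

noncomputable instance : AddCommGroup (BC k E M) := inferInstanceAs (AddCommGroup (E ⊗[k] M))
noncomputable instance : Module E (BC k E M) := inferInstanceAs (Module E (E ⊗[k] M))

/-- pure tensors -/
def tm (a : E) (x : M) : BC k E M := a ⊗ₜ[k] x

theorem induction_on {p : BC k E M → Prop} (x : BC k E M) (h0 : p 0) (h1 : ∀ a m, p (tm a m))
    (h2 : ∀ x y, p x → p y → p (x + y)) : p x :=
  TensorProduct.induction_on (R := k) (M := E) (N := M) x h0 h1 h2

theorem smul_tm (a b : E) (x : M) : a • (tm b x : BC k E M) = tm (a * b) x :=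
  TensorProduct.smul_tmul' a b x

theorem tm_add (a : E) (x y : M) : (tm a (x + y) : BC k E M) = tm a x + tm a y :=
  TensorProduct.tmul_add a x y

theorem tm_zero (a : E) : (tm a (0 : M) : BC k E M) = 0 := TensorProduct.tmul_zero M a

theorem tm_sum {ι : Type*} (s : Finset ι) (a : E) (x : ι → M) :
    (tm a (∑ i ∈ s, x i) : BC k E M) = ∑ i ∈ s, tm a (x i) :=
  TensorProduct.tmul_sum a s x

theorem sum_tm {ι : Type*} (s : Finset ι) (a : ι → E) (x : M) :
    (tm (∑ i ∈ s, a i) x : BC k E M) = ∑ i ∈ s, tm (a i) x :=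
  TensorProduct.sum_tmul s a x

theorem tm_smul (c : k) (a : E) (x : M) : (tm a (c • x) : BC k E M) = tm (c • a) x :=
  (TensorProduct.smul_tmul c a x).symm

/-- contraction with a linear form on `E` -/
noncomputable def ctr (l : E →ₗ[k] k) : BC k E M →+ M :=
  ((TensorProduct.lid k M).toLinearMap ∘ₗ l.rTensor M).toAddMonoidHom

theorem ctr_tm (l : E →ₗ[k] k) (a : E) (x : M) : ctr l (tm a x : BC k E M) = l a • x := rfl

end basic

variable {R : Type} [Ring R] [Algebra k R]

section mod
variable {M : Type} [AddCommGroup M] [Module k M] [Module R M] [IsScalarTower k R M]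

variable (k E R M) in
/-- the action of `E ⊗ R` on `E ⊗ M` -/
noncomputable def act : E ⊗[k] R →ₐ[E] Module.End E (E ⊗[k] M) :=
  Algebra.TensorProduct.lift (Algebra.ofId E _)
    ((Module.End.baseChangeHom k E M).comp (Algebra.lsmul k k M))
    (fun a _ => Algebra.commutes a _)

noncomputable instance : Module (E ⊗[k] R) (BC k E M) :=
  Module.compHom (E ⊗[k] M) (act k E R M).toRingHom

theorem tmul_smul_tm (a b : E) (r : R) (x : M) :
    (a ⊗ₜ[k] r) • (tm b x : BC k E M) = tm (a * b) (r • x) := by
  change act k E R M (a ⊗ₜ[k] r) (b ⊗ₜ[k] x) = (a * b) ⊗ₜ[k] (r • x)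
  simp [act, Algebra.ofId_apply, Module.End.baseChangeHom, TensorProduct.smul_tmul']

instance : IsScalarTower E (E ⊗[k] R) (BC k E M) where
  smul_assoc a s x := by
    change act k E R M (a • s) x = a • act k E R M s x
    rw [map_smul]
    rfl

theorem tm_eq_smul (a : E) (x : M) :
    (tm a x : BC k E M) = (a ⊗ₜ[k] (1 : R)) • (tm 1 x : BC k E M) := by
  rw [tmul_smul_tm, mul_one, one_smul]

theorem ctr_smul (l : E →ₗ[k] k) (r : R) (x : BC k E M) :
    ctr l (((1 : E) ⊗ₜ[k] r) • x) = r • ctr l x := by
  induction x using induction_on with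
  | h0 => simp
  | h1 a m => rw [tmul_smul_tm, one_mul, ctr_tm, ctr_tm, smul_comm]
  | h2 x y hx hy => rw [smul_add, map_add, map_add, hx, hy, smul_add]

end mod

section maps
variable {M N P : Type} [AddCommGroup M] [Module k M] [Module R M] [IsScalarTower k R M]
  [AddCommGroup N] [Module k N] [Module R N] [IsScalarTower k R N]
  [AddCommGroup P] [Module k P] [Module R P] [IsScalarTower k R P]

theorem hom_ext {V : Type*} [AddCommGroup V] [Module (E ⊗[k] R) V]
    {F G : BC k E M →ₗ[E ⊗[k] R] V} (h : ∀ x, F (tm 1 x) = G (tm 1 x)) : F = G := by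
  ext x
  induction x using induction_on with
  | h0 => simp
  | h1 a m => rw [tm_eq_smul (R := R), map_smul, map_smul, h]
  | h2 x y hx hy => rw [map_add, map_add, hx, hy]

variable (k E) in
/-- base change of a linear map -/
noncomputable def map (f : M →ₗ[R] N) : BC k E M →ₗ[E ⊗[k] R] BC k E N where
  toFun := (f.restrictScalars k).lTensor E
  map_add' := map_add _
  map_smul' s x := by
    have h1 : ∀ (a : E) (m : M), (f.restrictScalars k).lTensor E (tm a m : BC k E M) =
      (tm a (f m) : BC k E N) := fun _ _ => rfl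
    let g : BC k E M →+ BC k E N := ((f.restrictScalars k).lTensor E).toAddMonoidHom
    have h2 : ∀ (a : E) (m : M), g (tm a m) = tm a (f m) := h1
    change g (s • x) = s • g x
    induction x using induction_on with
    | h0 => simp
    | h1 a m =>
      induction s using TensorProduct.induction_on with
      | zero => simp
      | tmul b r => rw [tmul_smul_tm, h2, h2, tmul_smul_tm, map_smul]
      | add s t hs ht => rw [add_smul, map_add, hs, ht, add_smul]
    | h2 x y hx hy => rw [smul_add, map_add, map_add, hx, hy, smul_add]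

theorem map_tm (f : M →ₗ[R] N) (a : E) (x : M) : map k E f (tm a x) = tm a (f x) := rfl

theorem map_comp (g : N →ₗ[R] P) (f : M →ₗ[R] N) :
    map k E g ∘ₗ map k E f = map k E (g ∘ₗ f) := hom_ext fun _ => rfl

theorem map_zero' : map k E (0 : M →ₗ[R] N) = 0 := hom_ext fun _ => tm_zero _

theorem map_exact {f : M →ₗ[R] N} {g : N →ₗ[R] P} (h : Function.Exact f g) :
    Function.Exact (map k E f) (map k E g) :=
  Module.Flat.lTensor_exact E (f := f.restrictScalars k) (g := g.restrictScalars k) h

theorem map_surjective {f : M →ₗ[R] N} (h : Function.Surjective f) :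
    Function.Surjective (map k E f) :=
  LinearMap.lTensor_surjective E (g := f.restrictScalars k) h

/-- component of a map along a linear form on `E` -/
noncomputable def cmp (l : E →ₗ[k] k) (F : BC k E M →ₗ[E ⊗[k] R] BC k E N) : M →ₗ[R] N where
  toFun x := ctr l (F (tm 1 x))
  map_add' x y := by rw [tm_add, map_add, map_add]
  map_smul' r x := by
    rw [RingHom.id_apply, ← ctr_smul, ← map_smul, tmul_smul_tm, one_mul]

theorem cmp_apply (l : E →ₗ[k] k) (F : BC k E M →ₗ[E ⊗[k] R] BC k E N) (x : M) :
    cmp l F x = ctr l (F (tm 1 x)) := rfl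

theorem cmp_zero (l : E →ₗ[k] k) : cmp l (0 : BC k E M →ₗ[E ⊗[k] R] BC k E N) = 0 := by
  ext x
  simp [cmp_apply]

theorem ctr_map (l : E →ₗ[k] k) (g : M →ₗ[R] N) (x : BC k E M) :
    ctr l (map k E g x) = g (ctr l x) := by
  induction x using induction_on with
  | h0 => simp
  | h1 a m => rw [map_tm, ctr_tm, ctr_tm, LinearMap.map_smul_of_tower]
  | h2 x y hx hy => rw [map_add, map_add, map_add, hx, hy, map_add]

theorem comp_cmp (l : E →ₗ[k] k) (g : N →ₗ[R] P) (F : BC k E M →ₗ[E ⊗[k] R] BC k E N) :
    g ∘ₗ cmp l F = cmp l (map k E g ∘ₗ F) := by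
  ext x
  simp only [LinearMap.comp_apply, cmp_apply, ctr_map]

theorem cmp_comp (l : E →ₗ[k] k) (F : BC k E N →ₗ[E ⊗[k] R] BC k E P) (g : M →ₗ[R] N) :
    cmp l F ∘ₗ g = cmp l (F ∘ₗ map k E g) := rfl

theorem cmp_map (l : E →ₗ[k] k) (hl : l 1 = 1) (g : M →ₗ[R] N) : cmp l (map k E g) = g := by
  ext x
  rw [cmp_apply, map_tm, ctr_tm, hl, one_smul]

omit [Module R N] [IsScalarTower k R N] in
theorem exists_decomp_elt {ι : Type*} (b : Module.Basis ι k E) (y : BC k E N) :
    ∃ s : Finset ι, ∀ t : Finset ι, s ⊆ t → y = ∑ i ∈ t, tm (b i) (ctr (b.coord i) y) := by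
  classical
  induction y using induction_on with
  | h0 => exact ⟨∅, fun t _ => by simp [tm_zero]⟩
  | h1 a m =>
    refine ⟨(b.repr a).support, fun t ht => ?_⟩
    have : a = ∑ i ∈ t, b.repr a i • b i := by
      conv_lhs => rw [← b.linearCombination_repr a, Finsupp.linearCombination_apply]
      exact Finsupp.sum_of_support_subset _ ht _ (fun i _ => zero_smul _ _)
    conv_lhs => rw [this, sum_tm]
    refine Finset.sum_congr rfl fun i _ => ?_
    rw [ctr_tm, tm_smul, Module.Basis.coord_apply]
  | h2 x y hx hy =>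
    obtain ⟨s, hs⟩ := hx
    obtain ⟨s', hs'⟩ := hy
    refine ⟨s ∪ s', fun t ht => ?_⟩
    conv_lhs => rw [hs t (Finset.subset_union_left.trans ht),
      hs' t (Finset.subset_union_right.trans ht)]
    rw [← Finset.sum_add_distrib]
    refine Finset.sum_congr rfl fun i _ => ?_
    rw [map_add, tm_add]

theorem exists_decomp [Module.Finite R M] {ι : Type*} (b : Module.Basis ι k E)
    (F : BC k E M →ₗ[E ⊗[k] R] BC k E N) :
    ∃ s : Finset ι, F = ∑ i ∈ s, b i • map k E (cmp (b.coord i) F) := by
  classical
  obtain ⟨n, p, hp⟩ := Module.Finite.exists_fin (R := R) (M := M)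
  choose s hs using fun j => exists_decomp_elt b (F (tm 1 (p j)))
  refine ⟨Finset.univ.biUnion s, hom_ext fun x => ?_⟩
  have hx : x ∈ Submodule.span R (Set.range p) := hp ▸ Submodule.mem_top
  induction hx using Submodule.span_induction with
  | mem x hx =>
    obtain ⟨j, rfl⟩ := hx
    rw [LinearMap.sum_apply]
    conv_lhs => rw [hs j _ (Finset.subset_biUnion_of_mem s (Finset.mem_univ j))]
    refine Finset.sum_congr rfl fun i _ => ?_
    rw [LinearMap.smul_apply, map_tm, smul_tm, mul_one, cmp_apply]
  | zero => simp [tm_zero]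
  | add x y _ _ hx hy => rw [tm_add, map_add, map_add, hx, hy]
  | smul r x _ hx =>
    have : (tm 1 (r • x) : BC k E M) = ((1 : E) ⊗ₜ[k] r) • tm 1 x := by
      rw [tmul_smul_tm, one_mul]
    rw [this, map_smul, map_smul, hx]

end maps

variable (k E R) in
/-- `BC k E R` is the free module of rank one -/
noncomputable def equivSelf : BC k E R ≃ₗ[E ⊗[k] R] E ⊗[k] R where
  toFun x := x
  invFun x := x
  map_add' _ _ := rfl
  map_smul' s x := by
    let g : BC k E R →+ E ⊗[k] R := AddMonoidHom.id _
    have h2 : ∀ (a : E) (m : R), g (tm a m) = a ⊗ₜ[k] m := fun _ _ => rfl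
    change g (s • x) = s * g x
    induction x using induction_on with
    | h0 => simp
    | h1 a m =>
      induction s using TensorProduct.induction_on with
      | zero => simp
      | tmul b r =>
        rw [tmul_smul_tm, h2, h2, Algebra.TensorProduct.tmul_mul_tmul, smul_eq_mul]
      | add s t hs ht => rw [add_smul, map_add, hs, ht, add_mul]
    | h2 x y hx hy => rw [smul_add, map_add, map_add, hx, hy, mul_add]
  left_inv _ := rfl
  right_inv _ := rfl

theorem equivSelf_tm (a : E) (r : R) : equivSelf k E R (tm a r) = a ⊗ₜ[k] r := rfl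

theorem finite_projective (M : Type) [AddCommGroup M] [Module k M] [Module R M]
    [IsScalarTower k R M] [Module.Finite R M] [Module.Projective R M] :
    Module.Finite (E ⊗[k] R) (BC k E M) ∧ Module.Projective (E ⊗[k] R) (BC k E M) := by
  obtain ⟨r, g, p, h⟩ := exists_dualBasis R M
  refine finite_projective_of_dualBasis
    (fun j => (equivSelf k E R).toLinearMap ∘ₗ map k E (g j)) (fun j => tm 1 (p j)) fun x => ?_
  induction x using induction_on with
  | h0 => simp
  | h1 a m =>
    conv_rhs => rw [← h m, tm_sum]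
    refine Finset.sum_congr rfl fun j _ => ?_
    rw [LinearMap.comp_apply, map_tm, LinearEquiv.coe_coe, equivSelf_tm, tmul_smul_tm, mul_one]
  | h2 x y hx hy =>
    conv_rhs => rw [← hx, ← hy]
    rw [← Finset.sum_add_distrib]
    refine Finset.sum_congr rfl fun j _ => ?_
    rw [map_add, add_smul]

end BC

end Crest.Agent.R186
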