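import Mathlib

/-!
Row 186 (S0280–S0285): interface.  `CR k R` is a complete resolution (totally acyclic complex of
finitely generated projective left `R`-modules, homological indexing `d n : P (n+1) → P n`).
`T.Van n m` is the vanishing of Tate cohomology in degree `n - m - 1`, `T.NP m` says that the
image of `d m` is not a direct summand (the syzygy is not projective).
-/

set_option autoImplicit false

namespace Crest.Agent.R186

universe u v

/-- A complete resolution over the `k`-algebra `R`. -/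
structure CR (k : Type v) [Field k] (R : Type u) [Ring R] [Algebra k R] where
  P : ℤ → Type u
  [acg : ∀ n, AddCommGroup (P n)]
  [mod : ∀ n, Module R (P n)]
  [modk : ∀ n, Module k (P n)]
  [tower : ∀ n, IsScalarTower k R (P n)]
  fin : ∀ n, Module.Finite R (P n)
  proj : ∀ n, Module.Projective R (P n)
  d : ∀ n, P (n + 1) →ₗ[R] P n
  exact : ∀ n, Function.Exact (d (n + 1)) (d n)
  ta : ∀ n (f : P (n + 1) →ₗ[R] R), f ∘ₗ d (n + 1) = 0 → ∃ g : P n →ₗ[R] R, g ∘ₗ d n = f

attribute [instance] CR.acg CR.mod CR.modk CR.tower CR.fin CR.proj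

/-- dual basis of a finitely generated projective module -/
theorem exists_dualBasis (R : Type*) [Ring R] (V : Type*) [AddCommGroup V] [Module R V]
    [Module.Finite R V] [Module.Projective R V] :
    ∃ (r : ℕ) (g : Fin r → V →ₗ[R] R) (p : Fin r → V), ∀ x, ∑ j, g j x • p j = x := by
  obtain ⟨r, π, hπ⟩ := Module.Finite.exists_fin' R V
  obtain ⟨i, hi⟩ := Module.projective_lifting_property π LinearMap.id hπ
  refine ⟨r, fun j => (LinearMap.proj j) ∘ₗ i, fun j => π (Pi.single j 1), fun x => ?_⟩
  have h1 : π (i x) = x := by simpa using LinearMap.congr_fun hi x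
  have h2 : i x = ∑ j, (i x j) • (Pi.single j (1 : R) : Fin r → R) := by
    ext l
    simp [Finset.sum_apply, Pi.single_apply]
  conv_rhs => rw [← h1, h2]
  simp [map_sum, map_smul]

/-- a module with a finite dual basis is finitely generated and projective -/
theorem finite_projective_of_dualBasis {R : Type*} [Ring R] {V : Type*} [AddCommGroup V]
    [Module R V] {ι : Type*} [Fintype ι] (g : ι → V →ₗ[R] R) (p : ι → V)
    (h : ∀ x, ∑ j, g j x • p j = x) : Module.Finite R V ∧ Module.Projective R V := by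
  classical
  let π : (ι → R) →ₗ[R] V := Fintype.linearCombination R p
  let i : V →ₗ[R] (ι → R) := LinearMap.pi g
  have hi : π ∘ₗ i = LinearMap.id := by
    ext x
    simp [π, i, Fintype.linearCombination_apply, h]
  refine ⟨Module.Finite.of_surjective π fun x => ⟨i x, LinearMap.congr_fun hi x⟩, ?_⟩
  exact Module.Projective.of_split i π hi

namespace CR

variable {k : Type v} [Field k] {R : Type u} [Ring R] [Algebra k R] (T : CR k R)

/-- Vanishing of Tate cohomology in degree `n - m - 1`: a map `P (n+1) → ker (d m)` killing the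
boundaries extends to `P n → ker (d m)`. -/
def Van (n m : ℤ) : Prop :=
  ∀ f : T.P (n + 1) →ₗ[R] T.P (m + 1), T.d m ∘ₗ f = 0 → f ∘ₗ T.d (n + 1) = 0 →
    ∃ g : T.P n →ₗ[R] T.P (m + 1), T.d m ∘ₗ g = 0 ∧ g ∘ₗ T.d n = f

/-- The image of `d m` is not projective (the surjection onto it does not split). -/
def NP (m : ℤ) : Prop :=
  ¬ ∃ σ : T.P m →ₗ[R] T.P (m + 1), T.d m ∘ₗ σ ∘ₗ T.d m = T.d m

theorem d_d (n : ℤ) (x : T.P (n + 1 + 1)) : T.d n (T.d (n + 1) x) = 0 :=
  (T.exact n).apply_apply_eq_zero x

theorem d_comp_d (n : ℤ) : T.d n ∘ₗ T.d (n + 1) = 0 := by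
  ext x; exact T.d_d n x

/-- total acyclicity with an arbitrary finitely generated projective target -/
theorem ta' (V : Type*) [AddCommGroup V] [Module R V] [Module.Finite R V] [Module.Projective R V]
    (n : ℤ) (f : T.P (n + 1) →ₗ[R] V) (hf : f ∘ₗ T.d (n + 1) = 0) :
    ∃ g : T.P n →ₗ[R] V, g ∘ₗ T.d n = f := by
  obtain ⟨r, g, p, h⟩ := exists_dualBasis R V
  have : ∀ j, ∃ g' : T.P n →ₗ[R] R, g' ∘ₗ T.d n = g j ∘ₗ f := fun j =>
    T.ta n _ (by rw [LinearMap.comp_assoc, hf, LinearMap.comp_zero])
  choose g' hg' using this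
  refine ⟨∑ j, (LinearMap.toSpanSingleton R V (p j)) ∘ₗ g' j, ?_⟩
  ext x
  have : ∀ j, g' j (T.d n x) = g j (f x) := fun j => LinearMap.congr_fun (hg' j) x
  simp [LinearMap.sum_apply, this, h]

/-- lifting cycles from a projective module -/
theorem lift (V : Type*) [AddCommGroup V] [Module R V] [Module.Projective R V]
    (n : ℤ) (f : V →ₗ[R] T.P (n + 1)) (hf : T.d n ∘ₗ f = 0) :
    ∃ g : V →ₗ[R] T.P (n + 1 + 1), T.d (n + 1) ∘ₗ g = f := by
  have hr : ∀ x, f x ∈ LinearMap.range (T.d (n + 1)) := fun x =>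
    (T.exact n (f x)).1 (LinearMap.congr_fun hf x)
  obtain ⟨g, hg⟩ := Module.projective_lifting_property (T.d (n + 1)).rangeRestrict
    (f.codRestrict _ hr) (LinearMap.surjective_rangeRestrict _)
  refine ⟨g, ?_⟩
  ext x
  have := congrArg Subtype.val (LinearMap.congr_fun hg x)
  simpa using this

end CR

/-- `R` is split basic with eight simple modules and the fourth power of its radical is not zero,
in a form that is stable under base change. -/
def SplitBasic8 (k : Type v) [Field k] (R : Type u) [Ring R] [Algebra k R] : Prop :=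
  ∃ φ : R →ₐ[k] (Fin 8 → k), Function.Surjective φ ∧
    (∃ N : ℕ, (LinearMap.ker φ.toLinearMap) ^ N = ⊥) ∧
    ∃ a b c d : R, φ a = 0 ∧ φ b = 0 ∧ φ c = 0 ∧ φ d = 0 ∧ a * b * c * d ≠ 0

end Crest.Agent.R186
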