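import Crest.Agent.R186.GDat

/-! Row 186: the ten-dimensional algebra `C = End_L (L ⊕ M)`, `L = k<x,y>/(x², y², yx = q xy)`,
`M = L / L (x + y)`.  Basis: `f, x, y, xy, π, yπ, ι, ι', e, ε`. -/

set_option autoImplicit false
set_option linter.unusedSectionVars false
set_option linter.unusedSimpArgs false
set_option linter.unusedVariables false

namespace Crest.Agent.R186

universe u

/-- the algebra `C` -/
def Cq (k : Type u) (_q : k) : Type u := Fin 10 → k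

namespace Cq

variable {k : Type u} [Field k] {q : k}

instance : AddCommGroup (Cq k q) := inferInstanceAs (AddCommGroup (Fin 10 → k))
instance : Module k (Cq k q) := inferInstanceAs (Module k (Fin 10 → k))
instance : FiniteDimensional k (Cq k q) := inferInstanceAs (FiniteDimensional k (Fin 10 → k))

/-- coordinates -/
def co (a : Cq k q) (i : Fin 10) : k := a i

/-- constructor -/
def mk (c0 c1 c2 c3 c4 c5 c6 c7 c8 c9 : k) : Cq k q := ![c0, c1, c2, c3, c4, c5, c6, c7, c8, c9]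

section
variable (c0 c1 c2 c3 c4 c5 c6 c7 c8 c9 : k)
@[simp] theorem mk0 : (mk c0 c1 c2 c3 c4 c5 c6 c7 c8 c9 : Cq k q).co 0 = c0 := rfl
@[simp] theorem mk1 : (mk c0 c1 c2 c3 c4 c5 c6 c7 c8 c9 : Cq k q).co 1 = c1 := rfl
@[simp] theorem mk2 : (mk c0 c1 c2 c3 c4 c5 c6 c7 c8 c9 : Cq k q).co 2 = c2 := rfl
@[simp] theorem mk3 : (mk c0 c1 c2 c3 c4 c5 c6 c7 c8 c9 : Cq k q).co 3 = c3 := rfl
@[simp] theorem mk4 : (mk c0 c1 c2 c3 c4 c5 c6 c7 c8 c9 : Cq k q).co 4 = c4 := rfl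
@[simp] theorem mk5 : (mk c0 c1 c2 c3 c4 c5 c6 c7 c8 c9 : Cq k q).co 5 = c5 := rfl
@[simp] theorem mk6 : (mk c0 c1 c2 c3 c4 c5 c6 c7 c8 c9 : Cq k q).co 6 = c6 := rfl
@[simp] theorem mk7 : (mk c0 c1 c2 c3 c4 c5 c6 c7 c8 c9 : Cq k q).co 7 = c7 := rfl
@[simp] theorem mk8 : (mk c0 c1 c2 c3 c4 c5 c6 c7 c8 c9 : Cq k q).co 8 = c8 := rfl
@[simp] theorem mk9 : (mk c0 c1 c2 c3 c4 c5 c6 c7 c8 c9 : Cq k q).co 9 = c9 := rfl
end

theorem ext10 {a b : Cq k q} (h0 : a.co 0 = b.co 0) (h1 : a.co 1 = b.co 1) (h2 : a.co 2 = b.co 2)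
    (h3 : a.co 3 = b.co 3) (h4 : a.co 4 = b.co 4) (h5 : a.co 5 = b.co 5) (h6 : a.co 6 = b.co 6)
    (h7 : a.co 7 = b.co 7) (h8 : a.co 8 = b.co 8) (h9 : a.co 9 = b.co 9) : a = b := by
  funext i
  fin_cases i <;> assumption

theorem ext_iff' {a b : Cq k q} : a = b ↔ a.co 0 = b.co 0 ∧ a.co 1 = b.co 1 ∧ a.co 2 = b.co 2 ∧
    a.co 3 = b.co 3 ∧ a.co 4 = b.co 4 ∧ a.co 5 = b.co 5 ∧ a.co 6 = b.co 6 ∧ a.co 7 = b.co 7 ∧
    a.co 8 = b.co 8 ∧ a.co 9 = b.co 9 :=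
  ⟨fun h => by subst h; simp, fun ⟨h0, h1, h2, h3, h4, h5, h6, h7, h8, h9⟩ =>
    ext10 h0 h1 h2 h3 h4 h5 h6 h7 h8 h9⟩

@[simp] theorem co_add (a b : Cq k q) (i : Fin 10) : (a + b).co i = a.co i + b.co i := rfl
@[simp] theorem co_zero (i : Fin 10) : (0 : Cq k q).co i = 0 := rfl
@[simp] theorem co_smul (c : k) (a : Cq k q) (i : Fin 10) : (c • a).co i = c * a.co i := rfl

instance : One (Cq k q) := ⟨mk 1 0 0 0 0 0 0 0 1 0⟩
instance : Mul (Cq k q) := ⟨fun a b => mk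
  (a.co 0 * b.co 0)
  (a.co 0 * b.co 1 + a.co 1 * b.co 0 + a.co 4 * b.co 6)
  (a.co 0 * b.co 2 + a.co 2 * b.co 0 + q * (a.co 4 * b.co 6))
  (a.co 0 * b.co 3 + a.co 3 * b.co 0 + a.co 1 * b.co 2 + q * (a.co 2 * b.co 1) + a.co 4 * b.co 7 +
    q * (a.co 5 * b.co 6))
  (a.co 0 * b.co 4 + a.co 4 * b.co 8)
  (a.co 0 * b.co 5 + a.co 5 * b.co 8 + a.co 1 * b.co 4 + a.co 2 * b.co 4 + a.co 4 * b.co 9)
  (a.co 8 * b.co 6 + a.co 6 * b.co 0)
  (a.co 8 * b.co 7 + a.co 7 * b.co 0 + q ^ 2 * (a.co 6 * b.co 1) + a.co 6 * b.co 2 +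
    q * (a.co 9 * b.co 6))
  (a.co 8 * b.co 8)
  (a.co 8 * b.co 9 + a.co 9 * b.co 8 + (1 + q) * (a.co 6 * b.co 4))⟩

theorem one_def : (1 : Cq k q) = mk 1 0 0 0 0 0 0 0 1 0 := rfl
theorem mul_def (a b : Cq k q) : a * b = mk
  (a.co 0 * b.co 0)
  (a.co 0 * b.co 1 + a.co 1 * b.co 0 + a.co 4 * b.co 6)
  (a.co 0 * b.co 2 + a.co 2 * b.co 0 + q * (a.co 4 * b.co 6))
  (a.co 0 * b.co 3 + a.co 3 * b.co 0 + a.co 1 * b.co 2 + q * (a.co 2 * b.co 1) + a.co 4 * b.co 7 +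
    q * (a.co 5 * b.co 6))
  (a.co 0 * b.co 4 + a.co 4 * b.co 8)
  (a.co 0 * b.co 5 + a.co 5 * b.co 8 + a.co 1 * b.co 4 + a.co 2 * b.co 4 + a.co 4 * b.co 9)
  (a.co 8 * b.co 6 + a.co 6 * b.co 0)
  (a.co 8 * b.co 7 + a.co 7 * b.co 0 + q ^ 2 * (a.co 6 * b.co 1) + a.co 6 * b.co 2 +
    q * (a.co 9 * b.co 6))
  (a.co 8 * b.co 8)
  (a.co 8 * b.co 9 + a.co 9 * b.co 8 + (1 + q) * (a.co 6 * b.co 4)) := rfl

/-- coordinatewise verification -/
macro "cq_ring" : tactic =>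
  `(tactic| (apply Cq.ext10 <;> simp only [Cq.mul_def, Cq.one_def, Cq.mk0, Cq.mk1, Cq.mk2, Cq.mk3,
    Cq.mk4, Cq.mk5, Cq.mk6, Cq.mk7, Cq.mk8, Cq.mk9, Cq.co_add, Cq.co_zero, Cq.co_smul] <;> ring))

instance : Ring (Cq k q) where
  __ := (inferInstance : AddCommGroup (Cq k q))
  mul_assoc a b c := by cq_ring
  one_mul a := by cq_ring
  mul_one a := by cq_ring
  left_distrib a b c := by cq_ring
  right_distrib a b c := by cq_ring
  zero_mul a := by cq_ring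
  mul_zero a := by cq_ring

instance : Algebra k (Cq k q) :=
  Algebra.ofModule (fun r a b => by cq_ring) (fun r a b => by cq_ring)

/-- coordinate forms -/
def col (i : Fin 10) : Cq k q →ₗ[k] k where
  toFun a := a.co i
  map_add' _ _ := rfl
  map_smul' _ _ := rfl

@[simp] theorem col_apply (i : Fin 10) (a : Cq k q) : col i a = a.co i := rfl

/-- the character at `e` -/
def χe : Cq k q →ₐ[k] k := AlgHom.ofLinearMap (col 8) rfl fun _ _ => rfl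
/-- the character at `f` -/
def χf : Cq k q →ₐ[k] k := AlgHom.ofLinearMap (col 0) rfl fun _ _ => rfl

@[simp] theorem χe_apply (a : Cq k q) : χe a = a.co 8 := rfl
@[simp] theorem χf_apply (a : Cq k q) : χf a = a.co 0 := rfl

theorem trace_mulRight [CharP k 2] (c : Cq k q) :
    LinearMap.trace k (Cq k q) (aL k (Cq k q) c) = 0 := by
  have h2 : (2 : k) = 0 := CharTwo.two_eq_zero
  let b : Module.Basis (Fin 10) k (Cq k q) := Pi.basisFun k (Fin 10)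
  have hb : ∀ (i j : Fin 10), (b i).co j = if j = i then 1 else 0 := fun i j => by
    change (Pi.basisFun k (Fin 10) i) j = _
    simp [Pi.single_apply]
  have hr : ∀ (a : Cq k q) (i : Fin 10), b.repr a i = a.co i := fun a i => rfl
  rw [LinearMap.trace_eq_matrix_trace k b, Matrix.trace]
  simp only [Matrix.diag, LinearMap.toMatrix_apply, hr, aL_apply, Fin.sum_univ_succ,
    Fin.sum_univ_zero]
  simp [mul_def, hb]
  linear_combination (3 * c.co 0 + 2 * c.co 8) * h2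

/-- idempotent `f` -/
def F : Cq k q := mk 1 0 0 0 0 0 0 0 0 0
/-- idempotent `e` -/
def Ee : Cq k q := mk 0 0 0 0 0 0 0 0 1 0
/-- `x + a y` -/
def uu (a : k) : Cq k q := mk 0 1 a 0 0 0 0 0 0 0
/-- `π` -/
def pp : Cq k q := mk 0 0 0 0 1 0 0 0 0 0
/-- `ι` -/
def ii : Cq k q := mk 0 0 0 0 0 0 1 0 0 0

/-- unfold everything to coordinates -/
macro "cq_simp" loc:(Lean.Parser.Tactic.location)? : tactic =>
  `(tactic| simp only [Cq.ext_iff', Cq.mul_def, Cq.one_def, Cq.mk0, Cq.mk1, Cq.mk2, Cq.mk3,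
    Cq.mk4, Cq.mk5, Cq.mk6, Cq.mk7, Cq.mk8, Cq.mk9, Cq.co_add, Cq.co_zero, Cq.co_smul, Cq.F, Cq.Ee,
    Cq.uu, Cq.pp, Cq.ii, mul_zero, zero_mul, add_zero, zero_add, mul_one, one_mul, true_and,
    and_true] $[$loc]?)

variable [CharP k 2]

theorem exL (hq : q ≠ 0) (a a' : k) (h : q * a' = a) (h1 : q ^ 2 + a ≠ 0) (h2 : q ^ 2 + a' ≠ 0)
    (v : Cq k q) (hv : v * F = v) (h0 : v * uu a = 0) : ∃ w : Cq k q, w * uu a' = v := by
  have t : (2 : k) = 0 := CharTwo.two_eq_zero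
  cq_simp at hv h0
  obtain ⟨a4, a5, a8, a9⟩ := hv
  obtain ⟨b1, -, b3, b7⟩ := h0
  have b6 : v.co 6 = 0 := by
    have : (q ^ 2 + a) * v.co 6 = 0 := by linear_combination b7
    exact (mul_eq_zero.1 this).resolve_left h1
  have b2 : v.co 2 = v.co 1 * a' := by
    apply mul_left_cancel₀ hq
    rw [← h] at b3
    linear_combination b3 - (v.co 1 * a' * q) * t
  refine ⟨mk (v.co 1) 0 (v.co 3 / q) 0 0 0 (v.co 7 / (q ^ 2 + a')) 0 0 0, ?_⟩
  cq_simp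
  refine ⟨b1.symm, b2.symm, by field_simp, a4, a5, b6.symm, by field_simp, a8, a9⟩

theorem exR (a : k) (h1 : 1 + a ≠ 0) (h2 : 1 + q * a ≠ 0)
    (v : Cq k q) (hv : F * v = v) (h0 : uu a * v = 0) : ∃ w : Cq k q, uu (q * a) * w = v := by
  have t : (2 : k) = 0 := CharTwo.two_eq_zero
  cq_simp at hv h0
  obtain ⟨a6, a7, a8, a9⟩ := hv
  obtain ⟨b1, -, b3, b5⟩ := h0
  have b4 : v.co 4 = 0 := by
    have : (1 + a) * v.co 4 = 0 := by linear_combination b5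
    exact (mul_eq_zero.1 this).resolve_left h1
  refine ⟨mk (v.co 1) 0 (v.co 3) 0 (v.co 5 / (1 + q * a)) 0 0 0 0 0, ?_⟩
  cq_simp
  refine ⟨b1.symm, by linear_combination b3 - v.co 2 * t, b4.symm, by field_simp, a6, a7, a8, a9⟩

end Cq

end Crest.Agent.R186
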