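import Crest.Agent.R186.Lin

/-! Row 186: differential vector spaces with one-dimensional homology, Künneth, cones, matrices. -/

set_option autoImplicit false
set_option linter.unusedSectionVars false
set_option linter.unusedSimpArgs false

namespace Crest.Agent.R186

open scoped TensorProduct

/-- reduce an additive identity to pure tensors -/
macro "tind " x:ident " with " a:ident b:ident : tactic =>
  `(tactic| induction $x:ident using TensorProduct.induction_on with
    | zero => simp
    | add x y hx hy => simp only [map_add, hx, hy, add_zero, smul_add, Finsupp.add_apply]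
    | tmul $a $b => ?_)

/-- reduce an additive identity to single-support functions -/
macro "find " x:ident " with " a:ident b:ident : tactic =>
  `(tactic| induction $x:ident using Finsupp.induction_linear with
    | zero => simp
    | add x y hx hy => simp only [map_add, hx, hy, add_zero, smul_add, Finsupp.add_apply]
    | single $a $b => ?_)

section Contr

variable {k : Type*} [Field k] [CharP k 2]
variable {V V' W W' : Type*} [AddCommGroup V] [Module k V] [AddCommGroup V'] [Module k V']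
  [AddCommGroup W] [Module k W] [AddCommGroup W'] [Module k W']

/-- `(range ϵ, δ)` is a differential space whose homology is spanned by `η` -/
structure IsContr (ϵ δ : V →ₗ[k] V) (η : V) : Prop where
  ee : ∀ x, ϵ (ϵ x) = ϵ x
  de : ∀ x, δ (ϵ x) = δ x
  ed : ∀ x, ϵ (δ x) = δ x
  dd : ∀ x, δ (δ x) = 0
  dη : δ η = 0
  eη : ϵ η = η
  ex : ∃ (l : V →ₗ[k] k) (σ : V →ₗ[k] V), l η = 1 ∧ (∀ x, l (δ x) = 0) ∧ (∀ x, l (ϵ x) = l x) ∧
    (∀ x, σ (ϵ x) = ϵ (σ x)) ∧ ∀ x, δ (σ x) + σ (δ x) = ϵ x + l x • η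

theorem isContr_of_homology {ϵ δ : V →ₗ[k] V} {η : V} (ee : ∀ x, ϵ (ϵ x) = ϵ x)
    (de : ∀ x, δ (ϵ x) = δ x) (ed : ∀ x, ϵ (δ x) = δ x) (dd : ∀ x, δ (δ x) = 0) (dη : δ η = 0)
    (eη : ϵ η = η) (l : V →ₗ[k] k) (l1 : l η = 1) (ld : ∀ x, l (δ x) = 0)
    (hom : ∀ x, ϵ x = x → δ x = 0 → ∃ y, δ y = x + l x • η) : IsContr ϵ δ η := by
  obtain ⟨t, ht⟩ := exists_ginv δ
  let p : V →ₗ[k] V := ϵ + ϵ ∘ₗ t ∘ₗ δ
  have hp : ∀ x, p x = ϵ x + ϵ (t (δ x)) := fun x => rfl
  have dp : ∀ x, δ (p x) = 0 := fun x => by rw [hp, map_add, de, de, ht, tt k]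
  have ep : ∀ x, ϵ (p x) = p x := fun x => by rw [hp, map_add, ee, ee]
  have pe : ∀ x, p (ϵ x) = p x := fun x => by rw [hp, hp, ee, de]
  have pd : ∀ x, p (δ x) = δ x := fun x => by rw [hp, dd, map_zero, map_zero, add_zero, ed]
  have pη : p η = η := by rw [hp, dη, map_zero, map_zero, add_zero, eη]
  refine ⟨ee, de, ed, dd, dη, eη, l ∘ₗ p, ϵ ∘ₗ t ∘ₗ (p + (l ∘ₗ p).smulRight η), ?_, ?_, ?_, ?_, ?_⟩
  · simp [pη, l1]
  · intro x; simp [pd, ld]
  · intro x; simp [pe]
  · intro x; simp [pe, ee]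
  · intro x
    obtain ⟨y, hy⟩ := hom (p x) (ep x) (dp x)
    simp only [LinearMap.comp_apply, LinearMap.add_apply, LinearMap.smulRight_apply, pd, ld,
      zero_smul, add_zero, de]
    rw [← hy, ht, hy, hp]
    lc2 k (rfl : (0 : V) = 0)

theorem IsContr.hom {ϵ δ : V →ₗ[k] V} {η : V} (h : IsContr ϵ δ η) (x : V) (hx : ϵ x = x)
    (h0 : δ x = 0) : ∃ (c : k) (y : V), x = δ y + c • η := by
  obtain ⟨l, σ, -, -, -, -, e⟩ := h.ex
  refine ⟨l x, σ x, ?_⟩
  have := e x
  rw [h0, map_zero, hx] at this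
  lc2 k this

theorem IsContr.tensor {ϵ δ : V →ₗ[k] V} {η : V} {ϵ' δ' : V' →ₗ[k] V'} {η' : V'}
    (h : IsContr ϵ δ η) (h' : IsContr ϵ' δ' η') :
    IsContr (TensorProduct.map ϵ ϵ') (TensorProduct.map δ ϵ' + TensorProduct.map ϵ δ')
      (η ⊗ₜ[k] η') := by
  obtain ⟨l, σ, a1, a2, a3, a4, a5⟩ := h.ex
  obtain ⟨l', σ', b1, b2, b3, b4, b5⟩ := h'.ex
  refine ⟨fun x => ?_, fun x => ?_, fun x => ?_, fun x => ?_,
    by simp [h.dη, h'.dη], by simp [h.eη, h'.eη],
    (TensorProduct.lid k k).toLinearMap ∘ₗ TensorProduct.map l l',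
    TensorProduct.map σ ϵ' + TensorProduct.map (l.smulRight η) σ', by simp [a1, b1],
    fun x => ?_, fun x => ?_, fun x => ?_, fun x => ?_⟩
  · tind x with a b; simp [h.ee, h'.ee]
  · tind x with a b; simp [h.ee, h'.ee, h.de, h'.de]
  · tind x with a b; simp [h.ee, h'.ee, h.ed, h'.ed]
  · tind x with a b; simp [h.ed, h'.ed, h.de, h'.de, h.dd, h'.dd, tt k]
  · tind x with a b; simp [a2, b2]
  · tind x with a b; simp [a3, b3]
  · tind x with a b; simp [a3, a4, b4, h.eη, h'.ee]
  · induction x using TensorProduct.induction_on with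
    | zero => simp
    | tmul a b =>
      have e1 := congrArg (fun v => v ⊗ₜ[k] ϵ' b) (a5 a)
      have e2 := congrArg (fun v => l a • η ⊗ₜ[k] v) (b5 b)
      simp only [TensorProduct.add_tmul, TensorProduct.tmul_add, smul_add,
        TensorProduct.smul_tmul', TensorProduct.tmul_smul] at e1 e2
      simp only [LinearMap.add_apply, TensorProduct.map_tmul, map_add, LinearMap.smulRight_apply,
        map_smul, h.dη, h.eη, a2, a3, a4, h'.ee, h'.de, h'.ed, smul_zero, zero_smul,
        TensorProduct.zero_tmul, LinearMap.comp_apply, LinearEquiv.coe_coe, TensorProduct.lid_tmul,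
        smul_eq_mul, TensorProduct.smul_tmul', smul_smul]
      simp only [smul_smul] at e2
      lc2 k (e1 + e2)
    | add x y hx hy =>
      simp only [map_add, add_smul] at hx hy ⊢
      lc2 k (hx + hy)

theorem IsContr.transport {ϵ δ : V →ₗ[k] V} {η : V} (h : IsContr ϵ δ η) (Φ : V ≃ₗ[k] W)
    {ϵ' δ' : W →ₗ[k] W} (he : ∀ x, ϵ' (Φ x) = Φ (ϵ x)) (hd : ∀ x, δ' (Φ x) = Φ (δ x)) :
    IsContr ϵ' δ' (Φ η) := by
  obtain ⟨l, σ, a1, a2, a3, a4, a5⟩ := h.ex
  have he' : ∀ y, Φ.symm (ϵ' y) = ϵ (Φ.symm y) := fun y => by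
    obtain ⟨x, rfl⟩ := Φ.surjective y; simp [he]
  have hd' : ∀ y, Φ.symm (δ' y) = δ (Φ.symm y) := fun y => by
    obtain ⟨x, rfl⟩ := Φ.surjective y; simp [hd]
  refine ⟨fun y => ?_, fun y => ?_, fun y => ?_, fun y => ?_, ?_, ?_, l ∘ₗ Φ.symm.toLinearMap,
    Φ.toLinearMap ∘ₗ σ ∘ₗ Φ.symm.toLinearMap, by simp [a1], fun y => by simp [hd', a2],
    fun y => by simp [he', a3], fun y => by simp [he', he, a4], fun y => ?_⟩
  · obtain ⟨x, rfl⟩ := Φ.surjective y; simp [he, h.ee]
  · obtain ⟨x, rfl⟩ := Φ.surjective y; simp [he, hd, h.de]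
  · obtain ⟨x, rfl⟩ := Φ.surjective y; simp [he, hd, h.ed]
  · obtain ⟨x, rfl⟩ := Φ.surjective y; simp [hd, h.dd]
  · simp [hd, h.dη]
  · simp [he, h.eη]
  · obtain ⟨x, rfl⟩ := Φ.surjective y
    have := congrArg Φ (a5 x)
    simpa [hd, he] using this

/-- the cone of a map that sends the generator of the homology to the generator is acyclic -/
theorem cone_exact {ϵ δ : V →ₗ[k] V} {η : V} {ϵ' δ' : W →ₗ[k] W} (c : V →ₗ[k] W)
    (h : IsContr ϵ δ η) (h' : IsContr ϵ' δ' (c η)) (cd : ∀ x, c (δ x) = δ' (c x))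
    (ec : ∀ x, ϵ' (c x) = c x) (p : V) (q : W) (hp : ϵ p = p) (hq : ϵ' q = q) (h1 : δ p = 0)
    (h2 : c p + δ' q = 0) : ∃ p' q', δ p' = p ∧ c p' + δ' q' = q := by
  obtain ⟨a, p', e⟩ := h.hom p hp h1
  have ha : a = 0 := by
    obtain ⟨l, σ, a1, a2, -⟩ := h'.ex
    have := congrArg l h2
    rw [e] at this
    simpa [cd, a2, a1] using this
  rw [ha, zero_smul, add_zero] at e
  obtain ⟨b, q', e'⟩ := h'.hom (q + c p') (by rw [map_add, hq, ec]) (by
    rw [map_add, ← cd, ← e, add_comm, h2])
  refine ⟨p' + b • η, q', by simp [h.dη, e], ?_⟩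
  rw [map_add, map_smul]
  lc2 k e'

end Contr

section Mat

variable {k : Type*} [Field k]
variable {V V' W W' : Type*} [AddCommGroup V] [Module k V] [AddCommGroup V'] [Module k V']
  [AddCommGroup W] [Module k W] [AddCommGroup W'] [Module k W']
variable {I J I' J' : Type*}

/-- the linear map given by a row-finite matrix of linear maps -/
noncomputable def cx (A : I → J →₀ (V →ₗ[k] W)) : (I →₀ V) →ₗ[k] (J →₀ W) :=
  Finsupp.lsum k fun i =>
    { toFun := fun v => (A i).mapRange (fun f => f v) rfl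
      map_add' := fun v w => by ext j; simp
      map_smul' := fun c v => by ext j; simp }

@[simp] theorem cx_single (A : I → J →₀ (V →ₗ[k] W)) (i : I) (v : V) (j : J) :
    cx A (Finsupp.single i v) j = A i j v := by
  simp [cx]

theorem cx_single' [DecidableEq J] (A : I → J →₀ (V →ₗ[k] W)) (i : I) (v : V) (j : J)
    (f : V →ₗ[k] W) (h : A i = Finsupp.single j f) :
    cx A (Finsupp.single i v) = Finsupp.single j (f v) := by
  ext j'
  rw [cx_single, h, Finsupp.single_apply, Finsupp.single_apply]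
  split_ifs <;> rfl

theorem fs_ind {X : Type*} [AddCommGroup X] [Module k X] (f g : (I →₀ V) →ₗ[k] X)
    (h : ∀ i v, f (Finsupp.single i v) = g (Finsupp.single i v)) (x : I →₀ V) : f x = g x :=
  LinearMap.congr_fun (Finsupp.lhom_ext h) x

theorem cx_add (A B : I → J →₀ (V →ₗ[k] W)) (x : I →₀ V) : cx (A + B) x = cx A x + cx B x :=
  fs_ind _ (cx A + cx B) (fun i v => by ext j; simp) x

theorem cx_apply_eq_zero (A : I → J →₀ (V →ₗ[k] W)) (x : I →₀ V) (j : J)
    (h : ∀ i, x i ≠ 0 → A i j (x i) = 0) : cx A x j = 0 := by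
  conv_lhs => rw [← x.sum_single, Finsupp.sum, map_sum, Finsupp.finsetSum_apply]
  exact Finset.sum_eq_zero fun i hi => by
    rw [cx_single]; exact h i (Finsupp.mem_support_iff.1 hi)

theorem cx_apply_single (A : I → J →₀ (V →ₗ[k] W)) (x : I →₀ V) (i : I) (j : J)
    (h : ∀ i', i' ≠ i → A i' j (x i') = 0) : cx A x j = A i j (x i) := by
  classical
  conv_lhs => rw [← Finsupp.single_add_erase i x, map_add, Finsupp.add_apply, cx_single]
  rw [cx_apply_eq_zero, add_zero]
  intro i' hi'
  by_cases e : i' = i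
  · subst e; simp at hi'
  · rw [Finsupp.erase_ne e]; exact h i' e

/-- homogeneous matrices commute with the degree projections -/
theorem cx_filter (A : I → J →₀ (V →ₗ[k] W)) (p : I → Prop) (q : J → Prop) [DecidablePred p]
    [DecidablePred q] (h : ∀ i j, A i j ≠ 0 → (p i ↔ q j)) (x : I →₀ V) :
    cx A (x.filter p) = (cx A x).filter q := by
  induction x using Finsupp.induction_linear with
  | zero => simp [Finsupp.filter_zero]
  | add x y hx hy => simp only [Finsupp.filter_add, map_add, hx, hy]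
  | single i v =>
    ext j
    by_cases hA : A i j = 0
    · by_cases hp : p i <;> by_cases hq : q j <;>
        simp [Finsupp.filter_single_of_pos, Finsupp.filter_single_of_neg, hp, hq, hA,
          Finsupp.filter_apply]
    · have := h i j hA
      by_cases hp : p i
      · simp [Finsupp.filter_single_of_pos _ hp, Finsupp.filter_apply, this.1 hp]
      · simp [Finsupp.filter_single_of_neg _ hp, Finsupp.filter_apply, mt this.2 hp]

theorem cx_tensor (A : I → J →₀ (V →ₗ[k] W)) (B : I' → J' →₀ (V' →ₗ[k] W'))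
    (C : I × I' → J × J' →₀ (V ⊗[k] V' →ₗ[k] W ⊗[k] W'))
    (h : ∀ i i' j j', C (i, i') (j, j') = TensorProduct.map (A i j) (B i' j'))
    (x : (I →₀ V) ⊗[k] (I' →₀ V')) :
    cx C (finsuppTensorFinsupp k k V V' I I' x) =
      finsuppTensorFinsupp k k W W' J J' (TensorProduct.map (cx A) (cx B) x) := by
  induction x using TensorProduct.induction_on with
  | zero => simp
  | add x y hx hy => simp only [map_add, hx, hy]
  | tmul a b =>
    induction a using Finsupp.induction_linear with
    | zero => simp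
    | add x y hx hy => simp only [TensorProduct.add_tmul, map_add, hx, hy]
    | single i v =>
      induction b using Finsupp.induction_linear with
      | zero => simp
      | add x y hx hy => simp only [TensorProduct.tmul_add, map_add, hx, hy]
      | single i' v' =>
        ext ⟨j, j'⟩
        simp [finsuppTensorFinsupp_single, finsuppTensorFinsupp_apply, h]

/-- complexes with one non-zero entry in every row -/
theorem isContr_single [CharP k 2] [DecidableEq I] (σ : I → I) (ε A : I → V →ₗ[k] V) (i₀ : I)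
    (v₀ : V) (l : V →ₗ[k] k)
    (inj : ∀ i i', σ i = σ i' → i = i' ∨ A i = 0 ∨ A i' = 0)
    (ee : ∀ i v, ε i (ε i v) = ε i v) (de : ∀ i v, A i (ε i v) = A i v)
    (ed : ∀ i v, ε (σ i) (A i v) = A i v) (dd : ∀ i v, A (σ i) (A i v) = 0)
    (dη : A i₀ v₀ = 0) (eη : ε i₀ v₀ = v₀) (l1 : l v₀ = 1)
    (ld : ∀ i v, σ i = i₀ → l (A i v) = 0)
    (hom : ∀ i v, ε i v = v → A i v = 0 → v + (if i = i₀ then l v • v₀ else 0) = 0 ∨
      ∃ i' w, σ i' = i ∧ A i' w = v + (if i = i₀ then l v • v₀ else 0)) :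
    IsContr (cx fun i => Finsupp.single i (ε i)) (cx fun i => Finsupp.single (σ i) (A i))
      (Finsupp.single i₀ v₀) := by
  have he : ∀ i v, cx (fun i => Finsupp.single i (ε i)) (Finsupp.single i v) =
    Finsupp.single i (ε i v) := fun i v => cx_single' _ _ _ _ _ rfl
  have hd : ∀ i v, cx (fun i => Finsupp.single (σ i) (A i)) (Finsupp.single i v) =
    Finsupp.single (σ i) (A i v) := fun i v => cx_single' _ _ _ _ _ rfl
  refine isContr_of_homology (fun x => by find x with i v; simp [he, ee])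
    (fun x => by find x with i v; simp [he, hd, de])
    (fun x => by find x with i v; simp [he, hd, ed])
    (fun x => by find x with i v; simp [hd, dd]) (by simp [hd, dη]) (by simp [he, eη])
    (l ∘ₗ Finsupp.lapply i₀) (by simp [l1])
    (fun x => by
      find x with i v
      simp only [LinearMap.comp_apply, hd, Finsupp.lapply_apply, Finsupp.single_apply]
      split_ifs with h
      · exact ld i v h
      · simp) fun x hx h0 => ?_
  have c1 : ∀ i, ε i (x i) = x i := fun i => by
    conv_rhs => rw [← hx]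
    rw [cx_apply_single _ _ i i (fun i' hi' => by simp [Finsupp.single_apply, hi'])]
    simp
  have c2 : ∀ i, A i (x i) = 0 := fun i => by
    by_cases hA : A i = 0
    · simp [hA]
    · have := DFunLike.congr_fun h0 (σ i)
      rw [cx_apply_single _ _ i (σ i) (fun i' hi' => by
        rw [Finsupp.single_apply]
        split_ifs with h
        · rcases inj i' i h with h | h | h
          · exact absurd h hi'
          · simp [h]
          · exact absurd h hA
        · rfl)] at this
      simpa using this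
  have c3 : ∀ i, ∃ y, cx (fun i => Finsupp.single (σ i) (A i)) y =
      Finsupp.single i (x i) + (l ∘ₗ Finsupp.lapply i₀) (Finsupp.single i (x i)) •
        Finsupp.single i₀ v₀ := fun i => by
    have e : Finsupp.single i (x i) + (l ∘ₗ Finsupp.lapply i₀) (Finsupp.single i (x i)) •
        Finsupp.single i₀ v₀ = Finsupp.single i (x i + (if i = i₀ then l (x i) • v₀ else 0)) := by
      by_cases h : i = i₀
      · subst h; simp [Finsupp.single_add]
      · simp [h, Finsupp.single_apply]
    rw [e]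
    rcases hom i (x i) (c1 i) (c2 i) with h | ⟨i', w, h1, h2⟩
    · exact ⟨0, by rw [h]; simp⟩
    · exact ⟨Finsupp.single i' w, by rw [hd, h1, h2]⟩
  choose y hy using c3
  refine ⟨∑ i ∈ x.support, y i, ?_⟩
  rw [map_sum]
  simp only [hy]
  rw [Finset.sum_add_distrib, ← Finset.sum_smul, ← map_sum]
  have : ∑ i ∈ x.support, Finsupp.single i (x i) = x := x.sum_single
  rw [this]

end Mat

end Crest.Agent.R186
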