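import Crest.Agent.R186.Pkg

/-! Row 186: the diagram chases of the gluing construction, as statements on `k`-linear maps. -/

set_option autoImplicit false
set_option linter.unusedSectionVars false

namespace Crest.Agent.R186

open LinearMap (trace)

universe u

namespace Pkg

variable {k : Type u} [Field k] [CharP k 2] {E : Type u} [Ring E] [Algebra k E]
  [FiniteDimensional k E] (D : Pkg k E)

local notation "P" => D.T.P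
local notation "d" => D.T.dk
local notation "s" => D.T.s

/-- the trace functional on stable endomorphisms -/
noncomputable def τ (m : ℤ) : (P (m + 1 + 1) →ₗ[k] P (m + 1)) →ₗ[k] k :=
  trace k _ ∘ₗ LinearMap.llcomp k _ _ _ (s (m + 1))

theorem τ_apply (m : ℤ) (y : P (m + 1 + 1) →ₗ[k] P (m + 1)) :
    D.τ m y = trace k _ (s (m + 1) ∘ₗ y) := rfl

theorem τ_d_comp (m : ℤ) (ω : P (m + 1 + 1) →ₗ[k] P (m + 1 + 1))
    (hω : ∀ x, ω (d (m + 1 + 1) x) = 0) : D.τ m (d (m + 1) ∘ₗ ω) = trace k _ ω := by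
  have h1 : s (m + 1) ∘ₗ d (m + 1) ∘ₗ ω = ω + d (m + 1 + 1) ∘ₗ (s (m + 1 + 1) ∘ₗ ω) := by
    ext x; simp [D.sd]
  have h2 : (s (m + 1 + 1) ∘ₗ ω) ∘ₗ d (m + 1 + 1) = 0 := by ext x; simp [hω]
  rw [τ_apply, h1, map_add, LinearMap.trace_comp_comm', h2, map_zero, add_zero]

theorem τ_cobd (m : ℤ) (y' : P (m + 1) →ₗ[k] P (m + 1)) (hS : IsS D.S y')
    (h0 : ∀ x, d m (y' x) = 0) : D.τ m (y' ∘ₗ d (m + 1)) = 0 := by
  have h1 : d (m + 1) ∘ₗ (s (m + 1) ∘ₗ y') = y' := by ext x; simp [D.ds, h0]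
  rw [τ_apply, ← LinearMap.comp_assoc, LinearMap.trace_comp_comm', h1]
  exact D.trS _ _ hS

theorem τ_d (m : ℤ) : D.τ m (d (m + 1)) = 1 := by
  rw [τ_apply, LinearMap.trace_comp_comm', D.trace_ds]

theorem τ_conj (m : ℤ) (v : P (m + 1 + 1) →ₗ[k] P (m + 1)) (h0 : ∀ x, d m (v x) = 0)
    (h1 : ∀ x, v (d (m + 1 + 1) x) = 0) :
    D.τ m ((D.θ (m + 1)).symm.toLinearMap ∘ₗ v ∘ₗ (D.θ (m + 1 + 1)).toLinearMap) = D.τ m v := by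
  have e1 : v = d (m + 1) ∘ₗ (s (m + 1) ∘ₗ v) := by ext x; simp [D.ds, h0]
  have e2 : (D.θ (m + 1)).symm.toLinearMap ∘ₗ v ∘ₗ (D.θ (m + 1 + 1)).toLinearMap =
      d (m + 1) ∘ₗ ((D.θ (m + 1 + 1)).symm.toLinearMap ∘ₗ
        ((s (m + 1) ∘ₗ v) ∘ₗ (D.θ (m + 1 + 1)).toLinearMap)) := by
    ext x; simp [D.θs_d, D.ds, h0]
  rw [e2, D.τ_d_comp _ _ (fun x => by simp [← D.θ_d, h1]), LinearMap.trace_comp_comm', τ_apply]
  congr 1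
  ext x; simp

theorem τ_θ (m : ℤ) (η : P (m + 1 + 1) →ₗ[k] P (m + 1)) (hS : IsS D.S η) (h0 : ∀ x, d m (η x) = 0)
    (h1 : ∀ x, η (d (m + 1 + 1) x) = 0) :
    D.τ m ((D.θ (m + 1)).toLinearMap ∘ₗ η) = D.τ m η := by
  have e : (D.θ (m + 1)).toLinearMap ∘ₗ η = η + d (m + 1) ∘ₗ (D.κ (m + 1) ∘ₗ η) := by
    ext x
    simp only [LinearMap.comp_apply, LinearEquiv.coe_coe, LinearMap.add_apply, D.dκ, h0, map_zero]
    lc2 k (rfl : (0 : P (m + 1)) = 0)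
  rw [e, map_add, D.τ_d_comp _ _ (fun x => by simp [h1]), D.trS _ _ ((D.κ_S _).comp hS), add_zero]

/-- surjectivity of `1 + Θ` (in degree zero: on classes of trace zero) -/
theorem sur' (n m : ℤ) (y : P (n + 1) →ₗ[k] P (m + 1)) (hE : IsE E y) (h0 : ∀ x, d m (y x) = 0)
    (h1 : ∀ x, y (d (n + 1) x) = 0)
    (hτ : ∀ e : n = m + 1, D.τ m (e ▸ y) = 0) :
    ∃ (v : P (n + 1) →ₗ[k] P (m + 1)) (y' : P n →ₗ[k] P (m + 1)),
      IsE E v ∧ (∀ x, d m (v x) = 0) ∧ (∀ x, v (d (n + 1) x) = 0) ∧ IsE E y' ∧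
      (∀ x, d m (y' x) = 0) ∧
      ∀ x, y x = v x + (D.θ (m + 1)).symm (v (D.θ (n + 1) x)) + y' (d n x) := by
  obtain ⟨y₀, hy₀⟩ := D.sur n m
  obtain ⟨c, v, y', hc, hv, hv0, hv1, hy', hy'0, e⟩ := hy₀ y hE h0 h1
  suffices hc0 : c = 0 by
    refine ⟨v, y', hv, hv0, hv1, hy', hy'0, fun x => ?_⟩
    rw [e, hc0, zero_smul, zero_add]
  by_cases hn : n = m + 1
  swap
  · exact hc (by omega)
  subst hn
  have key : ∀ (c : k) (y v : P (m + 1 + 1) →ₗ[k] P (m + 1)) (y' : P (m + 1) →ₗ[k] P (m + 1)),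
      (∀ x, d m (v x) = 0) → (∀ x, v (d (m + 1 + 1) x) = 0) → IsE E y' → (∀ x, d m (y' x) = 0) →
      (∀ x, y x = c • y₀ x + v x + (D.θ (m + 1)).symm (v (D.θ (m + 1 + 1) x)) + y' (d (m + 1) x)) →
      D.τ m y = c * D.τ m y₀ := by
    intro c y v y' hv0 hv1 hy' hy'0 e
    have : y = c • y₀ + v + (D.θ (m + 1)).symm.toLinearMap ∘ₗ v ∘ₗ (D.θ (m + 1 + 1)).toLinearMap +
        y' ∘ₗ d (m + 1) := LinearMap.ext e
    rw [this, map_add, map_add, map_add, D.τ_conj _ _ hv0 hv1, D.τ_cobd _ _ hy'.toS hy'0, map_smul,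
      smul_eq_mul, add_zero, add_assoc, CharTwo.add_self_eq_zero, add_zero]
  obtain ⟨c₀, v₀, y₀', -, -, hv0', hv1', hy₀', hy₀'0, e₀⟩ :=
    hy₀ (d (m + 1)) (D.T.isE_dk _) (D.T.dk_dk m) (D.T.dk_dk _)
  have k1 := key c₀ _ v₀ y₀' hv0' hv1' hy₀' hy₀'0 e₀
  have k2 := key c _ v y' hv0 hv1 hy' hy'0 e
  rw [D.τ_d] at k1
  rw [hτ rfl] at k2
  rcases mul_eq_zero.1 k2.symm with h | h
  · exact h
  · rw [h, mul_zero] at k1; exact absurd k1 one_ne_zero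

/-- injectivity of `1 + Θ` in non-zero degree -/
theorem inj (n m : ℤ) (hnm : n - m - 1 ≠ 0) (y : P (n + 1) →ₗ[k] P (m + 1)) (hE : IsE E y)
    (h0 : ∀ x, d m (y x) = 0) (h1 : ∀ x, y (d (n + 1) x) = 0)
    (b : P n →ₗ[k] P (m + 1)) (hb : IsE E b) (hb0 : ∀ x, d m (b x) = 0)
    (e : ∀ x, y x + (D.θ (m + 1)).symm (y (D.θ (n + 1) x)) = b (d n x)) :
    ∃ y' : P n →ₗ[k] P (m + 1), IsE E y' ∧ (∀ x, d m (y' x) = 0) ∧ ∀ x, y x = y' (d n x) := by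
  let Z : Submodule k (P (n + 1) →ₗ[k] P (m + 1)) :=
    { carrier := {y | IsE E y ∧ (∀ x, d m (y x) = 0) ∧ ∀ x, y (d (n + 1) x) = 0}
      add_mem' := fun ⟨a1, a2, a3⟩ ⟨b1, b2, b3⟩ =>
        ⟨a1.add b1, fun x => by simp [a2, b2], fun x => by simp [a3, b3]⟩
      zero_mem' := ⟨IsE.zero, fun x => by simp, fun x => by simp⟩
      smul_mem' := fun c _ ⟨a1, a2, a3⟩ =>
        ⟨a1.smul c, fun x => by simp [a2], fun x => by simp [a3]⟩ }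
  let B : Submodule k (P (n + 1) →ₗ[k] P (m + 1)) :=
    { carrier := {y | ∃ y' : P n →ₗ[k] P (m + 1), IsE E y' ∧ (∀ x, d m (y' x) = 0) ∧
        ∀ x, y x = y' (d n x)}
      add_mem' := fun ⟨a, a1, a2, a3⟩ ⟨b, b1, b2, b3⟩ =>
        ⟨a + b, a1.add b1, fun x => by simp [a2, b2], fun x => by simp [a3, b3]⟩
      zero_mem' := ⟨0, IsE.zero, fun x => by simp, fun x => by simp⟩
      smul_mem' := fun c _ ⟨a, a1, a2, a3⟩ =>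
        ⟨c • a, a1.smul c, fun x => by simp [a2], fun x => by simp [a3]⟩ }
  let Ψ : (P (n + 1) →ₗ[k] P (m + 1)) →ₗ[k] (P (n + 1) →ₗ[k] P (m + 1)) :=
    LinearMap.id + LinearMap.llcomp k _ _ _ (D.θ (m + 1)).symm.toLinearMap ∘ₗ
      LinearMap.lcomp k _ (D.θ (n + 1)).toLinearMap
  have hΨ : ∀ y x, Ψ y x = y x + (D.θ (m + 1)).symm (y (D.θ (n + 1) x)) := fun y x => rfl
  refine inj_mod_of_surj_mod Z B Ψ ?_ ?_ ?_ y ⟨hE, h0, h1⟩ ⟨b, hb, hb0, e⟩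
  · rintro y ⟨a1, a2, a3⟩
    refine ⟨a1.add ((D.θ_H _).symm_comp (a1.comp_H (D.θ_H _))), fun x => ?_, fun x => ?_⟩
    · simp [hΨ, a2, D.θs_d]
    · simp [hΨ, a3, ← D.θ_d]
  · rintro y ⟨a, a1, a2, a3⟩
    refine ⟨a + (D.θ (m + 1)).symm.toLinearMap ∘ₗ a ∘ₗ (D.θ n).toLinearMap,
      a1.add ((D.θ_H _).symm_comp (a1.comp_H (D.θ_H _))), fun x => ?_, fun x => ?_⟩
    · simp [a2, D.θs_d]
    · simp [hΨ, a3, D.θ_d]
  · rintro y ⟨a1, a2, a3⟩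
    obtain ⟨v, y', hv, hv0, hv1, hy', hy'0, e⟩ := D.sur' n m y a1 a2 a3 (fun e => by omega)
    refine ⟨v, ⟨hv, hv0, hv1⟩, y', hy', hy'0, fun x => ?_⟩
    rw [LinearMap.sub_apply, hΨ, e]; abel

theorem vanS0 (m : ℤ) (y : P (m + 1 + 1) →ₗ[k] P (m + 1)) (hS : IsS D.S y)
    (h0 : ∀ x, d m (y x) = 0) (h1 : ∀ x, y (d (m + 1 + 1) x) = 0) :
    ∃ (c : k) (y' : P (m + 1) →ₗ[k] P (m + 1)), IsS D.S y' ∧ (∀ x, d m (y' x) = 0) ∧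
      ∀ x, y x = c • d (m + 1) x + y' (d (m + 1) x) := by
  obtain ⟨y₀, hy₀⟩ := D.vanS (m + 1) m (by omega) (by omega)
  obtain ⟨c, y', -, hy', hy'0, e⟩ := hy₀ y hS h0 h1
  obtain ⟨c₀, y₀', -, hy₀', hy₀'0, e₀⟩ :=
    hy₀ (d (m + 1)) (D.T.isE_dk _).toS (D.T.dk_dk m) (D.T.dk_dk _)
  have hc₀ : c₀ ≠ 0 := by
    intro h
    have : d (m + 1) = y₀' ∘ₗ d (m + 1) := by
      ext x; rw [LinearMap.comp_apply, ← zero_add (y₀' _), ← zero_smul k (y₀ x), ← h, ← e₀]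
    have h2 := D.τ_cobd m y₀' hy₀' hy₀'0
    rw [← this, D.τ_d] at h2
    exact one_ne_zero h2
  refine ⟨c * c₀⁻¹, y' - (c * c₀⁻¹) • y₀', ?_, fun x => by simp [hy'0, hy₀'0], fun x => ?_⟩
  · rw [sub_eq_add_neg, ← neg_smul]; exact hy'.add (hy₀'.smul _)
  · have : (c * c₀⁻¹) • d (m + 1) x = c • y₀ x + (c * c₀⁻¹) • y₀' (d (m + 1) x) := by
      conv_lhs => rw [e₀]
      rw [smul_add, smul_smul, mul_assoc, inv_mul_cancel₀ hc₀, mul_one]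
    rw [e, this, LinearMap.sub_apply, LinearMap.smul_apply]; abel

/-- Step 1: the two diagonal components are coboundaries -/
theorem step1 (n m : ℤ) (hnm : n - m - 1 ≠ 0)
    (f : P (n + 1 + 1 + 1) →ₗ[k] P (m + 1 + 1 + 1)) (g : P (n + 1) →ₗ[k] P (m + 1))
    (ω₁ ω₂ : P (n + 1) →ₗ[k] P (m + 1 + 1 + 1))
    (hdf : ∀ x, d (m + 1 + 1) (f x) = 0) (hdg : ∀ x, d m (g x) = 0)
    (hfd : ∀ x, f (d (n + 1 + 1 + 1) x) = 0) (hgd : ∀ x, g (d (n + 1) x) = 0)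
    (hp₁ : IsE E (s (m + 1) ∘ₗ g + d (m + 1 + 1) ∘ₗ ω₁))
    (hp₂ : IsH D.h ((s (m + 1) + D.κ (m + 1)) ∘ₗ g + d (m + 1 + 1) ∘ₗ ω₂))
    (hr₁ : IsE E (ω₁ ∘ₗ d (n + 1) + f ∘ₗ s (n + 1 + 1)))
    (hr₂ : IsH D.h (ω₂ ∘ₗ d (n + 1) + f ∘ₗ (s (n + 1 + 1) + D.κ (n + 1 + 1)))) :
    ∃ (f' : P (n + 1 + 1) →ₗ[k] P (m + 1 + 1 + 1)) (ζ' : P n →ₗ[k] P (m + 1 + 1)),
      IsE E f' ∧ IsE E ζ' ∧ (∀ x, d (m + 1 + 1) (f' x) = 0) ∧ (∀ x, f' (d (n + 1 + 1) x) = f x) ∧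
      ∀ x, d (m + 1) (ζ' (d n x)) = g x := by
  set p₁ := s (m + 1) ∘ₗ g + d (m + 1 + 1) ∘ₗ ω₁ with hp₁d
  set p₂ := (s (m + 1) + D.κ (m + 1)) ∘ₗ g + d (m + 1 + 1) ∘ₗ ω₂ with hp₂d
  set r₁ := ω₁ ∘ₗ d (n + 1) + f ∘ₗ s (n + 1 + 1) with hr₁d
  set r₂ := ω₂ ∘ₗ d (n + 1) + f ∘ₗ (s (n + 1 + 1) + D.κ (n + 1 + 1)) with hr₂d
  have dp₁ : ∀ x, d (m + 1) (p₁ x) = g x := fun x => by simp [hp₁d, D.ds, hdg, D.T.dk_dk]
  have dp₂ : ∀ x, d (m + 1) (p₂ x) = D.θ (m + 1) (g x) := fun x => by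
    simp only [hp₂d, LinearMap.add_apply, LinearMap.comp_apply, map_add, D.ds, D.dκ, hdg,
      D.T.dk_dk, map_zero]
    lc2 k (rfl : (0 : P (m + 1)) = 0)
  have r₁d : ∀ x, r₁ (d (n + 1 + 1) x) = f x := fun x => by simp [hr₁d, D.sd, hfd, D.T.dk_dk]
  have r₂d : ∀ x, r₂ (d (n + 1 + 1) x) = f (D.θ _ x) := fun x => by
    simp only [hr₂d, LinearMap.add_apply, LinearMap.comp_apply, map_add, D.sd, D.κd, hfd,
      D.T.dk_dk, map_zero]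
    lc2 k (rfl : (0 : P (m + 1 + 1 + 1)) = 0)
  have y₁ : ∀ x, p₁ (d (n + 1) x) = d (m + 1 + 1) (r₁ x) := fun x => by
    simp [hp₁d, hr₁d, hgd, hdf]
  have y₂ : ∀ x, p₂ (d (n + 1) x) = d (m + 1 + 1) (r₂ x) := fun x => by
    simp [hp₂d, hr₂d, hgd, hdf]
  obtain ⟨ζ, hζ, eζ⟩ := D.T.taE _ (n + 1) (r₂ ∘ₗ (D.θ _).symm.toLinearMap + r₁)
    (((D.θ_H _).comp_symm hr₂).add hr₁) (fun x => by
      simp only [LinearMap.add_apply, LinearMap.comp_apply, LinearEquiv.coe_coe, ← D.θs_d, r₂d, r₁d,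
        LinearEquiv.apply_symm_apply, tt k])
  obtain ⟨y', hy', hy'0, ey'⟩ := D.inj (n + 1) (m + 1) (by omega) (p₁ ∘ₗ d (n + 1))
    (hp₁.comp (D.T.isE_dk _)) (fun x => by simp [dp₁, hgd]) (fun x => by simp [D.T.dk_dk])
    (((D.θ _).symm.toLinearMap ∘ₗ p₂ + p₁) +
      (D.θ _).symm.toLinearMap ∘ₗ (d (m + 1 + 1) ∘ₗ ζ) ∘ₗ (D.θ _).toLinearMap)
    ((((D.θ_H _).symm_comp hp₂).add hp₁).add
      ((D.θ_H _).symm_comp (((D.T.isE_dk _).comp hζ).comp_H (D.θ_H _))))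
    (fun x => by
      simp only [LinearMap.add_apply, LinearMap.comp_apply, LinearEquiv.coe_coe, map_add, D.θs_d,
        dp₂, dp₁, D.T.dk_dk, map_zero, LinearEquiv.symm_apply_apply, tt k, add_zero])
    (fun x => by
      simp only [LinearMap.add_apply, LinearMap.comp_apply, LinearEquiv.coe_coe, ← D.θ_d, eζ, y₁,
        y₂, LinearEquiv.symm_apply_apply, map_add]
      lc2 k (rfl : (0 : P (m + 1 + 1)) = 0))
  obtain ⟨ζ', hζ', eζ'⟩ := D.T.taE _ n (p₁ + y') (hp₁.add hy') (fun x => by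
    have := ey' x
    simp only [LinearMap.comp_apply] at this
    rw [LinearMap.add_apply, this, tt k])
  obtain ⟨y'', hy'', ey''⟩ := D.T.liftE _ (m + 1) y' hy' hy'0
  refine ⟨r₁ + y'' ∘ₗ d (n + 1), ζ', hr₁.add (hy''.comp (D.T.isE_dk _)), hζ', fun x => ?_,
    fun x => ?_, fun x => ?_⟩
  · have := ey' x
    simp only [LinearMap.comp_apply] at this
    simp only [LinearMap.add_apply, LinearMap.comp_apply, map_add, ey'', ← y₁, this, tt k]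
  · simp [r₁d, D.T.dk_dk]
  · simp [eζ', dp₁, hy'0]

end Pkg

end Crest.Agent.R186
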