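import Crest.Agent.R186.Core

/-! Row 186: the diagram chases of the gluing construction, second part. -/

set_option autoImplicit false
set_option linter.unusedSectionVars false
set_option linter.unusedSimpArgs false

namespace Crest.Agent.R186

open LinearMap (trace)

universe u

namespace Pkg

variable {k : Type u} [Field k] [CharP k 2] {E : Type u} [Ring E] [Algebra k E]
  [FiniteDimensional k E] (D : Pkg k E)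

local notation "P" => D.T.P
local notation "d" => D.T.dk
local notation "s" => D.T.s

theorem final_aux1 (n M : ℤ) (ω₀ : P (n + 1) →ₗ[k] P (M + 1)) (h0 : ∀ x, d M (ω₀ x) = 0)
    (hT : TC D.S (ω₀ ∘ₗ d (n + 1))) (γ y' : P (M + 1) →ₗ[k] P (n + 1)) (hγ : IsS D.S γ)
    (hy' : IsS D.S y') (hy'0 : ∀ x, d n (y' x) = 0)
    (e : ∀ x, γ (d (M + 1) x) = y' (d (M + 1) x)) : trace k _ (ω₀ ∘ₗ γ) = 0 := by
  obtain ⟨γ₂, hγ₂, e₂⟩ := D.liftS' _ n y' hy' hy'0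
  obtain ⟨γ₃, hγ₃, e₃⟩ := D.taS' _ M (γ + y') (hγ.add hy') (fun x => by
    rw [LinearMap.add_apply, e, tt k])
  have : ω₀ ∘ₗ γ = (ω₀ ∘ₗ d (n + 1)) ∘ₗ γ₂ + (ω₀ ∘ₗ γ₃) ∘ₗ d M := by
    ext x
    simp only [LinearMap.comp_apply, LinearMap.add_apply, e₂, e₃, map_add]
    lc2 k (rfl : (0 : P (M + 1)) = 0)
  rw [this, map_add, hT _ hγ₂, zero_add, LinearMap.trace_comp_comm']
  have : d M ∘ₗ ω₀ ∘ₗ γ₃ = 0 := by ext x; simp [h0]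
  rw [this, map_zero]

theorem final_aux2 (n M : ℤ) (ω₀ : P (n + 1) →ₗ[k] P (M + 1)) (h0 : ∀ x, d M (ω₀ x) = 0)
    (hker : ∀ γ : P (M + 1) →ₗ[k] P (n + 1), IsS D.S γ → (∀ x, d n (γ (d (M + 1) x)) = 0) →
      trace k _ (ω₀ ∘ₗ γ) = 0) :
    ∃ ω' : P (n + 1) →ₗ[k] P (M + 1), (∀ x, d M (ω' x) = 0) ∧ TC D.S ω' ∧
      ∀ x, ω' (d (n + 1) x) = ω₀ (d (n + 1) x) := by
  obtain ⟨ξ, hξ⟩ := exists_rep (sMaps D.S (P (M + 1)) (P (n + 1)))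
    (LinearMap.llcomp k _ _ _ (d n) ∘ₗ LinearMap.lcomp k _ (d (M + 1)))
    (trace k _ ∘ₗ LinearMap.llcomp k _ _ _ ω₀)
    (fun γ hγ h => hker γ hγ fun x => LinearMap.congr_fun h x)
  refine ⟨ω₀ + d (M + 1) ∘ₗ ξ ∘ₗ d n, fun x => by simp [h0, D.T.dk_dk], fun γ hγ => ?_,
    fun x => by simp [D.T.dk_dk]⟩
  have h1 : trace k _ (ω₀ ∘ₗ γ) = trace k _ ((d n ∘ₗ γ) ∘ₗ (d (M + 1) ∘ₗ ξ)) := hξ γ hγ
  rw [LinearMap.add_comp, map_add, h1, LinearMap.trace_comp_comm']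
  exact CharTwo.add_self_eq_zero _

theorem final (n M : ℤ) (h2 : M - n ≠ 2) (h3 : M - n ≠ 3)
    (ω : P (n + 1 + 1) →ₗ[k] P (M + 1)) (h0 : ∀ x, d M (ω x) = 0)
    (h1 : ∀ x, ω (d (n + 1 + 1) x) = 0) (hT : TC D.S ω) :
    ∃ ω' : P (n + 1) →ₗ[k] P (M + 1), (∀ x, d M (ω' x) = 0) ∧ TC D.S ω' ∧
      IsE E (ω' ∘ₗ d (n + 1) + ω) := by
  have hωsd : ∀ x, ω (s (n + 1) (d (n + 1) x)) = ω x := fun x => by simp [D.sd, h1]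
  by_cases hM : M = n
  · subst hM
    set c := trace k _ (ω ∘ₗ s (M + 1)) with hc
    set ω₀ := ω ∘ₗ s (M + 1) + c • (d (M + 1) ∘ₗ s (M + 1)) with hω₀
    have a0 : ∀ x, d M (ω₀ x) = 0 := fun x => by simp [hω₀, h0, D.T.dk_dk]
    have a1 : ∀ x, ω₀ (d (M + 1) x) = ω x + c • d (M + 1) x := fun x => by
      simp [hω₀, hωsd, D.dsd]
    have a2 : TC D.S (ω₀ ∘ₗ d (M + 1)) :=
      (hT.add (D.tc_of_S _ ((D.T.isE_dk (M + 1)).smul c).toS)).congr a1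
    have a3 : trace k _ ω₀ = 0 := by
      rw [hω₀, map_add, map_smul, D.trace_ds, smul_eq_mul, mul_one, ← hc, CharTwo.add_self_eq_zero]
    obtain ⟨ω', b0, b1, b2⟩ := D.final_aux2 M M ω₀ a0 (fun γ hγ hγ0 => by
      obtain ⟨c', y', hy', hy'0, e⟩ := D.vanS0 M (γ ∘ₗ d (M + 1))
        (hγ.comp (D.T.isE_dk _).toS) hγ0 (fun x => by simp [D.T.dk_dk])
      have := D.final_aux1 M M ω₀ a0 a2 (γ + c' • LinearMap.id) y'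
        (hγ.add (IsE.id.smul c').toS) hy' hy'0 (fun x => by
          have := e x
          simp only [LinearMap.comp_apply] at this
          simp only [LinearMap.add_apply, LinearMap.smul_apply, LinearMap.id_apply, this]
          lc2 k (rfl : (0 : P (M + 1)) = 0))
      rw [LinearMap.comp_add, map_add, LinearMap.comp_smul, LinearMap.comp_id, map_smul, a3,
        smul_zero, add_zero] at this
      exact this)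
    refine ⟨ω', b0, b1, ((D.T.isE_dk (M + 1)).smul c).congr fun x => ?_⟩
    simp only [LinearMap.add_apply, LinearMap.comp_apply, b2, a1, LinearMap.smul_apply]
    lc2 k (rfl : (0 : P (M + 1)) = 0)
  · have a0 : ∀ x, d M ((ω ∘ₗ s (n + 1)) x) = 0 := fun x => h0 _
    obtain ⟨ω', b0, b1, b2⟩ := D.final_aux2 n M (ω ∘ₗ s (n + 1)) a0 (fun γ hγ hγ0 => by
      obtain ⟨y₀, hy₀⟩ := D.vanS (M + 1) n (by omega) (by omega)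
      obtain ⟨c', y', hc', hy', hy'0, e⟩ := hy₀ (γ ∘ₗ d (M + 1))
        (hγ.comp (D.T.isE_dk _).toS) hγ0 (fun x => by simp [D.T.dk_dk])
      refine D.final_aux1 n M _ a0 (hT.congr hωsd) γ y' hγ hy' hy'0 (fun x => ?_)
      have := e x
      rwa [hc' (by omega), zero_smul, zero_add] at this)
    refine ⟨ω', b0, b1, IsE.zero.congr fun x => ?_⟩
    simp only [LinearMap.add_apply, LinearMap.comp_apply, b2, hωsd, tt k, LinearMap.zero_apply]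

/-- Step 2: the off-diagonal component -/
theorem step2 (n m : ℤ) (h2 : m - n ≠ 0) (h3 : m - n ≠ 1)
    (ω₁ ω₂ : P (n + 1 + 1) →ₗ[k] P (m + 1 + 1 + 1)) (hT : TC D.S (ω₁ + ω₂))
    (hd₁ : IsE E (d (m + 1 + 1) ∘ₗ ω₁)) (hd₂ : IsH D.h (d (m + 1 + 1) ∘ₗ ω₂))
    (h₁d : IsE E (ω₁ ∘ₗ d (n + 1 + 1))) (h₂d : IsH D.h (ω₂ ∘ₗ d (n + 1 + 1))) :
    ∃ (ζ : P (n + 1 + 1) →ₗ[k] P (m + 1 + 1 + 1)) (p : P (n + 1) →ₗ[k] P (m + 1 + 1))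
      (ω₁' ω₂' : P (n + 1) →ₗ[k] P (m + 1 + 1 + 1)), IsE E ζ ∧ IsE E p ∧
      (∀ x, d (m + 1 + 1) (ζ (d (n + 1 + 1) x)) = 0) ∧ (∀ x, d (m + 1) (p (d (n + 1) x)) = 0) ∧
      TC D.S (ω₁' + ω₂') ∧ (∀ x, d (m + 1 + 1) (ω₁' x) = 0) ∧ (∀ x, d (m + 1 + 1) (ω₂' x) = 0) ∧
      IsE E (s (m + 1 + 1) ∘ₗ p ∘ₗ d (n + 1) + ω₁' ∘ₗ d (n + 1) +
        ζ ∘ₗ d (n + 1 + 1) ∘ₗ s (n + 1 + 1) + ω₁) ∧
      IsH D.h ((s (m + 1 + 1) + D.κ (m + 1 + 1)) ∘ₗ p ∘ₗ d (n + 1) + ω₂' ∘ₗ d (n + 1) +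
        ζ ∘ₗ d (n + 1 + 1) ∘ₗ (s (n + 1 + 1) + D.κ (n + 1 + 1)) + ω₂) := by
  have hθS : ∀ j, IsS D.S (D.θ j).toLinearMap := fun j => (D.θ_H j).toS D.h_S
  -- normalisation
  obtain ⟨ζ₁, hζ₁, e₁⟩ := D.T.taE _ (n + 1 + 1) _ h₁d (fun x => by simp [D.T.dk_dk])
  obtain ⟨ζ₂, hζ₂, e₂⟩ := D.T.taE _ (n + 1 + 1) _ ((D.θ_H _).symm_comp h₂d)
    (fun x => by simp [D.T.dk_dk])
  set w₁ := ω₁ + ζ₁ with hw₁
  set w₂ := ω₂ + (D.θ _).toLinearMap ∘ₗ ζ₂ with hw₂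
  have w₁d : ∀ x, w₁ (d (n + 1 + 1) x) = 0 := fun x => by simp [hw₁, e₁, tt k]
  have w₂d : ∀ x, w₂ (d (n + 1 + 1) x) = 0 := fun x => by simp [hw₂, e₂, tt k]
  have hTw : TC D.S (w₁ + w₂) :=
    (hT.add (D.tc_of_S _ (hζ₁.toS.add ((hθS _).comp hζ₂.toS)))).congr fun x => by
      simp only [hw₁, hw₂, LinearMap.add_apply]; abel
  have hy₁ : IsE E (d (m + 1 + 1) ∘ₗ w₁) := by
    rw [hw₁, LinearMap.comp_add]; exact hd₁.add ((D.T.isE_dk _).comp hζ₁)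
  have hy₂ : IsH D.h (d (m + 1 + 1) ∘ₗ w₂) := by
    rw [hw₂, LinearMap.comp_add]; exact hd₂.add ((D.T.isE_dk _).comp_H ((D.θ_H _).comp_E hζ₂))
  have hη := (D.θ_H _).symm_comp hy₂
  obtain ⟨v, y', hv, hv0, hv1, hy', hy'0, ev⟩ := D.sur' (n + 1) (m + 1)
    (d (m + 1 + 1) ∘ₗ w₁ + (D.θ _).symm.toLinearMap ∘ₗ (d (m + 1 + 1) ∘ₗ w₂)) (hy₁.add hη)
    (fun x => by simp [D.T.dk_dk, D.θs_d]) (fun x => by simp [w₁d, w₂d]) (by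
      intro e
      obtain rfl : n = m + 1 := by omega
      have t1 := D.τ_θ (m + 1) _ hη.toS (fun x => by simp [D.T.dk_dk, D.θs_d])
        (fun x => by simp [w₂d])
      have t2 : (D.θ (m + 1 + 1)).toLinearMap ∘ₗ (D.θ _).symm.toLinearMap ∘ₗ
          (d (m + 1 + 1) ∘ₗ w₂) = d (m + 1 + 1) ∘ₗ w₂ := by ext x; simp
      rw [t2] at t1
      change D.τ (m + 1) (d (m + 1 + 1) ∘ₗ w₁ + (D.θ _).symm.toLinearMap ∘ₗ
        (d (m + 1 + 1) ∘ₗ w₂)) = 0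
      rw [map_add, ← t1, D.τ_d_comp _ _ w₁d, D.τ_d_comp _ _ w₂d, ← map_add]
      simpa using hTw LinearMap.id IsE.id.toS)
  obtain ⟨ζ, hζ, eζ⟩ := D.T.liftE _ (m + 1) v hv hv0
  obtain ⟨p, hp, ep⟩ := D.T.taE _ (n + 1) (d (m + 1 + 1) ∘ₗ w₁ + v) (hy₁.add hv)
    (fun x => by simp [w₁d, hv1])
  obtain ⟨y'', hy'', ey''⟩ := D.T.liftE _ (m + 1) y' hy' hy'0
  have ev' : ∀ x, d (m + 1 + 1) (w₂ x) = D.θ _ (d (m + 1 + 1) (w₁ x)) + D.θ _ (v x) +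
      v (D.θ _ x) + D.θ _ (y' (d (n + 1) x)) := fun x => by
    have := congrArg (D.θ (m + 1 + 1)) (ev x)
    simp only [LinearMap.add_apply, LinearMap.comp_apply, LinearEquiv.coe_coe, map_add,
      LinearEquiv.apply_symm_apply] at this
    lc2 k this
  set u₁ := w₁ + ζ ∘ₗ d (n + 1 + 1) ∘ₗ s (n + 1 + 1) + s (m + 1 + 1) ∘ₗ p ∘ₗ d (n + 1) + ζ
    with hu₁
  set u₂ := w₂ + ζ ∘ₗ d (n + 1 + 1) ∘ₗ (s (n + 1 + 1) + D.κ (n + 1 + 1)) +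
    (s (m + 1 + 1) + D.κ (m + 1 + 1)) ∘ₗ p ∘ₗ d (n + 1) + ζ ∘ₗ (D.θ _).toLinearMap +
    (D.θ _).toLinearMap ∘ₗ y'' ∘ₗ d (n + 1) with hu₂
  have du₁ : ∀ x, d (m + 1 + 1) (u₁ x) = 0 := fun x => by
    simp only [hu₁, LinearMap.add_apply, LinearMap.comp_apply, map_add, eζ, hv1, D.ds, ep,
      D.T.dk_dk, hv0, map_zero, LinearEquiv.coe_coe]
    have := hv1 (s (n + 1 + 1) x)
    simp only [D.ds, map_add] at this
    lc2 k this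
  have u₁d : ∀ x, u₁ (d (n + 1 + 1) x) = 0 := fun x => by
    simp only [hu₁, LinearMap.add_apply, LinearMap.comp_apply, map_add, w₁d, D.dsd, D.T.dk_dk,
      map_zero, LinearEquiv.coe_coe]
    lc2 k (rfl : (0 : P (m + 1 + 1 + 1)) = 0)
  have du₂ : ∀ x, d (m + 1 + 1) (u₂ x) = 0 := fun x => by
    have a1 : d (m + 1 + 1) (ζ (d (n + 1 + 1) ((s (n + 1 + 1) + D.κ (n + 1 + 1)) x))) = 0 := by
      rw [eζ, hv1]
    have a2 : d (m + 1 + 1) ((s (m + 1 + 1) + D.κ (m + 1 + 1)) (p (d (n + 1) x))) =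
        D.θ _ (d (m + 1 + 1) (w₁ x)) + D.θ _ (v x) := by
      simp only [LinearMap.add_apply, LinearMap.comp_apply, map_add, D.ds, D.dκ, ep,
        D.T.dk_dk, hv0, map_zero]
      lc2 k (rfl : (0 : P (m + 1 + 1)) = 0)
    simp only [hu₂, LinearMap.add_apply (_ : P (n + 1 + 1) →ₗ[k] P (m + 1 + 1 + 1)),
      LinearMap.comp_apply, map_add, a1, a2, eζ, D.θ_d, ey'', ev', LinearEquiv.coe_coe]
    lc2 k (rfl : (0 : P (m + 1 + 1)) = 0)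
  have u₂d : ∀ x, u₂ (d (n + 1 + 1) x) = 0 := fun x => by
    simp only [hu₂, LinearMap.add_apply, LinearMap.comp_apply, map_add, w₂d, D.dsd, D.T.dk_dk,
      map_zero, LinearEquiv.coe_coe, D.κd, D.θ_d]
    lc2 k (rfl : (0 : P (m + 1 + 1 + 1)) = 0)
  have hTu : TC D.S (u₁ + u₂) := by
    have dS := fun j => (D.T.isE_dk j).toS (S := D.S)
    refine (hTw.add (D.tc_of_S _ (((((hζ.toS.comp ((dS _).comp (D.κ_S (n + 1 + 1)))).add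
      ((D.κ_S (m + 1 + 1)).comp (hp.toS.comp (dS _)))).add hζ.toS).add
      (hζ.toS.comp (hθS _))).add ((hθS _).comp (hy''.toS.comp (dS _)))))).congr fun x => ?_
    simp only [hu₁, hu₂, LinearMap.add_apply, LinearMap.comp_apply, map_add]
    lc2 k (rfl : (0 : P (m + 1 + 1 + 1)) = 0)
  obtain ⟨ω', b0, b1, b2⟩ := D.final n (m + 1 + 1) (by omega) (by omega) (u₁ + u₂)
    (fun x => by simp [du₁, du₂]) (fun x => by simp [u₁d, u₂d]) hTu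
  have u₂sd : ∀ x, u₂ (s (n + 1) (d (n + 1) x)) = u₂ x := fun x => by simp [D.sd, u₂d]
  refine ⟨ζ, p, ω' + u₂ ∘ₗ s (n + 1), u₂ ∘ₗ s (n + 1), hζ, hp, fun x => by rw [eζ, hv1],
    fun x => by simp [ep, hv0, D.T.dk_dk], b1.congr fun x => ?_, fun x => by simp [b0, du₂],
    fun x => by simp [du₂], ((b2.add hζ).add hζ₁).congr fun x => ?_,
    (((hζ.comp_H (D.θ_H _)).add ((D.θ_H _).comp_E (hy''.comp (D.T.isE_dk _)))).add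
      ((D.θ_H _).comp_E hζ₂)).congr fun x => ?_⟩
  · simp only [LinearMap.add_apply]
    lc2 k (rfl : (0 : P (m + 1 + 1 + 1)) = 0)
  · simp only [LinearMap.add_apply, LinearMap.comp_apply, u₂sd]
    simp only [hu₁, hw₁, LinearMap.add_apply, LinearMap.comp_apply]
    lc2 k (rfl : (0 : P (m + 1 + 1 + 1)) = 0)
  · simp only [LinearMap.add_apply (_ : P (n + 1 + 1) →ₗ[k] P (m + 1 + 1 + 1)),
      LinearMap.comp_apply, u₂sd]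
    simp only [hu₂, hw₂, LinearMap.add_apply (_ : P (n + 1 + 1) →ₗ[k] P (m + 1 + 1 + 1)),
      LinearMap.comp_apply]
    lc2 k (rfl : (0 : P (m + 1 + 1 + 1)) = 0)

/-- exactness of `G` applied to the complex -/
theorem exactG (n : ℤ) (φ₁ φ₂ : E →ₗ[k] P (n + 1 + 1)) (hT : TC D.S (φ₁ + φ₂))
    (h₁ : IsE E (d (n + 1) ∘ₗ φ₁)) (h₂ : IsH D.h (d (n + 1) ∘ₗ φ₂)) :
    ∃ φ₁' φ₂' : E →ₗ[k] P (n + 1 + 1 + 1), TC D.S (φ₁' + φ₂') ∧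
      IsE E (d (n + 1 + 1) ∘ₗ φ₁' + φ₁) ∧ IsH D.h (d (n + 1 + 1) ∘ₗ φ₂' + φ₂) := by
  have hθS : ∀ j, IsS D.S (D.θ j).toLinearMap := fun j => (D.θ_H j).toS D.h_S
  obtain ⟨ζ₁, hζ₁, e₁⟩ := D.T.liftE _ n _ h₁ (fun x => by simp [D.T.dk_dk])
  obtain ⟨ζ₂, hζ₂, e₂⟩ := D.T.liftE _ n _ ((D.θ_H _).symm_comp h₂)
    (fun x => by simp [D.T.dk_dk, D.θs_d])
  set w₁ := φ₁ + ζ₁ with hw₁
  set w₂ := φ₂ + (D.θ _).toLinearMap ∘ₗ ζ₂ with hw₂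
  have dw₁ : ∀ x, d (n + 1) (w₁ x) = 0 := fun x => by simp [hw₁, e₁, tt k]
  have dw₂ : ∀ x, d (n + 1) (w₂ x) = 0 := fun x => by simp [hw₂, e₂, tt k, D.θ_d]
  have hTw : TC D.S (w₁ + w₂) :=
    (hT.add (D.tc_of_S _ (hζ₁.toS.add ((hθS _).comp hζ₂.toS)))).congr fun x => by
      simp only [hw₁, hw₂, LinearMap.add_apply]; abel
  obtain ⟨ξ, hξ⟩ := exists_rep (sMaps D.S (P (n + 1 + 1 + 1)) E)
    (LinearMap.lcomp k _ (d (n + 1 + 1 + 1)))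
    (trace k _ ∘ₗ LinearMap.llcomp k _ _ _ (s (n + 1 + 1) ∘ₗ (w₁ + w₂)))
    (fun g hg h => by
      obtain ⟨g', hg', e⟩ := D.taS _ g hg (fun x => LinearMap.congr_fun h x)
      have a1 : g = g' ∘ₗ d (n + 1 + 1) := LinearMap.ext fun x => (e x).symm
      have a2 : d (n + 1 + 1) ∘ₗ (s (n + 1 + 1) ∘ₗ (w₁ + w₂)) ∘ₗ g' = (w₁ + w₂) ∘ₗ g' := by
        ext x; simp [D.ds, dw₁, dw₂]
      change trace k _ ((s (n + 1 + 1) ∘ₗ (w₁ + w₂)) ∘ₗ g) = 0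
      rw [a1, ← LinearMap.comp_assoc, LinearMap.trace_comp_comm', a2]
      exact hTw _ hg')
  refine ⟨s (n + 1 + 1) ∘ₗ w₁ + d (n + 1 + 1 + 1) ∘ₗ ξ, s (n + 1 + 1) ∘ₗ w₂, fun g hg => ?_,
    hζ₁.congr fun x => ?_, ((D.θ_H _).comp_E hζ₂).congr fun x => ?_⟩
  · have a1 : trace k _ ((s (n + 1 + 1) ∘ₗ (w₁ + w₂)) ∘ₗ g) =
        trace k _ (g ∘ₗ (d (n + 1 + 1 + 1) ∘ₗ ξ)) := hξ g hg
    have a2 : (s (n + 1 + 1) ∘ₗ w₁ + d (n + 1 + 1 + 1) ∘ₗ ξ + s (n + 1 + 1) ∘ₗ w₂) ∘ₗ g =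
        (s (n + 1 + 1) ∘ₗ (w₁ + w₂)) ∘ₗ g + (d (n + 1 + 1 + 1) ∘ₗ ξ) ∘ₗ g := by
      ext x; simp only [LinearMap.add_apply, LinearMap.comp_apply, map_add]; abel
    rw [a2, map_add, a1, LinearMap.trace_comp_comm']
    exact CharTwo.add_self_eq_zero _
  · simp only [LinearMap.add_apply, LinearMap.comp_apply, map_add, D.ds, dw₁, D.T.dk_dk, map_zero]
    simp only [hw₁, LinearMap.add_apply]
    lc2 k (rfl : (0 : P (n + 1 + 1)) = 0)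
  · simp only [LinearMap.add_apply, LinearMap.comp_apply, map_add, D.ds, dw₂, D.T.dk_dk, map_zero]
    simp only [hw₂, LinearMap.add_apply, LinearMap.comp_apply]
    lc2 k (rfl : (0 : P (n + 1 + 1)) = 0)

/-- `Hom(P, G E)` is exact -/
theorem taG (n : ℤ) (ω₁ ω₂ : P (n + 1 + 1) →ₗ[k] E) (hT : TC D.S (ω₁ + ω₂))
    (h₁ : IsE E (ω₁ ∘ₗ d (n + 1 + 1))) (h₂ : IsH D.h (ω₂ ∘ₗ d (n + 1 + 1))) :
    ∃ ω₁' ω₂' : P (n + 1) →ₗ[k] E, TC D.S (ω₁' + ω₂') ∧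
      IsE E (ω₁' ∘ₗ d (n + 1) + ω₁) ∧ IsH D.h (ω₂' ∘ₗ d (n + 1) + ω₂) := by
  have hθS : ∀ j, IsS D.S (D.θ j).toLinearMap := fun j => (D.θ_H j).toS D.h_S
  obtain ⟨ζ₁, hζ₁, e₁⟩ := D.T.taE _ (n + 1 + 1) _ h₁ (fun x => by simp [D.T.dk_dk])
  obtain ⟨ζ₂, hζ₂, e₂⟩ := D.T.taE _ (n + 1 + 1) _ ((D.θ_H _).comp_symm h₂)
    (fun x => by simp [D.T.dk_dk, ← D.θs_d])
  set w₁ := ω₁ + ζ₁ with hw₁
  set w₂ := ω₂ + ζ₂ ∘ₗ (D.θ _).toLinearMap with hw₂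
  have w₁d : ∀ x, w₁ (d (n + 1 + 1) x) = 0 := fun x => by simp [hw₁, e₁, tt k]
  have w₂d : ∀ x, w₂ (d (n + 1 + 1) x) = 0 := fun x => by simp [hw₂, e₂, tt k, ← D.θ_d]
  have hTw : TC D.S (w₁ + w₂) :=
    (hT.add (D.tc_of_S _ (hζ₁.toS.add (hζ₂.toS.comp (hθS _))))).congr fun x => by
      simp only [hw₁, hw₂, LinearMap.add_apply]; abel
  obtain ⟨ξ, hξ⟩ := exists_rep (sMaps D.S E (P (n + 1)))
    (LinearMap.llcomp k _ _ _ (d n))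
    (trace k _ ∘ₗ LinearMap.llcomp k _ _ _ ((w₁ + w₂) ∘ₗ s (n + 1)))
    (fun g hg h => by
      obtain ⟨g', hg', e⟩ := D.liftS _ g hg (fun x => LinearMap.congr_fun h x)
      have a2 : ((w₁ + w₂) ∘ₗ s (n + 1)) ∘ₗ g = (w₁ + w₂) ∘ₗ g' := by
        ext x; simp [← e, D.sd, w₁d, w₂d]
      change trace k _ (((w₁ + w₂) ∘ₗ s (n + 1)) ∘ₗ g) = 0
      rw [a2]
      exact hTw _ hg')
  refine ⟨w₁ ∘ₗ s (n + 1) + ξ ∘ₗ d n, w₂ ∘ₗ s (n + 1), fun g hg => ?_,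
    hζ₁.congr fun x => ?_, (hζ₂.comp_H (D.θ_H _)).congr fun x => ?_⟩
  · have a1 : trace k _ (((w₁ + w₂) ∘ₗ s (n + 1)) ∘ₗ g) =
        trace k _ ((d n ∘ₗ g) ∘ₗ ξ) := hξ g hg
    have a2 : (w₁ ∘ₗ s (n + 1) + ξ ∘ₗ d n + w₂ ∘ₗ s (n + 1)) ∘ₗ g =
        ((w₁ + w₂) ∘ₗ s (n + 1)) ∘ₗ g + ξ ∘ₗ (d n ∘ₗ g) := by
      ext x; simp only [LinearMap.add_apply, LinearMap.comp_apply, map_add]; abel
    rw [a2, map_add, a1, LinearMap.trace_comp_comm']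
    exact CharTwo.add_self_eq_zero _
  · simp only [LinearMap.add_apply, LinearMap.comp_apply, map_add, D.sd, w₁d, D.T.dk_dk, map_zero]
    simp only [hw₁, LinearMap.add_apply]
    lc2 k (rfl : (0 : E) = 0)
  · simp only [LinearMap.add_apply, LinearMap.comp_apply, map_add, D.sd, w₂d, D.T.dk_dk, map_zero]
    simp only [hw₂, LinearMap.add_apply, LinearMap.comp_apply]
    lc2 k (rfl : (0 : E) = 0)

end Pkg

end Crest.Agent.R186
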