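import Crest.Agent.R186.Sing

/-! Row 186: the Gorenstein data of the simple module over the dual numbers. -/

set_option autoImplicit false
set_option linter.unusedSectionVars false
set_option linter.unusedSimpArgs false
set_option linter.unusedVariables false

namespace Crest.Agent.R186

open Finsupp (single)

universe u

/-- `U = k ⊕ k z` with `z² = 0` -/
structure DN (k : Type u) [Field k] (U : Type u) [CommRing U] [Algebra k U] where
  z : U
  fst : U →ₐ[k] k
  snd : U →ₗ[k] k
  dec : ∀ u, fst u • 1 + snd u • z = u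
  zz : z * z = 0
  fst_z : fst z = 0
  snd_z : snd z = 1
  snd_one : snd 1 = 0

/-- the dual numbers -/
noncomputable def dnDual (k : Type u) [Field k] : DN k (DualNumber k) where
  z := DualNumber.eps
  fst := TrivSqZeroExt.fstHom k k k
  snd := TrivSqZeroExt.sndHom k k
  dec u := by ext <;> simp
  zz := DualNumber.eps_mul_eps
  fst_z := rfl
  snd_z := rfl
  snd_one := rfl

namespace DN

attribute [simp] DN.zz DN.fst_z DN.snd_z DN.snd_one

variable {k : Type u} [Field k] [CharP k 2] {U : Type u} [CommRing U] [Algebra k U] (N : DN k U)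

theorem ext' {u v : U} (h1 : N.fst u = N.fst v) (h2 : N.snd u = N.snd v) : u = v := by
  rw [← N.dec u, ← N.dec v, h1, h2]

theorem mul_z (u : U) : u * N.z = N.fst u • N.z := by
  conv_lhs => rw [← N.dec u]
  simp [add_mul]

@[simp] theorem snd_mul (u v : U) : N.snd (u * v) = N.fst u * N.snd v + N.snd u * N.fst v := by
  conv_lhs => rw [← N.dec v]
  simp [mul_add, mul_z, mul_comm (N.snd u), mul_comm (N.fst u), add_comm]

/-- `0, ε, ε, …` -/
def a : ℕ → U
  | 0 => 0
  | _ + 1 => N.z
/-- `ε, 0, 0, …` -/
def c : ℕ → U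
  | 0 => N.z
  | _ + 1 => 0

variable (U) in
/-- the resolution -/
def GP : GI U where
  I := ℕ
  deg i := i
  e _ := 1
  ee _ := one_mul _
  fin n := (Set.finite_singleton n.toNat).subset fun i (hi : (i : ℤ) = n) => by
    change i = _; omega

variable (U) in
/-- the coresolution -/
def GQ : GI U where
  I := ℕ
  deg i := - i
  e _ := 1
  ee _ := one_mul _
  fin n := (Set.finite_singleton (- n).toNat).subset fun i (hi : - (i : ℤ) = n) => by
    change i = _; omega

theorem fst_of_mul {v : U} (h : v * N.z = 0) : N.fst v = 0 := by simpa using congrArg N.snd h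

theorem ex_mul {v : U} (h : N.fst v = 0) : (N.snd v • 1 : U) * N.z = v := by
  apply N.ext' <;> simp [h]

variable (α : U →ₗ[k] (U →ₗ[k] U)) (hα : ∀ r v, α r v = v * r)
include hα

theorem contr0 : IsContr (cx fun i : ℕ => single i (α 1)) (cx fun i => single (i - 1) (α (N.a i)))
    (single 0 1) := by
  refine isContr_single _ _ _ 0 1 N.fst.toLinearMap (fun i j h => ?_)
    (fun i v => by simp [hα]) (fun i v => by simp [hα]) (fun i v => by simp [hα]) (fun i v => ?_)
    (by simp [a]) (by simp [hα]) (by simp) (fun i v h => ?_) (fun i v h1 h2 => Or.inr ⟨i + 1, ?_⟩)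
  · rcases i with _ | i
    · exact Or.inr (Or.inl (by simp [a]))
    · rcases j with _ | j
      · exact Or.inr (Or.inr (by simp [a]))
      · left; omega
  · rcases i with _ | _ | i <;> simp [a, hα, mul_assoc]
  · rcases i with _ | i <;> simp [a, hα]
  · rw [hα] at h2
    rcases i with _ | i
    · refine ⟨N.snd v • 1, rfl, ?_⟩
      rw [hα]
      apply N.ext' <;> simp [a, tt k]
    · exact ⟨N.snd v • 1, rfl, by rw [hα, if_neg (by omega), add_zero]; exact N.ex_mul (N.fst_of_mul h2)⟩

theorem contr1 : IsContr (cx fun i : ℕ => single i (α 1)) (cx fun i => single (i + 1) (α N.z))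
    (single 0 N.z) := by
  refine isContr_single _ _ _ 0 N.z N.snd (fun i j h => Or.inl (by omega))
    (fun i v => by simp [hα]) (fun i v => by simp [hα]) (fun i v => by simp [hα])
    (fun i v => by simp [hα, mul_assoc]) (by simp [hα]) (by simp [hα]) N.snd_z
    (fun i v h => by omega) (fun i v h1 h2 => ?_)
  rw [hα] at h2
  have := N.fst_of_mul h2
  rcases i with _ | i
  · left
    apply N.ext' <;> simp [this, tt k]
  · exact Or.inr ⟨i, N.snd v • 1, rfl, by rw [hα, if_neg (by omega), add_zero]; exact N.ex_mul this⟩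

theorem cone : Cone α (fun i : ℕ => single i 1) (fun i => single (i - 1) (N.a i))
    (fun i : ℕ => single i 1) (fun i => single (i + 1) N.z) (fun i => single 0 (N.c i))
    (single 0 1) := by
  refine cone_single _ _ _ _ _ _ (fun _ => N.z) (fun _ => 0) _ 0 1 0 N.z rfl (by simp [hα, c])
    (N.contr0 α hα) (N.contr1 α hα) (fun i v => ?_) (fun i v => by simp [hα]) (fun i v => by simp [hα])
  rcases i with _ | _ | i <;> simp [a, c, hα, mul_assoc]

omit hα

/-- the Gorenstein data of the simple module -/
noncomputable def gd : GDat k U where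
  P := GP U
  Q := GQ U
  DP := fun (i : ℕ) => single (i - 1) (N.a i)
  DPt := fun (i : ℕ) => single (i + 1) N.z
  DQ := fun (i : ℕ) => single (i + 1) N.z
  DQt := fun (i : ℕ) => single (i - 1) (N.a i)
  C := fun (i : ℕ) => single (0 : ℕ) (N.c i)
  Ct := fun (i : ℕ) => single (0 : ℕ) (N.c i)
  hDP := GI.hom_single (X := GP U) (Y := GP U) (fun i : ℕ => (i - 1 : ℕ)) N.a 1
    (fun (i : ℕ) h => by
      rcases i with _ | i
      · exact absurd rfl h
      · change ((i + 1 - 1 : ℕ) : ℤ) + 1 = (i + 1 : ℕ); omega) (fun _ => one_mul _)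
    (fun _ => mul_one _)
  hDQ := GI.hom_single (X := GQ U) (Y := GQ U) (fun i : ℕ => (i + 1 : ℕ)) (fun _ => N.z) 1
    (fun (i : ℕ) h => by change - ((i + 1 : ℕ) : ℤ) + 1 = - (i : ℤ); omega) (fun _ => one_mul _)
    (fun _ => mul_one _)
  hC := GI.hom_single (X := GP U) (Y := GQ U) (fun _ => (0 : ℕ)) N.c 0
    (fun (i : ℕ) h => by
      rcases i with _ | i
      · rfl
      · exact absurd rfl h) (fun _ => one_mul _) (fun _ => mul_one _)
  tP := fun (i j : ℕ) => by
    change single (j + 1) N.z i = single (i - 1) (N.a i) j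
    rcases i with _ | i
    · simp [a]
    · simp only [Finsupp.single_apply, Nat.add_sub_cancel, Nat.add_right_cancel_iff, a, eq_comm]
  tQ := fun (i j : ℕ) => by
    change single (j - 1) (N.a j) i = single (i + 1) N.z j
    rcases j with _ | j
    · simp [a]
    · simp only [Finsupp.single_apply, Nat.add_sub_cancel, Nat.add_right_cancel_iff, a, eq_comm]
  tC := fun (i j : ℕ) => by
    change single 0 (N.c j) i = single 0 (N.c i) j
    rcases i with _ | i <;> rcases j with _ | j <;> simp [c]
  b := 0
  lo := fun (i : ℕ) => Int.natCast_nonneg i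
  hi := fun (i : ℕ) => by change - (i : ℤ) ≤ 0; omega
  i₀ := (0 : ℕ)
  deg₀ := rfl
  r₀ := 1
  χ := N.fst
  χr := map_one _
  χD := fun (i : ℕ) => by
    change N.fst (single (i - 1) (N.a i) 0) = 0
    rw [Finsupp.single_apply]
    rcases i with _ | i <;> split_ifs <;> simp [a]
  coneL := N.cone _ fun _ _ => rfl
  ηR := single (0 : ℕ) 1
  coneR := N.cone _ fun r v => mul_comm r v

end DN

end Crest.Agent.R186
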