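import Crest.Agent.R186.Twist
import Crest.Agent.R186.GU

/-! Row 186: the twist on the tensor product with the dual numbers. -/

set_option autoImplicit false
set_option linter.unusedSectionVars false
set_option linter.unusedSimpArgs false
set_option maxHeartbeats 400000

namespace Crest.Agent.R186

open LinearMap (trace lTensor)
open Finsupp (single)
open scoped TensorProduct

universe u

variable {k : Type u} [Field k] [CharP k 2] {B : Type u} [Ring B] [Algebra k B] {U : Type u}
  [CommRing U] [Algebra k U]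

namespace DN

variable (N : DN k U)

/-- `a + b z ↦ a` -/
noncomputable def f0 : U →ₗ[k] U := N.fst.toLinearMap.smulRight 1
/-- `a + b z ↦ b` -/
noncomputable def f1 : U →ₗ[k] U := N.snd.smulRight 1

@[simp] theorem f0_apply (u : U) : N.f0 u = N.fst u • 1 := rfl
@[simp] theorem f1_apply (u : U) : N.f1 u = N.snd u • 1 := rfl

variable (k B U) in
/-- the subalgebra `B ⊗ 1` -/
noncomputable def SB : Subalgebra k (B ⊗[k] U) :=
  (Algebra.TensorProduct.includeLeft : B →ₐ[k] B ⊗[k] U).range

theorem lTensor_S (f : U →ₗ[k] U) {a : B ⊗[k] U} (ha : a ∈ SB k B U) (x : B ⊗[k] U) :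
    lTensor B f (a * x) = a * lTensor B f x := by
  obtain ⟨b, rfl⟩ := ha
  induction x using TensorProduct.induction_on with
  | zero => simp
  | add x y hx hy => simp only [mul_add, map_add, hx, hy]
  | tmul c u => simp

theorem lTensor_e (f : U →ₗ[k] U) (b : B) (x : B ⊗[k] U) :
    lTensor B f (x * (b ⊗ₜ 1)) = lTensor B f x * (b ⊗ₜ 1) := by
  induction x using TensorProduct.induction_on with
  | zero => simp
  | add x y hx hy => simp only [add_mul, map_add, hx, hy]
  | tmul c u => simp

theorem mem_SB (l : U →ₗ[k] k) (x : B ⊗[k] U) : lTensor B (l.smulRight 1) x ∈ SB k B U := by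
  induction x using TensorProduct.induction_on with
  | zero => simp
  | add x y hx hy => rw [map_add]; exact add_mem hx hy
  | tmul c u => exact ⟨l u • c, by simp [TensorProduct.smul_tmul]⟩

theorem trace_lTensor [FiniteDimensional k B] [FiniteDimensional k U]
    (htr : ∀ c, trace k B (aL k B c) = 0)
    (f : U →ₗ[k] U) (c : B ⊗[k] U) : trace k _ (aL k _ c ∘ₗ lTensor B f) = 0 := by
  induction c using TensorProduct.induction_on with
  | zero => simp
  | add x y hx hy => rw [map_add, LinearMap.add_comp, map_add, hx, hy, add_zero]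
  | tmul b u =>
    rw [aL_tmul, LinearMap.map_comp_lTensor, LinearMap.trace_tensorProduct', htr, zero_mul]

/-- `B ⊗ U = B ⊕ B z` -/
noncomputable def zs [FiniteDimensional k B] [FiniteDimensional k U]
    (htr : ∀ c, trace k B (aL k B c) = 0) :
    ZS k (B ⊗[k] U) where
  S := SB k B U
  z := 1 ⊗ₜ N.z
  p0 := lTensor B N.f0
  p1 := lTensor B N.f1
  zc a := by
    induction a using TensorProduct.induction_on with
    | zero => simp
    | add x y hx hy => simp only [add_mul, mul_add, hx, hy]
    | tmul c u => simp [mul_comm]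
  zz := by simp
  dec a := by
    induction a using TensorProduct.induction_on with
    | zero => simp
    | add x y hx hy =>
      rw [map_add, map_add, add_mul, add_add_add_comm, hx, hy]
    | tmul c u =>
      rw [LinearMap.lTensor_tmul, LinearMap.lTensor_tmul, Algebra.TensorProduct.tmul_mul_tmul,
        mul_one, ← TensorProduct.tmul_add]
      congr 1
      apply N.ext' <;> simp
  m0 := mem_SB _
  m1 := mem_SB _
  s0 _ ha := lTensor_S _ ha
  s1 _ ha := lTensor_S _ ha
  p11 := by simp [Algebra.TensorProduct.one_def]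
  p1z := by simp [Algebra.TensorProduct.one_def]
  tr0 := trace_lTensor htr _
  tr1 := trace_lTensor htr _

section Lt

variable {I J : Type}

variable (B I) in
/-- operators acting on the second factor -/
noncomputable def lt (n : ℕ → ℕ) (f : ℕ → U →ₗ[k] U) :
    (I × ℕ →₀ B ⊗[k] U) →ₗ[k] (I × ℕ →₀ B ⊗[k] U) :=
  cx fun p => single (p.1, n p.2) (lTensor B (f p.2))

theorem lt_single (n : ℕ → ℕ) (f : ℕ → U →ₗ[k] U) (p : I × ℕ) (v : B ⊗[k] U) :
    lt B I n f (single p v) = single (p.1, n p.2) (lTensor B (f p.2) v) :=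
  cx_sgl _ _ _ _

/-- the operator on the second factor -/
noncomputable def lu (n : ℕ → ℕ) (f : ℕ → U →ₗ[k] U) : (ℕ →₀ U) →ₗ[k] (ℕ →₀ U) :=
  cx fun l => single (n l) (f l)

theorem lu_single (n : ℕ → ℕ) (f : ℕ → U →ₗ[k] U) (l : ℕ) (v : U) :
    lu n f (single l v) = single (n l) (f l v) := cx_sgl _ _ _ _

theorem lt_tmul (n : ℕ → ℕ) (f : ℕ → U →ₗ[k] U) (a : I →₀ B) (b : ℕ →₀ U) :
    lt B I n f (finsuppTensorFinsupp k k B U I ℕ (a ⊗ₜ b)) =
      finsuppTensorFinsupp k k B U I ℕ (a ⊗ₜ lu n f b) := by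
  induction a using Finsupp.induction_linear with
  | zero => simp
  | add x y hx hy => simp only [TensorProduct.add_tmul, map_add, hx, hy]
  | single i v =>
    induction b using Finsupp.induction_linear with
    | zero => simp
    | add x y hx hy => simp only [TensorProduct.tmul_add, map_add, hx, hy]
    | single i' v' => simp [lu_single, finsuppTensorFinsupp_single, lt_single]

theorem mt_tmul (A : I → J →₀ B) (A' : ℕ → ℕ →₀ U) (a : I →₀ B) (b : ℕ →₀ U) :
    cxL k (mt k A A') (finsuppTensorFinsupp k k B U I ℕ (a ⊗ₜ b)) =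
      finsuppTensorFinsupp k k B U J ℕ (cxL k A a ⊗ₜ cxL k A' b) :=
  cx_mt aL_tmul A A' _

theorem cxL_add {R : Type u} [Ring R] [Algebra k R] {I J : Type*} (A A' : I → J →₀ R) (x : I →₀ R) :
    cxL k (A + A') x = cxL k A x + cxL k A' x := by
  rw [cxL_apply, am_add, cx_add]; rfl

theorem cxL_single {R : Type u} [Ring R] [Algebra k R] {I J : Type*} (σ : I → J) (a : I → R) (i : I)
    (v : R) : cxL k (fun i => single (σ i) (a i)) (single i v) = single (σ i) (v * a i) := by
  rw [cxL_apply, am_single, cx_sgl]; rfl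

theorem cxL_one (b : ℕ →₀ U) : cxL k (fun l => single l (1 : U)) b = b := by
  find b with l v
  rw [cxL_single, mul_one]

theorem lt_mt {n n' : ℕ → ℕ} {f f' : ℕ → U →ₗ[k] U} {A' : ℕ → ℕ →₀ U}
    (h : ∀ b, cxL k A' (lu n f b) = lu n' f' (cxL k A' b)) (A : I → J →₀ B)
    (x : I × ℕ →₀ B ⊗[k] U) :
    cxL k (mt k A A') (lt B I n f x) = lt B J n' f' (cxL k (mt k A A') x) := by
  obtain ⟨x, rfl⟩ := (finsuppTensorFinsupp k k B U I ℕ).surjective x
  tind x with a b
  rw [lt_tmul, mt_tmul, mt_tmul, lt_tmul, h]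

theorem lt_D {n : ℕ → ℕ} {f : ℕ → U →ₗ[k] U} {D' : ℕ → ℕ →₀ U}
    (h : ∀ b, cxL k D' (lu n f b) = lu n f (cxL k D' b)) (D ϵ : I → I →₀ B)
    (x : I × ℕ →₀ B ⊗[k] U) :
    cxL k (mt k D (fun l => single l 1) + mt k ϵ D') (lt B I n f x) =
      lt B I n f (cxL k (mt k D (fun l => single l 1) + mt k ϵ D') x) := by
  rw [cxL_add, cxL_add, map_add, lt_mt h, lt_mt (fun b => by rw [cxL_one, cxL_one])]

theorem lt_homotopy {n : ℕ → ℕ} {f g : ℕ → U →ₗ[k] U} {D' : ℕ → ℕ →₀ U}
    (h : ∀ b, cxL k D' (lu n f b) + lu n f (cxL k D' b) = b + lu id g b) (D ϵ : I → I →₀ B)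
    (x : I × ℕ →₀ B ⊗[k] U) :
    cxL k (mt k D (fun l => single l 1) + mt k ϵ D') (lt B I n f x) +
      lt B I n f (cxL k (mt k D (fun l => single l 1) + mt k ϵ D') x) =
      cxL k (mt k ϵ (fun l => single l 1)) x +
        lt B I id g (cxL k (mt k ϵ (fun l => single l 1)) x) := by
  obtain ⟨x, rfl⟩ := (finsuppTensorFinsupp k k B U I ℕ).surjective x
  induction x using TensorProduct.induction_on with
  | zero => simp
  | add x y hx hy =>
    simp only [map_add] at hx hy ⊢
    lc2 k (hx + hy)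
  | tmul a b =>
    have := congrArg (fun y => finsuppTensorFinsupp k k B U I ℕ (cxL k ϵ a ⊗ₜ y)) (h b)
    simp only [TensorProduct.tmul_add, map_add] at this
    simp only [cxL_add, map_add, lt_tmul, mt_tmul, cxL_one]
    lc2 k this

theorem lt_S (n : ℕ → ℕ) (f : ℕ → U →ₗ[k] U) {a : B ⊗[k] U} (ha : a ∈ SB k B U)
    (x : I × ℕ →₀ B ⊗[k] U) : lt B I n f (a • x) = a • lt B I n f x := by
  find x with p v
  simp only [Finsupp.smul_single, lt_single, smul_eq_mul, lTensor_S _ ha]

end Lt

end DN

end Crest.Agent.R186
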