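import Crest.Agent.R186.Dual

/-! Row 186: the twist on the tensor product with the dual numbers, continued. -/

set_option autoImplicit false
set_option linter.unusedSectionVars false
set_option linter.unusedSimpArgs false
set_option maxHeartbeats 400000

namespace Crest.Agent.R186

open LinearMap (trace lTensor)
open Finsupp (single)
open scoped TensorProduct

universe u

variable {k : Type u} [Field k] [CharP k 2] {B : Type u} [Ring B] [Algebra k B] {U : Type u}
  [CommRing U] [Algebra k U]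

theorem GI.cx_mem {X : GI B} (σ : X.I → X.I) (f : X.I → B →ₗ[k] B) (n m : ℤ)
    (hd : ∀ i, f i ≠ 0 → X.deg i = n → X.deg (σ i) = m)
    (he : ∀ i v, f i (v * X.e i) = f i v * X.e (σ i)) (x : X.I →₀ B) (hx : x ∈ X.M n) :
    cx (fun i => single (σ i) (f i)) x ∈ X.M m := by
  rw [← x.sum_single, Finsupp.sum, map_sum]
  refine Submodule.sum_mem _ fun i hi => ?_
  rw [cx_sgl]
  by_cases h0 : f i = 0
  · simp [h0]
  · have h1 : X.deg i = n := by
      by_contra h; exact Finsupp.mem_support_iff.1 hi (hx.2 i h)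
    have := (f i (x i) • X.gen m (σ i) (hd i h0 h1)).2
    rwa [SetLike.val_smul, GI.gen, Finsupp.smul_single, smul_eq_mul, ← he, hx.1] at this

/-- restriction -/
def resL {V : Type*} [AddCommGroup V] [Module k V] [Module B V] [IsScalarTower k B V]
    (K K' : Submodule B V) (f : V →ₗ[k] V) (h : ∀ x ∈ K, f x ∈ K') : K →ₗ[k] K' where
  toFun x := ⟨f x, h x x.2⟩
  map_add' x y := Subtype.ext (f.map_add x y)
  map_smul' c x := Subtype.ext (f.map_smul c x)

namespace DN

variable (N : DN k U)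

/-- `z ↦ H z` -/
noncomputable def hU (H : k) : U →ₐ[k] U :=
  AlgHom.ofLinearMap (N.f0 + (H • N.snd).smulRight N.z) (by simp) fun u v => by
    apply N.ext' <;> simp
    ring

@[simp] theorem fst_hU (H : k) (u : U) : N.fst (N.hU H u) = N.fst u := by simp [hU]
@[simp] theorem snd_hU (H : k) (u : U) : N.snd (N.hU H u) = H * N.snd u := by simp [hU]

/-- entries of the twist -/
noncomputable def th (H : k) (w : ℕ → ℤ) (l : ℕ) : U →ₗ[k] U := H ^ w l • (N.hU H).toLinearMap
/-- entries of the homotopy -/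
noncomputable def ka (H : k) (w : ℕ → ℤ) (l : ℕ) : U →ₗ[k] U := (1 + H ^ (w l + 1)) • N.f1

theorem th_apply (H : k) (w : ℕ → ℤ) (l : ℕ) (u : U) : N.th H w l u = H ^ w l • N.hU H u := rfl
theorem ka_apply (H : k) (w : ℕ → ℤ) (l : ℕ) (u : U) :
    N.ka H w l u = (1 + H ^ (w l + 1)) • N.snd u • 1 := rfl

/-- weights on the resolution -/
def wP (l : ℕ) : ℤ := l
/-- weights on the coresolution -/
def wQ (l : ℕ) : ℤ := -1 - l

variable {H : k} (hH : H ≠ 0)
include hH

theorem th_th (w : ℕ → ℤ) (l : ℕ) : N.th H w l ∘ₗ N.th H⁻¹ w l = LinearMap.id := by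
  have : H ^ w l ≠ 0 := zpow_ne_zero _ hH
  ext u
  apply N.ext' <;> simp [th_apply] <;> field_simp

theorem th_DP (b : ℕ →₀ U) : cxL k (fun i => single (i - 1) (N.a i)) (lu id (N.th H wP) b) =
    lu id (N.th H wP) (cxL k (fun i => single (i - 1) (N.a i)) b) := by
  find b with l v
  simp only [lu_single, cxL_single, id]
  congr 1
  rcases l with _ | l
  · simp [a]
  · apply N.ext' <;> simp [a, th_apply, wP, zpow_add_one₀ hH, mul_assoc, mul_comm (N.fst v)]

theorem th_DQ (b : ℕ →₀ U) : cxL k (fun i => single (i + 1) N.z) (lu id (N.th H wQ) b) =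
    lu id (N.th H wQ) (cxL k (fun i => single (i + 1) N.z) b) := by
  find b with l v
  simp only [lu_single, cxL_single, id]
  congr 1
  have : wQ l = wQ (l + 1) + 1 := by simp only [wQ]; omega
  apply N.ext' <;> simp [th_apply, this, zpow_add_one₀ hH, mul_assoc, mul_comm (N.fst v)]

theorem th_C (b : ℕ →₀ U) : cxL k (fun i => single (0 : ℕ) (N.c i)) (lu id (N.th H wP) b) =
    lu id (N.th H wQ) (cxL k (fun i => single (0 : ℕ) (N.c i)) b) := by
  find b with l v
  simp only [lu_single, cxL_single, id]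
  congr 1
  rcases l with _ | l
  · apply N.ext' <;> simp [c, th_apply, wP, wQ, hH, mul_comm (N.fst v)]
  · simp [c]

theorem ka_C (b : ℕ →₀ U) :
    cxL k (fun i => single (0 : ℕ) (N.c i)) (lu (fun l => l + 1) (N.ka H wP) b) =
    lu (fun l => l - 1) (N.ka H wQ) (cxL k (fun i => single (0 : ℕ) (N.c i)) b) := by
  find b with l v
  simp only [lu_single, cxL_single]
  simp [c, ka_apply, wQ, tt k]

theorem ka_DP (b : ℕ →₀ U) :
    cxL k (fun i => single (i - 1) (N.a i)) (lu (fun l => l + 1) (N.ka H wP) b) +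
      lu (fun l => l + 1) (N.ka H wP) (cxL k (fun i => single (i - 1) (N.a i)) b) =
      b + lu id (N.th H wP) b := by
  induction b using Finsupp.induction_linear with
  | zero => simp
  | add x y hx hy =>
    simp only [map_add] at hx hy ⊢
    lc2 k (hx + hy)
  | single l v =>
    simp only [lu_single, cxL_single, id, Nat.add_sub_cancel]
    rcases l with _ | l
    · simp only [a, mul_zero, map_zero, Finsupp.single_zero, add_zero, ← Finsupp.single_add]
      congr 1
      apply N.ext' <;> simp [th_apply, ka_apply, wP, tt k, add_mul]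
    · simp only [Nat.add_sub_cancel, ← Finsupp.single_add]
      congr 1
      apply N.ext' <;> simp [a, th_apply, ka_apply, wP, zpow_add_one₀ hH, add_mul, mul_assoc]

theorem ka_DQ (b : ℕ →₀ U) :
    cxL k (fun i => single (i + 1) N.z) (lu (fun l => l - 1) (N.ka H wQ) b) +
      lu (fun l => l - 1) (N.ka H wQ) (cxL k (fun i => single (i + 1) N.z) b) =
      b + lu id (N.th H wQ) b := by
  induction b using Finsupp.induction_linear with
  | zero => simp
  | add x y hx hy =>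
    simp only [map_add] at hx hy ⊢
    lc2 k (hx + hy)
  | single l v =>
    simp only [lu_single, cxL_single, id, Nat.add_sub_cancel]
    have e : wQ (l + 1) + 1 = wQ l := by simp only [wQ]; omega
    rcases l with _ | l
    · have e0 : N.ka H wQ 0 v = 0 := by simp [ka_apply, wQ, tt k]
      simp only [e0, zero_mul, Finsupp.single_zero, zero_add, ← Finsupp.single_add]
      congr 1
      apply N.ext' <;> simp [th_apply, ka_apply, wQ, tt k, add_mul, hH]
    · simp only [Nat.add_sub_cancel, ← Finsupp.single_add]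
      congr 1
      apply N.ext' <;> simp [th_apply, ka_apply, e, zpow_add_one₀ hH, add_mul, mul_assoc]

variable (B) in
/-- `z ↦ H z` on the tensor product -/
noncomputable def hE : B ⊗[k] U ≃ₐ[k] B ⊗[k] U :=
  Algebra.TensorProduct.congr AlgEquiv.refl (AlgEquiv.ofAlgHom (N.hU H) (N.hU H⁻¹)
    (AlgHom.ext fun u => by apply N.ext' <;> simp [hH])
    (AlgHom.ext fun u => by apply N.ext' <;> simp [hH]))

theorem hE_tmul (b : B) (u : U) : N.hE B hH (b ⊗ₜ u) = b ⊗ₜ N.hU H u := rfl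

theorem lTensor_th (w : ℕ → ℤ) (l : ℕ) (v : B ⊗[k] U) :
    lTensor B (N.th H w l) v = H ^ w l • N.hE B hH v := by
  tind v with b u
  simp [hE_tmul, th_apply]

variable (B) in
/-- the twist on free modules -/
noncomputable def θa (I : Type) (w : ℕ → ℤ) : (I × ℕ →₀ B ⊗[k] U) ≃ₗ[k] (I × ℕ →₀ B ⊗[k] U) :=
  LinearEquiv.ofLinearMap (lt B I id (N.th H w)) (lt B I id (N.th H⁻¹ w))
    (Finsupp.lhom_ext fun p v => by
      simp only [LinearMap.comp_apply, lt_single, id, ← LinearMap.lTensor_comp_apply, N.th_th hH]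
      simp)
    (Finsupp.lhom_ext fun p v => by
      have := N.th_th (inv_ne_zero hH) w p.2
      rw [inv_inv] at this
      simp only [LinearMap.comp_apply, lt_single, id, ← LinearMap.lTensor_comp_apply, this]
      simp)

theorem lt_H {I : Type} (w : ℕ → ℤ) (a : B ⊗[k] U) (x : I × ℕ →₀ B ⊗[k] U) :
    lt B I id (N.th H w) (a • x) = N.hE B hH a • lt B I id (N.th H w) x := by
  find x with p v
  simp only [Finsupp.smul_single, lt_single, smul_eq_mul, N.lTensor_th hH, map_mul, mul_smul_comm]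

omit hH in
theorem lt_id_apply {I : Type} (f : ℕ → U →ₗ[k] U) (x : I × ℕ →₀ B ⊗[k] U) (p : I × ℕ) :
    lt B I id f x p = lTensor B (f p.2) (x p) := by
  classical
  find x with p' v
  rw [lt_single, Finsupp.single_apply, Finsupp.single_apply]
  simp only [id, Prod.mk.eta]
  split_ifs with h
  · rw [← h]
  · simp

section Tw

variable [FiniteDimensional k B] [FiniteDimensional k U] (htr : ∀ c, trace k B (aL k B c) = 0)
  (hH' : ∀ n : ℕ, 0 < n → H ^ n ≠ 1) (Y : GDat k B) {j₀ : Y.Q.I} (hm : Y.Min j₀)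
  (hd : Y.Q.deg j₀ = 4)

omit hH in
theorem memP (nx : ℕ → ℕ) (f : ℕ → U →ₗ[k] U) (n m : ℤ) (h : ∀ l, (nx l : ℤ) = l + (m - n))
    (x : (Y.tensor N.gd).P.I →₀ B ⊗[k] U) (hx : x ∈ (Y.tensor N.gd).P.M n) :
    lt B Y.P.I nx f x ∈ (Y.tensor N.gd).P.M m :=
  GI.cx_mem (X := (Y.tensor N.gd).P) (fun p : Y.P.I × ℕ => (p.1, nx p.2))
    (fun p : Y.P.I × ℕ => lTensor B (f p.2)) n m
    (fun (p : Y.P.I × ℕ) _ (h1 : Y.P.deg p.1 + (p.2 : ℤ) = n) => by
      change Y.P.deg p.1 + (nx p.2 : ℤ) = m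
      rw [h]; omega)
    (fun (p : Y.P.I × ℕ) v => lTensor_e _ _ v) x hx

omit hH in
theorem memQ (nx : ℕ → ℕ) (f : ℕ → U →ₗ[k] U) (n m : ℤ)
    (h : ∀ l, f l ≠ 0 → (nx l : ℤ) = l - (m - n))
    (x : (Y.tensor N.gd).Q.I →₀ B ⊗[k] U) (hx : x ∈ (Y.tensor N.gd).Q.M n) :
    lt B Y.Q.I nx f x ∈ (Y.tensor N.gd).Q.M m :=
  GI.cx_mem (X := (Y.tensor N.gd).Q) (fun p : Y.Q.I × ℕ => (p.1, nx p.2))
    (fun p : Y.Q.I × ℕ => lTensor B (f p.2)) n m
    (fun (p : Y.Q.I × ℕ) h0 (h1 : Y.Q.deg p.1 + -(p.2 : ℤ) = n) => by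
      change Y.Q.deg p.1 + -(nx p.2 : ℤ) = m
      rw [h _ (fun h2 => h0 (by simp [h2]))]; omega)
    (fun (p : Y.Q.I × ℕ) v => lTensor_e _ _ v) x hx

omit hH in
theorem epsP (n : ℤ) (x : (Y.tensor N.gd).P.M n) :
    cxL k (mt k Y.P.Eps (fun l : ℕ => single l (1 : U))) x.1 = x.1 := by
  have := (Y.tensor N.gd).P.eps_coe (k := k) n x
  erw [GI.tensor_Eps] at this
  exact this

omit hH in
theorem epsQ (n : ℤ) (x : (Y.tensor N.gd).Q.M n) :
    cxL k (mt k Y.Q.Eps (fun l : ℕ => single l (1 : U))) x.1 = x.1 := by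
  have := (Y.tensor N.gd).Q.eps_coe (k := k) n x
  erw [GI.tensor_Eps] at this
  exact this

omit hH in
theorem aρ_tmul (χ : B →ₐ[k] k) (r : B) (u : U) :
    aρ (Algebra.TensorProduct.map χ (AlgHom.id k U)) (r ⊗ₜ u) =
      TensorProduct.map (aρ χ r) (aN k U U u) := by
  refine TensorProduct.ext' fun a b => ?_
  simp

theorem χ_hE (a : B ⊗[k] U) : (Y.tensor N.gd).χ (N.hE B hH a) = (Y.tensor N.gd).χ a := by
  tind a with b u
  rw [hE_tmul, GDat.tensor_χ, GDat.tensor_χ]
  exact congrArg _ (N.fst_hU H u)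

/-- the twist -/
noncomputable def tw : Tw (Y.tensor N.gd) (N.zs htr) where
  h := N.hE B hH
  h_S := by
    rintro _ ⟨b, rfl⟩
    exact (N.hE_tmul hH b 1).trans (by simp)
  χ_h := N.χ_hE hH Y
  θP n := resE ((Y.tensor N.gd).P.M n) (N.θa B hH Y.P.I wP)
    (N.memP Y id (N.th H wP) n n fun l => by simp) (N.memP Y id (N.th H⁻¹ wP) n n fun l => by simp)
  θQ n := resE ((Y.tensor N.gd).Q.M n) (N.θa B hH Y.Q.I wQ)
    (N.memQ Y id (N.th H wQ) n n fun l _ => by simp)
    (N.memQ Y id (N.th H⁻¹ wQ) n n fun l _ => by simp)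
  κP n := resL ((Y.tensor N.gd).P.M n) ((Y.tensor N.gd).P.M (n + 1))
    (lt B Y.P.I (fun l => l + 1) (N.ka H wP))
    (N.memP Y (fun l => l + 1) (N.ka H wP) n (n + 1) (fun l => by simp))
  κQ n := resL ((Y.tensor N.gd).Q.M n) ((Y.tensor N.gd).Q.M (n + 1))
    (lt B Y.Q.I (fun l => l - 1) (N.ka H wQ))
    (N.memQ Y (fun l => l - 1) (N.ka H wQ) n (n + 1) (fun l hl => by
      rcases l with _ | l
      · exact absurd (by simp [ka, wQ, tt k]) hl
      · simp))
  θP_H n a x := Subtype.ext (N.lt_H hH wP a x.1)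
  θQ_H n a x := Subtype.ext (N.lt_H hH wQ a x.1)
  κP_S n a ha x := Subtype.ext (lt_S (fun l => l + 1) (N.ka H wP) ha x.1)
  κQ_S n a ha x := Subtype.ext (lt_S (fun l => l - 1) (N.ka H wQ) ha x.1)
  θP_d n x := Subtype.ext (((Y.tensor N.gd).dP_coe _ _).trans
    ((lt_D (N.th_DP hH) Y.DP Y.P.Eps x.1).trans
      (congrArg (lt B Y.P.I id (N.th H wP)) ((Y.tensor N.gd).dP_coe _ _).symm)))
  θQ_d n x := Subtype.ext (((Y.tensor N.gd).dQ_coe _ _).trans
    ((lt_D (N.th_DQ hH) Y.DQ Y.Q.Eps x.1).trans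
      (congrArg (lt B Y.Q.I id (N.th H wQ)) ((Y.tensor N.gd).dQ_coe _ _).symm)))
  θ_c n x := Subtype.ext (((Y.tensor N.gd).c_coe _ _).trans
    ((lt_mt (N.th_C hH) Y.C x.1).trans
      (congrArg (lt B Y.Q.I id (N.th H wQ)) ((Y.tensor N.gd).c_coe _ _).symm)))
  κP_eq n x := Subtype.ext (by
    have := lt_homotopy (N.ka_DP hH) Y.DP Y.P.Eps x.1
    rw [N.epsP Y _ x] at this
    exact Eq.trans (congrArg₂ (· + ·) ((Y.tensor N.gd).dP_coe _ _)
      (congrArg (lt B Y.P.I (fun l => l + 1) (N.ka H wP)) ((Y.tensor N.gd).dP_coe _ _))) this)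
  κQ_eq n x := Subtype.ext (by
    have := lt_homotopy (N.ka_DQ hH) Y.DQ Y.Q.Eps x.1
    rw [N.epsQ Y _ x] at this
    exact Eq.trans (congrArg₂ (· + ·) ((Y.tensor N.gd).dQ_coe _ _)
      (congrArg (lt B Y.Q.I (fun l => l - 1) (N.ka H wQ)) ((Y.tensor N.gd).dQ_coe _ _))) this)
  κ_c n x := Subtype.ext (((Y.tensor N.gd).c_coe _ _).trans
    ((lt_mt (N.ka_C hH) Y.C x.1).trans
      (congrArg (lt B Y.Q.I (fun l => l - 1) (N.ka H wQ)) ((Y.tensor N.gd).c_coe _ _).symm)))
  genP n := fun (p : Y.P.I × ℕ) hp h0 => by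
    obtain ⟨i, l⟩ := p
    rcases l with _ | l
    · left
      refine (Y.tensor_χ N.gd (Y.P.e i) 1).trans ?_
      rw [hm.p0 i (fun h => h0 (by rw [h]; rfl)), zero_mul]
    · refine Or.inr ⟨H ^ (l + 1), hH' _ l.succ_pos, Subtype.ext ?_⟩
      refine (lt_single id (N.th H wP) (i, l + 1) (Y.P.e i ⊗ₜ 1)).trans ?_
      refine Eq.trans ?_ (Finsupp.smul_single (H ^ (l + 1)) (i, l + 1) (Y.P.e i ⊗ₜ[k] (1 : U))).symm
      rw [N.lTensor_th hH, hE_tmul, map_one, wP, zpow_natCast]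
      rfl
  genQ n := fun (p : Y.Q.I × ℕ) hp => by
    obtain ⟨i, l⟩ := p
    refine ⟨H ^ wQ l, fun h => hH' (l + 1) l.succ_pos ?_, Subtype.ext ?_⟩
    · have e : wQ l = -((l + 1 : ℕ) : ℤ) := by simp only [wQ]; omega
      rwa [e, zpow_neg, inv_eq_one, zpow_natCast] at h
    · refine (lt_single id (N.th H wQ) (i, l) (Y.Q.e i ⊗ₜ 1)).trans ?_
      refine Eq.trans ?_ (Finsupp.smul_single (H ^ wQ l) (i, l) (Y.Q.e i ⊗ₜ[k] (1 : U))).symm
      rw [N.lTensor_th hH, hE_tmul, map_one]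
      rfl
  aug_θ x := (Via.val _).injective (by
    refine (congrArg (Y.tensor N.gd).χ (lt_id_apply (N.th H wP) x.1 (Y.i₀, 0))).trans ?_
    rw [N.lTensor_th hH, GDat.aug_apply]
    simp only [wP, Nat.cast_zero, zpow_zero, one_smul]
    exact N.χ_hE hH Y _)
  W := k ⊗[k] U
  ρ := Algebra.TensorProduct.map Y.χ (AlgHom.id k U)
  ι := (TensorProduct.mk k k U).flip 1
  l := (TensorProduct.rid k k).toLinearMap ∘ₗ lTensor k N.snd
  ι_S := by
    rintro _ ⟨b, rfl⟩ c
    have := Y.tensor_χ N.gd b 1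
    rw [map_one, mul_one] at this
    erw [this]
    simp
  l_S := by
    rintro _ ⟨b, rfl⟩ w
    have := Y.tensor_χ N.gd b 1
    rw [map_one, mul_one] at this
    erw [this]
    induction w using TensorProduct.induction_on with
    | zero => simp
    | add x y hx hy => simp only [mul_add, map_add, hx, hy]
    | tmul c u => simp [mul_left_comm]
  l_ι c := by simp
  l_zι c := by simp [zs]
  η₁ := single (Y.i₀, (0 : ℕ)) (1 ⊗ₜ N.z)
  η₂ := single (j₀, (0 : ℕ)) (1 ⊗ₜ 1)
  c₁ := by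
    have u := N.contr1 (aN k U U) fun r v => mul_comm r v
    rw [← am_single (aN k U U) (fun i : ℕ => i) (fun _ => 1),
      ← am_single (aN k U U) (fun i : ℕ => i + 1) (fun _ => N.z)] at u
    have := isContr_mt (aρ_tmul Y.χ)
      (isContr_min Y.P Y.χ Y.DPt Y.i₀ hm.p1 hm.p0 fun i j => by rw [Y.tP, hm.dp]) u
    rw [finsuppTensorFinsupp_single] at this
    erw [GI.tensor_Eps]
    exact this
  c₂ := by
    have u := N.contr0 (aN k U U) fun r v => mul_comm r v
    rw [← am_single (aN k U U) (fun i : ℕ => i) (fun _ => 1),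
      ← am_single (aN k U U) (fun i : ℕ => i - 1) N.a] at u
    have := isContr_mt (aρ_tmul Y.χ)
      (isContr_min Y.Q Y.χ Y.DQt j₀ hm.q1 hm.q0 fun i j => by rw [Y.tQ, hm.dq]) u
    rw [finsuppTensorFinsupp_single] at this
    erw [GI.tensor_Eps]
    exact this
  d₁ := fun (p : Y.P.I × ℕ) hp => Finsupp.single_eq_of_ne fun h => hp (by
    rw [h]; exact (Y.tensor N.gd).deg₀)
  d₂ := fun (p : Y.Q.I × ℕ) hp => Finsupp.single_eq_of_ne fun h => hp (by
    rw [h]; exact (add_zero _).trans hd)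

end Tw

end DN

end Crest.Agent.R186
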