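import Crest.Agent.R186.Basic
import Crest.Prelude.Def_GorProjVanishing

/-! Row 186, task Ext: from a complete resolution to Mathlib's `Ext`.  `Z = P 0 / range (d 0)`
(isomorphic to `range (d (-1)) = ker (d (-2))`).  Dimension shifting along
`0 → range (d n) → P n → P n / range (d n) → 0` and `P (n+1) / range (d (n+1)) ≃ range (d n)`;
`Ext^1` is computed by extending maps: target `R` by `T.ta`, target `Z` by `T.Van n (-2)`
(a map `P (n+1) → ker (d (-2))`, degree `n+1 ≥ 1`). -/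

set_option autoImplicit false

namespace Crest.Agent.R186

open CategoryTheory

universe u v

variable {k : Type v} [Field k] {R : Type u} [Ring R] [Algebra k R]

/-- the module resolved by `T` -/
abbrev CR.Z (T : CR k R) : Type u := T.P 0 ⧸ LinearMap.range (T.d 0)

/-- the cokernel of `d n` -/
abbrev CR.C (T : CR k R) (n : ℤ) : Type u := T.P n ⧸ LinearMap.range (T.d n)

/-- the embedding `C (n+1) → P n` induced by `d n` -/
def CR.ι (T : CR k R) (n : ℤ) : T.C (n + 1) →ₗ[R] T.P n :=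
  (LinearMap.range (T.d (n + 1))).liftQ (T.d n) (by
    rintro _ ⟨x, rfl⟩
    exact T.d_d n x)

theorem CR.ι_mk (T : CR k R) (n : ℤ) (x : T.P (n + 1)) :
    T.ι n (Submodule.Quotient.mk x) = T.d n x := rfl

theorem CR.ι_injective (T : CR k R) (n : ℤ) : Function.Injective (T.ι n) := by
  rw [injective_iff_map_eq_zero]
  intro x hx
  obtain ⟨y, rfl⟩ := Submodule.Quotient.mk_surjective _ x
  rw [T.ι_mk] at hx
  exact (Submodule.Quotient.mk_eq_zero _).2 ((T.exact n y).1 hx)

theorem CR.ι_exact (T : CR k R) (n : ℤ) :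
    Function.Exact (T.ι n) (LinearMap.range (T.d n)).mkQ := by
  intro y
  rw [Submodule.mkQ_apply, Submodule.Quotient.mk_eq_zero]
  constructor
  · rintro ⟨x, rfl⟩
    exact ⟨Submodule.Quotient.mk x, rfl⟩
  · rintro ⟨x, rfl⟩
    obtain ⟨z, rfl⟩ := Submodule.Quotient.mk_surjective _ x
    exact ⟨z, rfl⟩

/-- the short complex `C (n+1) → P n → C n` -/
noncomputable abbrev CR.sc (T : CR k R) (n : ℤ) : ShortComplex (ModuleCat.{u} R) :=
  ShortComplex.mk (ModuleCat.ofHom (T.ι n)) (ModuleCat.ofHom (LinearMap.range (T.d n)).mkQ)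
    (by ext x; simpa using (T.ι_exact n).apply_apply_eq_zero (Submodule.Quotient.mk x))

theorem CR.sc_shortExact (T : CR k R) (n : ℤ) : (T.sc n).ShortExact :=
  ModuleCat.shortComplex_shortExact _ (T.ι_exact n) (T.ι_injective n) (Submodule.mkQ_surjective _)

/-- cocycles in degree `n + 1` with values in `M` are coboundaries -/
def CR.H (T : CR k R) (M : Type u) [AddCommGroup M] [Module R M] (n : ℤ) : Prop :=
  ∀ f : T.P (n + 1) →ₗ[R] M, f ∘ₗ T.d (n + 1) = 0 → ∃ g : T.P n →ₗ[R] M, g ∘ₗ T.d n = f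

theorem CR.ext_eq_zero (T : CR k R) (M : Type u) [AddCommGroup M] [Module R M]
    (h : ∀ n : ℤ, 0 ≤ n → T.H M n) (i : ℕ) :
    ∀ n : ℤ, 0 ≤ n →
      ∀ e : Abelian.Ext (ModuleCat.of R (T.C n)) (ModuleCat.of R M) (i + 1), e = 0 := by
  induction i with
  | zero =>
    intro n hn e
    obtain ⟨x₁, hx⟩ := Abelian.Ext.contravariant_sequence_exact₃ (T.sc_shortExact n)
      (ModuleCat.of R M) e (Abelian.Ext.eq_zero_of_projective _) (add_comm 1 0)
    obtain ⟨φ, rfl⟩ := Abelian.Ext.homEquiv₀.symm.surjective x₁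
    obtain ⟨g, hg⟩ := h n hn (φ.hom ∘ₗ (LinearMap.range (T.d (n + 1))).mkQ) (by
      ext x
      have : (LinearMap.range (T.d (n + 1))).mkQ (T.d (n + 1) x) = 0 :=
        (Submodule.Quotient.mk_eq_zero _).2 ⟨x, rfl⟩
      simp only [LinearMap.comp_apply, this, map_zero, LinearMap.zero_apply])
    have hφ : φ = (T.sc n).f ≫ ModuleCat.ofHom g := by
      ext x
      exact (LinearMap.congr_fun hg x).symm
    rw [← hx, hφ, Abelian.Ext.homEquiv₀_symm_apply, ← Abelian.Ext.mk₀_comp_mk₀,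
      ← Abelian.Ext.comp_assoc_of_second_deg_zero, (T.sc_shortExact n).extClass_comp,
      Abelian.Ext.zero_comp]
  | succ i ih =>
    intro n hn e
    obtain ⟨x₁, hx⟩ := Abelian.Ext.contravariant_sequence_exact₃ (T.sc_shortExact n)
      (ModuleCat.of R M) e (Abelian.Ext.eq_zero_of_projective _) (add_comm 1 (i + 1))
    rw [← hx, ih (n + 1) (by omega) x₁, Abelian.Ext.comp_zero]

theorem CR.ext_subsingleton (T : CR k R) (M : Type u) [AddCommGroup M] [Module R M]
    (h : ∀ n : ℤ, 0 ≤ n → T.H M n) (i : ℕ) (hi : 0 < i) :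
    Subsingleton (Abelian.Ext (ModuleCat.of R T.Z) (ModuleCat.of R M) i) := by
  obtain ⟨j, rfl⟩ : ∃ j, i = j + 1 := ⟨i - 1, by omega⟩
  exact subsingleton_of_forall_eq 0 (T.ext_eq_zero M h j 0 le_rfl)

theorem CR.H_of_van (T : CR k R) (n m j : ℤ) (hj : j = m + 1 + 1) (hV : T.Van n m) :
    T.H (T.C j) n := by
  subst hj
  intro f hf
  obtain ⟨g, hg0, hg⟩ := hV (T.ι (m + 1) ∘ₗ f) (by
    ext x
    obtain ⟨y, hy⟩ := Submodule.Quotient.mk_surjective _ (f x)
    simp only [LinearMap.comp_apply, ← hy, T.ι_mk, T.d_d, LinearMap.zero_apply])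
    (by rw [LinearMap.comp_assoc, hf, LinearMap.comp_zero])
  obtain ⟨g', hg'⟩ := T.lift _ m g hg0
  refine ⟨(LinearMap.range (T.d (m + 1 + 1))).mkQ ∘ₗ g', ?_⟩
  ext x
  apply T.ι_injective (m + 1)
  have h1 : T.d (m + 1) (g' (T.d n x)) = g (T.d n x) := LinearMap.congr_fun hg' _
  have h2 : g (T.d n x) = T.ι (m + 1) (f x) := LinearMap.congr_fun hg x
  simp only [LinearMap.comp_apply, Submodule.mkQ_apply, T.ι_mk, h1, h2]

theorem CR.not_projective_C (T : CR k R) (m j : ℤ) (hj : j = m + 1) (hN : T.NP m) :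
    ¬ Module.Projective R (T.C j) := by
  subst hj
  intro hP
  obtain ⟨s, hs⟩ := Module.projective_lifting_property (LinearMap.range (T.d (m + 1))).mkQ
    LinearMap.id (Submodule.mkQ_surjective _)
  obtain ⟨σ, hσ⟩ := T.ta' (T.P (m + 1)) m (s ∘ₗ (LinearMap.range (T.d (m + 1))).mkQ) (by
    ext x
    have : (LinearMap.range (T.d (m + 1))).mkQ (T.d (m + 1) x) = 0 :=
      (Submodule.Quotient.mk_eq_zero _).2 ⟨x, rfl⟩
    simp only [LinearMap.comp_apply, this, map_zero, LinearMap.zero_apply])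
  refine hN ⟨σ, ?_⟩
  rw [hσ]
  ext x
  have h1 : (Submodule.Quotient.mk (s (Submodule.Quotient.mk x)) : T.C (m + 1)) =
      Submodule.Quotient.mk x := LinearMap.congr_fun hs _
  simp only [LinearMap.comp_apply, Submodule.mkQ_apply]
  rw [← T.ι_mk, h1, T.ι_mk]

theorem CR.isGP (T : CR k R) : Crest.AlgebraR.IsGorensteinProjective R T.Z := by
  refine ⟨T.P, T.acg, T.mod, T.d, fun n => ⟨T.fin n, T.proj n⟩, T.exact, fun n g => ?_,
    ⟨LinearEquiv.refl _ _⟩⟩
  constructor
  · intro hg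
    exact T.ta n g hg
  · rintro ⟨f, rfl⟩
    simp only [LinearMap.comp_assoc, T.d_comp_d, LinearMap.comp_zero]

theorem CR.not_projective (T : CR k R) (hN : ∀ m, T.NP m) : ¬ Module.Projective R T.Z :=
  T.not_projective_C (-1) 0 (by norm_num) (hN _)

theorem CR.ext_ring (T : CR k R) (i : ℕ) (hi : 0 < i) :
    Subsingleton (Abelian.Ext (ModuleCat.of R T.Z) (ModuleCat.of R R) i) :=
  T.ext_subsingleton R (fun n _ => T.ta n) i hi

theorem CR.ext_self (T : CR k R) (hV : ∀ n m : ℤ, 1 ≤ n - m - 1 → T.Van n m) (i : ℕ)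
    (hi : 0 < i) : Subsingleton (Abelian.Ext (ModuleCat.of R T.Z) (ModuleCat.of R T.Z) i) :=
  T.ext_subsingleton T.Z
    (fun n hn => T.H_of_van n (-2) 0 (by norm_num) (hV n (-2) (by omega))) i hi

/-- radical of a `SplitBasic8` algebra: it is the kernel of `φ` (nilpotent two-sided ideal with
quotient `k^8`). -/
theorem SplitBasic8.jacobson (h : SplitBasic8 k R) :
    Nonempty ((R ⧸ Ring.jacobson R) ≃ₐ[k] (Fin 8 → k)) ∧ Ring.jacobson R ^ 4 ≠ ⊥ := by
  obtain ⟨φ, hφ, ⟨N, hN⟩, a, b, c, d, ha, hb, hc, hd, habcd⟩ := h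
  have hJ : Ring.jacobson R = RingHom.ker φ := by
    apply le_antisymm
    · have : RingHomSurjective (φ : R →+* (Fin 8 → k)) := ⟨hφ⟩
      have h1 := Ring.le_comap_jacobson (φ : R →+* (Fin 8 → k))
      rw [IsSemisimpleRing.jacobson_eq_bot (Fin 8 → k)] at h1
      exact h1
    · intro x hx
      rw [← Ideal.jacobson_bot, Ideal.mem_jacobson_iff]
      intro y
      have hyx : y * x ∈ LinearMap.ker φ.toLinearMap := by
        have : φ x = 0 := hx
        simp [this]
      have hnil : IsNilpotent (y * x) := by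
        refine ⟨N, ?_⟩
        have := Submodule.pow_mem_pow _ hyx N
        rw [hN] at this
        exact this
      obtain ⟨z, hz⟩ := hnil.isUnit_add_one.exists_left_inv
      refine ⟨z, ?_⟩
      rw [Ideal.mem_bot, mul_assoc, ← hz, mul_add, mul_one, sub_self]
  refine ⟨⟨(Ideal.quotientEquivAlgOfEq k hJ).trans
    (Ideal.quotientKerAlgEquivOfSurjective hφ)⟩, fun h0 => habcd ?_⟩
  have hmem : ∀ x, φ x = 0 → x ∈ Ring.jacobson R := fun x hx => by
    rw [hJ]; exact hx
  have : a * b * c * d ∈ Ring.jacobson R ^ 4 := by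
    rw [Submodule.pow_succ, Submodule.pow_succ, Submodule.pow_succ, Submodule.pow_one]
    exact Ideal.mul_mem_mul (Ideal.mul_mem_mul (Ideal.mul_mem_mul (hmem a ha) (hmem b hb))
      (hmem c hc)) (hmem d hd)
  rw [h0] at this
  exact this

theorem CR.data [FiniteDimensional k R] (h : SplitBasic8 k R) (T : CR k R)
    (hV : ∀ n m : ℤ, 1 ≤ n - m - 1 → T.Van n m) (hN : ∀ m, T.NP m) :
    Crest.AlgebraR.GorProjVanishingData k R T.Z :=
  ⟨inferInstance, h.jacobson.1, h.jacobson.2, inferInstance, T.not_projective hN, T.isGP,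
    T.ext_self hV, T.ext_ring⟩

end Crest.Agent.R186
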