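import Crest.Agent.R186.TrivExtAux

/-! Row 186, task TrivExt: the trivial extension `A = Λ ⋉ DΛ` (`TrivSqZeroExt Λ (Dual k Λ)` with
`(a • φ • b) y = φ (b * y * a)`, use a type synonym for the bimodule) is symmetric
(`φ (a,f) (b,g) = f b + g a`), and `Ind P = P × νP`, `νP = Dual k (P →ₗ[Λ] Λ)` with
`(a • ξ) g = ξ (g · a)`, `(g · a) p = g p * a`, `(a,φ) • (p,ξ) = (a p, a ξ + (g ↦ φ (g p)))`.
* `Ind P` is f.g. projective: dual basis `(g j, p j)` of `P` (`exists_dualBasis`) gives the dual basis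
  `(p,ξ) ↦ (g j p, (a ↦ ξ (g j · a)))`, `(p j, 0)` (`finite_projective_of_dualBasis`).
* `Ind P` is generated by `P × 0`, so every `A`-linear `Ind P → Ind P'` is
  `(p,ξ) ↦ (f p, w p + ν f ξ)` with `f : P → P'`, `w : P → νP'` `Λ`-linear.
* differential `Ind (d n)`; exact because `ν` of the complex is the dual of `Hom(P,Λ)` (`ta`).
* `ta` for `A`: `A` is self-injective (or directly: `f` part by `T.ta`, `w` part: maps to `DΛ` are
  linear forms).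
* `Van n m` for `a = n-m-1 ≥ 1`: the `f` part is `T.Van n m`.  For the `w` part,
  `w : P (n+1) → ν P (m+1)` corresponds to the linear form `λ γ = ∑ j, w (p j) (g j ∘ γ)` on
  `Hom(P (m+1), P (n+1))`, conversely `w p g = λ (toSpanSingleton p ∘ g)`.  `λ` kills `γ ∘ d m` and
  `d (n+1) ∘ γ`; one needs `λ'` on `Hom(P (m+1), P n)` with `λ' (d n ∘ γ) = λ γ`, `λ' (γ ∘ d m) = 0`.
  It exists (linear algebra) as soon as `d n ∘ γ = γ' ∘ d m → λ γ = 0`, and this follows from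
  `T.Van (m+1) n` (degree `m - n = -a-1 ≤ -2`) applied to `γ ∘ d (m+1)`, then `T.lift`, `T.ta'`.
* `NP`: take the first component. -/

set_option autoImplicit false

namespace Crest.Agent.R186

universe u

section Rk

variable {k : Type u} [Field k] {Λ : Type u} [Ring Λ] [Algebra k Λ]
variable {P : Type u} [AddCommGroup P] [Module Λ P] [Module k P] [IsScalarTower k Λ P]
variable {Q : Type u} [AddCommGroup Q] [Module Λ Q]

variable (k) in
/-- the rank one map `x ↦ g x • p`, as a `k`-linear function of `g` -/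
def rk1 (p : P) : (Q →ₗ[Λ] Λ) →ₗ[k] (Q →ₗ[Λ] P) where
  toFun g := LinearMap.toSpanSingleton Λ P p ∘ₗ g
  map_add' g h := by ext; simp [add_smul]
  map_smul' c g := by ext; simp

@[simp] theorem rk1_apply (p : P) (g : Q →ₗ[Λ] Λ) (x : Q) : rk1 k p g x = g x • p := rfl

/-- the map `P → νQ` attached to a linear form on `Hom(Q, P)` -/
def ofForm (l : (Q →ₗ[Λ] P) →ₗ[k] k) : P →ₗ[Λ] Nu k Λ Q where
  toFun p := Nu.mk (l ∘ₗ rk1 k p)
  map_add' p q := by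
    ext g
    simp only [Nu.ev_mk, LinearMap.comp_apply, Nu.ev_add]
    rw [← map_add]; congr 1; ext; simp
  map_smul' a p := by
    ext g
    simp only [Nu.ev_mk, LinearMap.comp_apply, Nu.ev_smul, RingHom.id_apply]
    congr 1; ext; simp [mul_smul]

@[simp] theorem ev_ofForm (l : (Q →ₗ[Λ] P) →ₗ[k] k) (p : P) (g : Q →ₗ[Λ] Λ) :
    (ofForm l p).ev g = l (rk1 k p g) := rfl

theorem exists_form [Module.Finite Λ P] [Module.Projective Λ P] (w : P →ₗ[Λ] Nu k Λ Q) :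
    ∃ l : (Q →ₗ[Λ] P) →ₗ[k] k, ∀ p g, l (rk1 k p g) = (w p).ev g := by
  obtain ⟨r, g, p, h⟩ := exists_dualBasis Λ P
  refine ⟨⟨⟨fun γ => ∑ j, (w (p j)).ev (g j ∘ₗ γ), fun γ δ => ?_⟩, fun c γ => ?_⟩, fun x f => ?_⟩
  · simp [LinearMap.comp_add, Finset.sum_add_distrib]
  · have : ∀ j, g j ∘ₗ (c • γ) = c • (g j ∘ₗ γ) := fun j => by
      ext; simp [LinearMap.map_smul_of_tower]
    simp [this, Finset.mul_sum]
  · have : ∀ j, g j ∘ₗ rk1 k x f = rmul k Λ Q (g j x) f := fun j => by ext; simp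
    conv_rhs => rw [← h x]
    simp [this, map_sum, Nu.ev_sum]

theorem eq_sum_rk1 [Module.Finite Λ P] [Module.Projective Λ P] (γ : Q →ₗ[Λ] P) :
    ∃ (r : ℕ) (g : Fin r → Q →ₗ[Λ] Λ) (p : Fin r → P), γ = ∑ j, rk1 k (p j) (g j) := by
  obtain ⟨r, g, p, h⟩ := exists_dualBasis Λ P
  refine ⟨r, fun j => g j ∘ₗ γ, p, ?_⟩
  ext x
  simp [LinearMap.sum_apply, h]

end Rk

namespace CR

variable {k : Type u} [Field k] {Λ : Type u} [Ring Λ] [Algebra k Λ] (T : CR k Λ)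

theorem exact_nu (n : ℤ) (ξ : Nu k Λ (T.P (n + 1))) (h : Nu.map (T.d n) ξ = 0) :
    ∃ ζ : Nu k Λ (T.P (n + 1 + 1)), Nu.map (T.d (n + 1)) ζ = ξ := by
  obtain ⟨ℓ, hℓ⟩ := exists_form_factor (pre k Λ _ _ (T.d (n + 1))) ξ.ev fun g hg => by
    obtain ⟨g', rfl⟩ := T.ta n g hg
    have := congrArg (fun η => Nu.ev η g') h
    simpa using this
  exact ⟨Nu.mk ℓ, Nu.ext fun g => hℓ g⟩

theorem exact_ind (n : ℤ) :
    Function.Exact (Ind.hom (k := k) (T.d (n + 1)) 0) (Ind.hom (k := k) (T.d n) 0) := by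
  intro x
  constructor
  · intro hx
    have h1 : T.d n x.fst = 0 := by simpa using congrArg Ind.fst hx
    have h2 : Nu.map (T.d n) x.snd = 0 := by simpa using congrArg Ind.snd hx
    obtain ⟨p, hp⟩ := (T.exact n x.fst).1 h1
    obtain ⟨ζ, hζ⟩ := T.exact_nu n x.snd h2
    exact ⟨Ind.mk p ζ, Ind.ext (by simpa using hp) (by simpa using hζ)⟩
  · rintro ⟨y, rfl⟩
    refine Ind.ext (by simp [T.d_d]) ?_
    ext g
    simp [LinearMap.comp_assoc, T.d_comp_d]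

theorem ta_DM (n : ℤ) (w : T.P (n + 1) →ₗ[Λ] DM k Λ) (hw : w ∘ₗ T.d (n + 1) = 0) :
    ∃ w' : T.P n →ₗ[Λ] DM k Λ, w' ∘ₗ T.d n = w := by
  let ℓ : T.P (n + 1) →ₗ[k] k :=
    { toFun := fun p => (w p).ev 1
      map_add' := fun p q => by simp
      map_smul' := fun c p => by simp [LinearMap.map_smul_of_tower] }
  obtain ⟨ℓ', hℓ'⟩ := exists_form_factor ((T.d n).restrictScalars k) ℓ fun p hp => by
    obtain ⟨q, rfl⟩ := (T.exact n p).1 hp
    have : w (T.d (n + 1) q) = 0 := LinearMap.congr_fun hw q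
    simp [ℓ, this]
  refine ⟨⟨⟨fun p => DM.mk (ℓ' ∘ₗ (LinearMap.toSpanSingleton Λ _ p).restrictScalars k),
    fun p q => ?_⟩, fun a p => ?_⟩, ?_⟩
  · ext; simp
  · ext; simp [mul_smul]
  · ext p a
    have := hℓ' (a • p)
    simpa [ℓ] using this

theorem ta_ind (n : ℤ) (F : Ind k Λ (T.P (n + 1)) →ₗ[TE k Λ] TE k Λ)
    (hF : F ∘ₗ Ind.hom (T.d (n + 1)) 0 = 0) :
    ∃ G : Ind k Λ (T.P n) →ₗ[TE k Λ] TE k Λ, G ∘ₗ Ind.hom (T.d n) 0 = F := by
  have h0 : ∀ p, F (Ind.mk (T.d (n + 1) p) 0) = 0 := fun p => by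
    rw [← Ind.hom_zero_mk]; exact LinearMap.congr_fun hF _
  obtain ⟨g, hg⟩ := T.ta n (Ind.homAFst F) (by ext p; simp [h0])
  obtain ⟨w, hw⟩ := T.ta_DM n (Ind.homASnd F) (by ext p; simp [h0])
  refine ⟨Ind.homA g w, Ind.hom_ext fun p => ?_⟩
  have h1 : g (T.d n p) = (F (Ind.mk p 0)).fst := LinearMap.congr_fun hg p
  have h2 : w (T.d n p) = (F (Ind.mk p 0)).snd := LinearMap.congr_fun hw p
  refine TrivSqZeroExt.ext (by simp [h1]) ?_
  ext b
  simp [h2]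

/-- the induced complete resolution over the trivial extension -/
def ind : CR k (TE k Λ) where
  P n := Ind k Λ (T.P n)
  fin _ := Ind.finite_projective.1
  proj _ := Ind.finite_projective.2
  d n := Ind.hom (T.d n) 0
  exact n := T.exact_ind n
  ta n := T.ta_ind n

theorem van_nu (n m : ℤ) (hV : T.Van (m + 1) n) (w : T.P (n + 1) →ₗ[Λ] Nu k Λ (T.P (m + 1)))
    (h1 : Nu.map (T.d m) ∘ₗ w = 0) (h2 : w ∘ₗ T.d (n + 1) = 0) :
    ∃ w' : T.P n →ₗ[Λ] Nu k Λ (T.P (m + 1)), Nu.map (T.d m) ∘ₗ w' = 0 ∧ w' ∘ₗ T.d n = w := by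
  obtain ⟨l, hl⟩ := exists_form w
  have hi : ∀ γ : T.P m →ₗ[Λ] T.P (n + 1), l (γ ∘ₗ T.d m) = 0 := fun γ => by
    obtain ⟨r, g, p, rfl⟩ := eq_sum_rk1 (k := k) γ
    have : (∑ j, rk1 k (p j) (g j)) ∘ₗ T.d m = ∑ j, rk1 k (p j) (g j ∘ₗ T.d m) := by
      ext; simp [LinearMap.sum_apply]
    rw [this, map_sum]
    refine Finset.sum_eq_zero fun j _ => ?_
    rw [hl]
    have := congrArg (fun η => Nu.ev η (g j)) (LinearMap.congr_fun h1 (p j))
    simpa using this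
  have hii : ∀ γ : T.P (m + 1) →ₗ[Λ] T.P (n + 1 + 1), l (T.d (n + 1) ∘ₗ γ) = 0 := fun γ => by
    obtain ⟨r, g, p, rfl⟩ := eq_sum_rk1 (k := k) γ
    have : T.d (n + 1) ∘ₗ (∑ j, rk1 k (p j) (g j)) = ∑ j, rk1 k (T.d (n + 1) (p j)) (g j) := by
      ext; simp [LinearMap.sum_apply]
    rw [this, map_sum]
    refine Finset.sum_eq_zero fun j _ => ?_
    have h3 : w (T.d (n + 1) (p j)) = 0 := LinearMap.congr_fun h2 (p j)
    rw [hl, h3, Nu.ev_zero]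
  let u : ((T.P (m + 1) →ₗ[Λ] T.P (n + 1)) × (T.P m →ₗ[Λ] T.P n)) →ₗ[k]
      (T.P (m + 1) →ₗ[Λ] T.P n) :=
    { toFun := fun x => T.d n ∘ₗ x.1 - x.2 ∘ₗ T.d m
      map_add' := fun x y => by ext; simp; abel
      map_smul' := fun c x => by ext; simp [LinearMap.map_smul_of_tower, smul_sub] }
  obtain ⟨l', hl'⟩ := exists_form_factor u (l ∘ₗ LinearMap.fst k _ _) fun x hx => by
    obtain ⟨γ, γ'⟩ := x
    have h3 : T.d n ∘ₗ γ = γ' ∘ₗ T.d m := sub_eq_zero.1 hx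
    obtain ⟨h, hh1, hh2⟩ := hV (γ ∘ₗ T.d (m + 1))
      (by rw [← LinearMap.comp_assoc, h3, LinearMap.comp_assoc, T.d_comp_d, LinearMap.comp_zero])
      (by rw [LinearMap.comp_assoc, T.d_comp_d, LinearMap.comp_zero])
    obtain ⟨h', rfl⟩ := T.lift _ n h hh1
    obtain ⟨s, hs⟩ := T.ta' _ m (γ - T.d (n + 1) ∘ₗ h') (by rw [LinearMap.sub_comp, hh2, sub_self])
    have h4 := hi s
    rw [hs, map_sub, hii, sub_zero] at h4
    exact h4
  refine ⟨ofForm l', ?_, ?_⟩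
  · ext p g
    have h3 := hl' (0, -rk1 k p g)
    have h4 : u (0, -rk1 k p g) = rk1 k p (g ∘ₗ T.d m) := by ext; simp [u]
    rw [h4] at h3
    simpa using h3
  · ext p g
    have h3 := hl' (rk1 k p g, 0)
    have h4 : u (rk1 k p g, 0) = rk1 k (T.d n p) g := by ext; simp [u]
    rw [h4] at h3
    simpa [hl] using h3

theorem van_ind_aux (n m : ℤ) (hV : T.Van n m) (hV' : T.Van (m + 1) n)
    (F : Ind k Λ (T.P (n + 1)) →ₗ[TE k Λ] Ind k Λ (T.P (m + 1)))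
    (hF1 : Ind.hom (T.d m) 0 ∘ₗ F = 0) (hF2 : F ∘ₗ Ind.hom (T.d (n + 1)) 0 = 0) :
    ∃ G : Ind k Λ (T.P n) →ₗ[TE k Λ] Ind k Λ (T.P (m + 1)),
      Ind.hom (T.d m) 0 ∘ₗ G = 0 ∧ G ∘ₗ Ind.hom (T.d n) 0 = F := by
  have h1 : ∀ p, Ind.hom (k := k) (T.d m) 0 (F (Ind.mk p 0)) = 0 := fun p =>
    LinearMap.congr_fun hF1 (Ind.mk p 0)
  have h2 : ∀ p, F (Ind.mk (T.d (n + 1) p) 0) = 0 := fun p => by
    rw [← Ind.hom_zero_mk]; exact LinearMap.congr_fun hF2 _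
  obtain ⟨g, hg1, hg2⟩ := hV (Ind.homFst F)
    (by ext p; simpa using congrArg Ind.fst (h1 p)) (by ext p; simp [h2])
  obtain ⟨w, hw1, hw2⟩ := T.van_nu n m hV' (Ind.homSnd F)
    (LinearMap.ext fun p => by simpa using congrArg Ind.snd (h1 p))
    (LinearMap.ext fun p => by simp [h2])
  refine ⟨Ind.hom g w, Ind.hom_ext fun p => ?_, Ind.hom_ext fun p => ?_⟩
  · have h3 : T.d m (g p) = 0 := LinearMap.congr_fun hg1 p
    have h4 : Nu.map (T.d m) (w p) = 0 := LinearMap.congr_fun hw1 p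
    change Ind.hom (k := k) (T.d m) 0 (Ind.hom g w (Ind.mk p 0)) = 0
    exact Ind.ext (by simp [h3]) (by simp [h4])
  · have h3 : g (T.d n p) = (F (Ind.mk p 0)).fst := LinearMap.congr_fun hg2 p
    have h4 : w (T.d n p) = (F (Ind.mk p 0)).snd := LinearMap.congr_fun hw2 p
    change Ind.hom g w (Ind.hom (k := k) (T.d n) 0 (Ind.mk p 0)) = F (Ind.mk p 0)
    exact Ind.ext (by simp [h3]) (by simp [h4])

theorem van_ind (n m : ℤ) (hV : T.Van n m) (hV' : T.Van (m + 1) n) : T.ind.Van n m :=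
  fun F hF1 hF2 => T.van_ind_aux n m hV hV' F hF1 hF2

theorem np_ind_aux (m : ℤ) (hN : T.NP m)
    (σ : Ind k Λ (T.P m) →ₗ[TE k Λ] Ind k Λ (T.P (m + 1)))
    (hσ : Ind.hom (T.d m) 0 ∘ₗ σ ∘ₗ Ind.hom (T.d m) 0 = Ind.hom (T.d m) 0) : False := by
  refine hN ⟨Ind.homFst σ, ?_⟩
  ext p
  have h : Ind.hom (k := k) (T.d m) 0 (σ (Ind.hom (k := k) (T.d m) 0 (Ind.mk p 0))) =
      Ind.hom (k := k) (T.d m) 0 (Ind.mk p 0) := LinearMap.congr_fun hσ (Ind.mk p 0)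
  rw [Ind.hom_zero_mk] at h
  simpa using congrArg Ind.fst h

theorem np_ind (m : ℤ) (hN : T.NP m) : T.ind.NP m := fun ⟨σ, hσ⟩ => T.np_ind_aux m hN σ hσ

end CR

theorem exists_symm (k : Type u) [Field k] (Λ : Type u) [Ring Λ] [Algebra k Λ]
    [FiniteDimensional k Λ] (T : CR k Λ)
    (hV : ∀ n m : ℤ, n - m - 1 ≠ 0 → n - m - 1 ≠ -1 → T.Van n m) (hN : ∀ m, T.NP m) :
    ∃ (A : Type u) (_ : Ring A) (_ : Algebra k A), FiniteDimensional k A ∧
      Crest.AlgebraR.IsSymmetricAlgebra k A ∧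
      ∃ T' : CR k A, (∀ n m : ℤ, 1 ≤ n - m - 1 → T'.Van n m) ∧ ∀ m, T'.NP m :=
  ⟨TE k Λ, inferInstance, inferInstance, inferInstance, isSymmetric_TE k Λ, T.ind,
    fun n m h => T.van_ind n m (hV n m (by omega) (by omega)) (hV (m + 1) n (by omega) (by omega)),
    fun m => T.np_ind m (hN m)⟩

end Crest.Agent.R186
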