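import Crest.Agent.R186.Main
import Crest.Agent.R186.TrivExt

/-! Row 186: the base field `F₂(X₀,X₁,X₂)` and its extensions. -/

set_option autoImplicit false

namespace Crest.Agent.R186

universe u

theorem field_data (K : Type u) [Field K] [Algebra (FractionRing (MvPolynomial (Fin 3) (ZMod 2))) K] :
    CharP K 2 ∧ ∃ q : K, q ≠ 0 ∧ ∀ n : ℕ, 0 < n → q ^ n ≠ 1 := by
  have hinj : Function.Injective
      ((algebraMap (FractionRing (MvPolynomial (Fin 3) (ZMod 2))) K).comp
        (algebraMap (MvPolynomial (Fin 3) (ZMod 2)) (FractionRing (MvPolynomial (Fin 3) (ZMod 2))))) :=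
    (algebraMap (FractionRing (MvPolynomial (Fin 3) (ZMod 2))) K).injective.comp
      (IsFractionRing.injective _ _)
  refine ⟨charP_of_injective_ringHom hinj 2, ((algebraMap (FractionRing (MvPolynomial (Fin 3) (ZMod 2))) K).comp
        (algebraMap (MvPolynomial (Fin 3) (ZMod 2))
          (FractionRing (MvPolynomial (Fin 3) (ZMod 2))))) (MvPolynomial.X 0), ?_, fun n hn h => ?_⟩
  · intro h
    exact MvPolynomial.X_ne_zero (R := ZMod 2) (0 : Fin 3) (hinj (by rw [h, map_zero]))
  · rw [← map_pow, ← map_one ((algebraMap (FractionRing (MvPolynomial (Fin 3) (ZMod 2))) K).comp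
        (algebraMap (MvPolynomial (Fin 3) (ZMod 2))
          (FractionRing (MvPolynomial (Fin 3) (ZMod 2)))))] at h
    have h2 := congrArg (MvPolynomial.eval (fun _ => (0 : ZMod 2))) (hinj h)
    simp [hn.ne'] at h2

theorem exists_symm_data (K : Type u) [Field K]
    [Algebra (FractionRing (MvPolynomial (Fin 3) (ZMod 2))) K] :
    ∃ (A : Type u) (_ : Ring A) (_ : Algebra K A), FiniteDimensional K A ∧
      Crest.AlgebraR.IsSymmetricAlgebra K A ∧
      ∃ T' : CR K A, (∀ n m : ℤ, 1 ≤ n - m - 1 → T'.Van n m) ∧ ∀ m, T'.NP m := by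
  obtain ⟨h2, q, hq0, hq⟩ := field_data K
  obtain ⟨Λ, _, _, hfin, -, T, hV, hN⟩ := exists_tri K q hq0 hq
  exact exists_symm K Λ T hV hN

end Crest.Agent.R186
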