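import Crest.Agent.R186.GDat

/-! Row 186: matrices with one entry in every row; minimal Gorenstein data. -/

set_option autoImplicit false
set_option linter.unusedSectionVars false
set_option linter.unusedSimpArgs false

namespace Crest.Agent.R186

open scoped TensorProduct
open Finsupp (single)

universe u

variable {k : Type u} [Field k] [CharP k 2] {R R' : Type u} [Ring R] [Algebra k R] [Ring R']
  [Algebra k R']

theorem GI.hom_single {X Y : GI R} (σ : X.I → Y.I) (a : X.I → R) (r : ℤ)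
    (hd : ∀ i, a i ≠ 0 → Y.deg (σ i) + r = X.deg i) (h1 : ∀ i, X.e i * a i = a i)
    (h2 : ∀ i, a i * Y.e (σ i) = a i) : GI.Hom X Y (fun i => single (σ i) (a i)) r := by
  classical
  refine ⟨fun i j h => ?_, fun i j => ?_, fun i j => ?_⟩
  · simp only [Finsupp.single_apply, ne_eq, ite_eq_right_iff, Classical.not_imp] at h
    rw [← h.1]; exact hd i h.2
  · simp only [Finsupp.single_apply]; split_ifs <;> simp [h1]
  · simp only [Finsupp.single_apply]; split_ifs with h
    · subst h; exact h2 i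
    · simp

theorem cx_sgl {V W : Type*} [AddCommGroup V] [Module k V] [AddCommGroup W] [Module k W]
    {I J : Type*} (σ : I → J) (A : I → V →ₗ[k] W) (i : I) (v : V) :
    cx (fun i => single (σ i) (A i)) (single i v) = single (σ i) (A i v) := by
  classical
  exact cx_single' _ _ _ _ _ rfl

theorem cone_single {V : Type*} [AddCommGroup V] [Module k V] (α : R →ₗ[k] (V →ₗ[k] V))
    {I J : Type*} (eP : I → R) (σ : I → I) (a : I → R) (eQ : J → R)
    (τ : J → J) (b : J → R) (ρ : I → J) (c : I → R) (i₀ : I) (v₀ : V) (j₀ : J) (w₀ : V)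
    (hj : ρ i₀ = j₀) (hw : α (c i₀) v₀ = w₀)
    (hP : IsContr (cx fun i => single i (α (eP i))) (cx fun i => single (σ i) (α (a i)))
      (single i₀ v₀))
    (hQ : IsContr (cx fun j => single j (α (eQ j))) (cx fun j => single (τ j) (α (b j)))
      (single j₀ w₀))
    (cd : ∀ i v, single (ρ (σ i)) (α (c (σ i)) (α (a i) v)) =
      single (τ (ρ i)) (α (b (ρ i)) (α (c i) v)))
    (ec : ∀ i v, α (eQ (ρ i)) (α (c i) v) = α (c i) v)
    (ce : ∀ i v, α (c i) (α (eP i) v) = α (c i) v) :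
    Cone α (fun i => single i (eP i)) (fun i => single (σ i) (a i)) (fun j => single j (eQ j))
      (fun j => single (τ j) (b j)) (fun i => single (ρ i) (c i)) (single i₀ v₀) := by
  refine ⟨?_, ?_, fun x => ?_, fun x => ?_, fun x => ?_⟩ <;> simp only [am_single]
  · exact hP
  · rw [cx_sgl, hj, hw]; exact hQ
  · find x with i v
    simp only [cx_sgl, cd]
  · find x with i v
    simp only [cx_sgl, ec]
  · find x with i v
    simp only [cx_sgl, ce]

/-- action through an algebra map -/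
noncomputable def aρ {W : Type u} [Ring W] [Algebra k W] (ρ : R →ₐ[k] W) : R →ₗ[k] (W →ₗ[k] W) :=
  LinearMap.mul k W ∘ₗ ρ.toLinearMap

@[simp] theorem aρ_apply {W : Type u} [Ring W] [Algebra k W] (ρ : R →ₐ[k] W) (r : R) (v : W) :
    aρ ρ r v = ρ r * v := rfl

theorem isContr_min (X : GI R) (χ : R →ₐ[k] k) (Dt : X.I → X.I →₀ R) (i₀ : X.I)
    (h1 : χ (X.e i₀) = 1) (h0 : ∀ i, i ≠ i₀ → χ (X.e i) = 0) (hD : ∀ i j, χ (Dt i j) = 0) :
    IsContr (cx (am (aρ χ) X.Eps)) (cx (am (aρ χ) Dt)) (single i₀ 1) := by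
  classical
  have hd : ∀ x, cx (am (aρ χ) Dt) x = 0 := fun x => by
    find x with i v
    ext j; simp [hD]
  have he : ∀ x, cx (am (aρ χ) X.Eps) x = single i₀ (x i₀) := fun x => by
    ext j
    rw [X.eps_apply, aρ_apply, Finsupp.single_apply]
    split_ifs with h
    · subst h; simp [h1]
    · simp [h0 j (Ne.symm h)]
  refine ⟨fun x => by simp [he], fun x => by simp [hd], fun x => by simp [hd], fun x => by simp [hd],
    hd _, by simp [he], Finsupp.lapply i₀, 0, by simp, fun x => by simp [hd], fun x => by simp [he],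
    fun x => by simp, fun x => ?_⟩
  simp [he, hd, tt k]

/-- minimality: the differentials lie in the kernel of the character, which occurs exactly once
on either side -/
structure GDat.Min (X : GDat k R) (j₀ : X.Q.I) : Prop where
  p1 : X.χ (X.P.e X.i₀) = 1
  p0 : ∀ i, i ≠ X.i₀ → X.χ (X.P.e i) = 0
  q1 : X.χ (X.Q.e j₀) = 1
  q0 : ∀ j, j ≠ j₀ → X.χ (X.Q.e j) = 0
  dp : ∀ i j, X.χ (X.DP i j) = 0
  dq : ∀ i j, X.χ (X.DQ i j) = 0

theorem GDat.tensor_χ (X : GDat k R) (Y : GDat k R') (a : R) (b : R') :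
    (X.tensor Y).χ (a ⊗ₜ b) = X.χ a * Y.χ b := by
  simp [GDat.tensor]

theorem GDat.Min.tensor {X : GDat k R} {Y : GDat k R'} {j₀ : X.Q.I} {j₁ : Y.Q.I} (h : X.Min j₀)
    (h' : Y.Min j₁) : (X.tensor Y).Min (j₀, j₁) := by
  refine ⟨?_, fun (i : X.P.I × Y.P.I) hi => ?_, ?_, fun (i : X.Q.I × Y.Q.I) hi => ?_,
    fun (i j : X.P.I × Y.P.I) => ?_, fun (i j : X.Q.I × Y.Q.I) => ?_⟩
  · exact (X.tensor_χ Y (X.P.e X.i₀) (Y.P.e Y.i₀)).trans (by rw [h.p1, h'.p1, mul_one])
  · refine (X.tensor_χ Y _ _).trans ?_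
    by_cases e : i.1 = X.i₀
    · rw [h'.p0 i.2 (fun e' => hi (Prod.ext e e')), mul_zero]
    · rw [h.p0 i.1 e, zero_mul]
  · exact (X.tensor_χ Y _ _).trans (by rw [h.q1, h'.q1, mul_one])
  · refine (X.tensor_χ Y _ _).trans ?_
    by_cases e : i.1 = j₀
    · rw [h'.q0 i.2 (fun e' => hi (Prod.ext e e')), mul_zero]
    · rw [h.q0 i.1 e, zero_mul]
  · refine (congrArg _ (GDat.mt_add_apply _ _ _ _ i j)).trans ?_
    rw [map_add, X.tensor_χ, X.tensor_χ, h.dp, h'.dp]; simp
  · refine (congrArg _ (GDat.mt_add_apply _ _ _ _ i j)).trans ?_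
    rw [map_add, X.tensor_χ, X.tensor_χ, h.dq, h'.dq]; simp

end Crest.Agent.R186
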