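import Crest.Agent.R186.CAlg
import Crest.Agent.R186.Sing

/-! Row 186: the Gorenstein data of the simple `C`-module at `e`. -/

set_option autoImplicit false
set_option linter.unusedSectionVars false
set_option linter.unusedSimpArgs false
set_option linter.unusedVariables false
set_option linter.unnecessarySeqFocus false

namespace Crest.Agent.R186

open Finsupp (single)

universe u

namespace Cq

variable {k : Type u} [Field k] [CharP k 2] (q : k)

/-- idempotents -/
def en : ℕ → Cq k q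
  | 0 => Ee
  | _ + 1 => F
/-- entries of the resolution -/
def aP : ℕ → Cq k q
  | 0 => 0
  | 1 => pp
  | j + 2 => uu (q⁻¹ ^ j)
/-- entries of the coresolution -/
def aQ : ℕ → Cq k q
  | 0 => ii
  | j + 1 => uu (q ^ (j + 2))
/-- entries of the coresolution, shifted -/
def aQ' : ℕ → Cq k q
  | 0 => 0
  | j + 1 => aQ q j
/-- entries of the comparison map -/
def cc : ℕ → Cq k q
  | 0 => mk 0 0 0 0 0 0 0 (q ^ 2) 0 0
  | 1 => mk 0 0 q 0 0 0 0 0 0 0
  | 2 => mk 0 0 0 0 0 1 0 0 0 0
  | _ + 3 => 0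
/-- entries of the comparison map, transposed -/
def cc' : ℕ → Cq k q
  | 0 => cc q 2
  | 1 => cc q 1
  | 2 => cc q 0
  | _ + 3 => 0

theorem en_en (i : ℕ) : en q i * en q i = en q i := by
  cases i <;> simp only [en] <;> cq_simp

/-- the resolution -/
def GP : GI (Cq k q) where
  I := ℕ
  deg i := i
  e := en q
  ee := en_en q
  fin n := (Set.finite_singleton n.toNat).subset fun i (hi : (i : ℤ) = n) => by
    change i = _; omega

/-- the coresolution -/
def GQ : GI (Cq k q) where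
  I := ℕ
  deg i := 2 - i
  e := en q
  ee := en_en q
  fin n := (Set.finite_singleton (2 - n).toNat).subset fun i (hi : 2 - (i : ℤ) = n) => by
    change i = _; omega

theorem en_aP (i : ℕ) : en q i * aP q i = aP q i := by
  rcases i with _ | _ | i <;> simp only [en, aP] <;> cq_simp
theorem aP_en (i : ℕ) : aP q i * en q (i - 1) = aP q i := by
  rcases i with _ | _ | i <;> simp only [en, aP, Nat.add_sub_cancel, Nat.zero_sub] <;> cq_simp
theorem en_aQ (i : ℕ) : en q i * aQ q i = aQ q i := by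
  rcases i with _ | i <;> simp only [en, aQ] <;> cq_simp
theorem aQ_en (i : ℕ) : aQ q i * en q (i + 1) = aQ q i := by
  rcases i with _ | i <;> simp only [en, aQ] <;> cq_simp
theorem en_cc (i : ℕ) : en q i * cc q i = cc q i := by
  rcases i with _ | _ | _ | i <;> simp only [en, cc] <;> cq_simp
theorem cc_en (i : ℕ) : cc q i * en q (2 - i) = cc q i := by
  rcases i with _ | _ | _ | i <;> simp only [en, cc, zero_add, Nat.reduceAdd, Nat.reduceSub] <;>
    cq_simp
theorem cc'_en (i : ℕ) : cc' q i * en q i = cc' q i := by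
  rcases i with _ | _ | _ | i <;> simp only [en, cc, cc'] <;> cq_simp
theorem en_cc' (i : ℕ) : en q (2 - i) * cc' q i = cc' q i := by
  rcases i with _ | _ | _ | i <;>
    simp only [en, cc, cc', zero_add, Nat.reduceAdd, Nat.reduceSub] <;> cq_simp
theorem aQ'_en (i : ℕ) : aQ' q i * en q i = aQ' q i := by
  rcases i with _ | i
  · simp [aQ']
  · exact aQ_en q i
theorem en_aQ' (i : ℕ) : en q (i - 1) * aQ' q i = aQ' q i := by
  rcases i with _ | i
  · simp [aQ']
  · exact en_aQ q i

variable {q}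

theorem aP_aP (hq0 : q ≠ 0) (i : ℕ) : aP q i * aP q (i - 1) = 0 := by
  have t : (2 : k) = 0 := CharTwo.two_eq_zero
  rcases i with _ | _ | _ | i <;> simp only [aP, Nat.add_sub_cancel, Nat.zero_sub] <;> cq_simp
  · linear_combination t
  · linear_combination q⁻¹ ^ i * t + q⁻¹ ^ i * mul_inv_cancel₀ hq0

theorem aQ_aQ (i : ℕ) : aQ q i * aQ q (i + 1) = 0 := by
  have t : (2 : k) = 0 := CharTwo.two_eq_zero
  rcases i with _ | i <;> simp only [aQ] <;> cq_simp
  · linear_combination q ^ 2 * t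
  · linear_combination q ^ (i + 3) * t

theorem aP_cc (hq0 : q ≠ 0) (i : ℕ) : aP q (i + 1) * cc q i = cc q (i + 1) * aQ q (2 - (i + 1)) := by
  rcases i with _ | _ | _ | i <;>
    simp only [aP, aQ, cc, zero_add, Nat.reduceAdd, Nat.reduceSub] <;> cq_simp <;> ring

theorem cc_aQ : cc q 0 * aQ q 2 = 0 := by simp only [cc, aQ]; cq_simp

section
variable (hq0 : q ≠ 0) (hq : ∀ n : ℕ, 0 < n → q ^ n ≠ 1)
include hq0 hq

theorem ne1 (n : ℕ) : 1 + q ^ (n + 1) ≠ 0 := fun h =>
  hq (n + 1) n.succ_pos (eq_of_add_eq_zero k h).symm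

theorem ne2 (m n : ℕ) : q ^ m + q ^ (m + n + 1) ≠ 0 := by
  have : q ^ m + q ^ (m + n + 1) = q ^ m * (1 + q ^ (n + 1)) := by ring
  rw [this]; exact mul_ne_zero (pow_ne_zero _ hq0) (ne1 hq0 hq n)

theorem ne3 (m n : ℕ) (h : 0 < m + n) : q ^ m + q⁻¹ ^ n ≠ 0 := fun h0 => hq (m + n) h (by
  rw [pow_add, eq_of_add_eq_zero k h0, ← mul_pow, inv_mul_cancel₀ hq0, one_pow])

theorem contrLP : IsContr (cx fun i => single i (aL k (Cq k q) (en q i)))
    (cx fun i => single (i - 1) (aL k (Cq k q) (aP q i))) (single 0 Ee) := by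
  have t : (2 : k) = 0 := CharTwo.two_eq_zero
  refine isContr_single _ _ _ 0 Ee (col 8) (fun i j h => ?_)
    (fun i v => by simp [mul_assoc, en_en]) (fun i v => by simp [mul_assoc, en_aP])
    (fun i v => by simp [mul_assoc, aP_en]) (fun i v => by simp [mul_assoc, aP_aP hq0])
    (by simp [aP]) (en_en q 0) rfl (fun i v h => ?_) (fun i v h1 h2 => Or.inr ?_)
  · rcases i with _ | i
    · exact Or.inr (Or.inl (by simp [aP]))
    · rcases j with _ | j
      · exact Or.inr (Or.inr (by simp [aP]))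
      · left; omega
  · rcases i with _ | _ | i
    · simp [aP]
    · simp [aP, pp, mul_def]
    · omega
  · simp only [aL_apply, col_apply] at h1 h2 ⊢
    rcases i with _ | _ | i
    · refine ⟨1, mk (v.co 4) (v.co 5) 0 0 0 0 (v.co 9 / (1 + q)) 0 0 0, rfl, ?_⟩
      have := ne1 hq0 hq 0
      simp only [en, aP, if_true, zero_add, pow_one] at h1 this ⊢
      cq_simp at h1 ⊢
      obtain ⟨a0, a1, a2, a3, a6, a7⟩ := h1
      refine ⟨a0, a1, a2, a3, a6, a7, by linear_combination -v.co 8 * t, by field_simp⟩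
    · refine ⟨2, mk (v.co 1) 0 (v.co 3 / q) 0 0 0 (v.co 7 / (1 + q ^ 2)) 0 0 0, rfl, ?_⟩
      have := ne1 hq0 hq 1
      simp only [en, aP, zero_add, one_ne_zero, if_false, add_zero, pow_zero] at h1 h2 this ⊢
      cq_simp at h1 h2 ⊢
      obtain ⟨a4, a5, a8, a9⟩ := h1
      obtain ⟨b0, b1, b6⟩ := h2
      have b6' : v.co 6 = 0 := (mul_eq_zero.1 b6).resolve_left (by simpa using ne1 hq0 hq 0)
      refine ⟨b0.symm, by linear_combination b1 - v.co 2 * t, by field_simp, a4, a5, b6'.symm,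
        by field_simp; ring, a8, a9⟩
    · obtain ⟨w, hw⟩ := exL hq0 (q⁻¹ ^ i) (q⁻¹ ^ (i + 1)) (by rw [pow_succ]; field_simp)
        (ne3 hq0 hq 2 _ (by omega)) (ne3 hq0 hq 2 _ (by omega)) v h1 h2
      exact ⟨i + 3, w, rfl, by rw [if_neg (by omega), add_zero]; exact hw⟩

theorem contrLQ : IsContr (cx fun i => single i (aL k (Cq k q) (en q i)))
    (cx fun i => single (i + 1) (aL k (Cq k q) (aQ q i))) (single 2 (cc q 0)) := by
  have t : (2 : k) = 0 := CharTwo.two_eq_zero
  refine isContr_single _ _ _ 2 (cc q 0) ((q ^ 2)⁻¹ • col 7) (fun i j h => Or.inl (by omega))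
    (fun i v => by simp [mul_assoc, en_en]) (fun i v => by simp [mul_assoc, en_aQ])
    (fun i v => by simp [mul_assoc, aQ_en]) (fun i v => by simp [mul_assoc, aQ_aQ])
    cc_aQ (cc_en q 0) (by simp [cc, hq0]) (fun i v h => ?_) (fun i v h1 h2 => ?_)
  · obtain rfl : i = 1 := by omega
    simp only [aQ, uu, mul_def, aL_apply, LinearMap.smul_apply, col_apply, mk7, mk0, mk1, mk2, mk6,
      smul_eq_mul]
    linear_combination (q ^ 2)⁻¹ * q ^ 2 * v.co 6 * t
  · simp only [aL_apply, col_apply, LinearMap.smul_apply, smul_eq_mul] at h1 h2 ⊢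
    rcases i with _ | _ | _ | i
    · left
      simp only [en, aQ] at h1 h2
      rw [if_neg (by omega), add_zero]
      cq_simp at h1 h2 ⊢
      obtain ⟨a0, a1, a2, a3, a6, a7⟩ := h1
      obtain ⟨b4, -, b5, b8, b9⟩ := h2
      exact ⟨a0.symm, a1.symm, a2.symm, a3.symm, b4, (mul_eq_zero.1 b5).resolve_left hq0, a6.symm,
        a7.symm, b8, (mul_eq_zero.1 b9).resolve_left hq0⟩
    · refine Or.inr ⟨0, mk 0 0 0 0 (v.co 1) (v.co 3 / q) 0 0 (v.co 6) (v.co 7 / q), rfl, ?_⟩
      simp only [en, aQ, zero_add] at h1 h2 ⊢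
      rw [if_neg (by omega), add_zero]
      cq_simp at h1 h2 ⊢
      obtain ⟨a4, a5, a8, a9⟩ := h1
      obtain ⟨b0, -, b1, -⟩ := h2
      refine ⟨b0.symm, mul_left_cancel₀ hq0 (by linear_combination b1 - q * v.co 2 * t),
        by field_simp, a4, a5, by field_simp, a8, a9⟩
    · refine Or.inr ⟨1, mk (v.co 1) 0 (v.co 3 / q) 0 0 0 0 0 0 0, rfl, ?_⟩
      simp only [en, aQ, zero_add, cc, Nat.reduceAdd, if_true] at h1 h2 ⊢
      cq_simp at h1 h2 ⊢
      obtain ⟨a4, a5, a8, a9⟩ := h1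
      obtain ⟨b0, -, b1, b6⟩ := h2
      have b6' : v.co 6 = 0 := by
        have : (q ^ 2 + q ^ (2 + 0 + 1)) * v.co 6 = 0 := by linear_combination b6
        exact (mul_eq_zero.1 this).resolve_left (ne2 hq0 hq 2 0)
      refine ⟨b0.symm, mul_left_cancel₀ hq0 (by linear_combination b1 - q * v.co 2 * t),
        by field_simp, a4, a5, b6'.symm, ?_, a8, a9⟩
      field_simp
      linear_combination -v.co 7 * t
    · obtain ⟨w, hw⟩ := exL hq0 (q ^ (i + 2 + 2)) (q ^ (i + 1 + 2)) (by ring)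
        (by convert ne2 hq0 hq 2 (i + 1) using 3; omega)
        (by convert ne2 hq0 hq 2 i using 3; omega) v h1 h2
      exact Or.inr ⟨i + 2, w, rfl, by rw [if_neg (by omega), add_zero]; exact hw⟩

theorem contrRQ : IsContr (cx fun i => single i (aN k (Cq k q) (Cq k q) (en q i)))
    (cx fun i => single (i - 1) (aN k (Cq k q) (Cq k q) (aQ' q i))) (single 0 Ee) := by
  have t : (2 : k) = 0 := CharTwo.two_eq_zero
  refine isContr_single _ _ _ 0 Ee (col 8) (fun i j h => ?_)
    (fun i v => by simp [← mul_assoc, en_en]) (fun i v => by simp [← mul_assoc, aQ'_en])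
    (fun i v => by simp [← mul_assoc, en_aQ']) (fun i v => ?_)
    (by simp [aQ']) (en_en q 0) rfl (fun i v h => ?_) (fun i v h1 h2 => Or.inr ?_)
  · rcases i with _ | i
    · exact Or.inr (Or.inl (by simp [aQ']))
    · rcases j with _ | j
      · exact Or.inr (Or.inr (by simp [aQ']))
      · left; omega
  · rcases i with _ | _ | i <;> simp [aQ', ← mul_assoc, aQ_aQ]
  · rcases i with _ | _ | i
    · simp [aQ']
    · simp [aQ', aQ, ii, mul_def]
    · omega
  · simp only [aN_apply, col_apply, smul_eq_mul] at h1 h2 ⊢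
    rcases i with _ | _ | i
    · refine ⟨1, mk (v.co 6) 0 (v.co 7) 0 (v.co 9 / (1 + q)) 0 0 0 0 0, rfl, ?_⟩
      have := ne1 hq0 hq 0
      simp only [en, aQ', aQ, if_true, zero_add, pow_one] at h1 this ⊢
      cq_simp at h1 ⊢
      obtain ⟨a0, a1, a2, a3, a4, a5⟩ := h1
      refine ⟨a0, a1, a2, a3, a4, a5, by linear_combination -v.co 8 * t, by field_simp⟩
    · refine ⟨2, mk (v.co 1) 0 (v.co 3) 0 (v.co 5 / (1 + q ^ 2)) 0 0 0 0 0, rfl, ?_⟩
      have := ne1 hq0 hq 1
      simp only [en, aQ', aQ, zero_add, one_ne_zero, if_false, add_zero] at h1 h2 this ⊢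
      cq_simp at h1 h2 ⊢
      obtain ⟨a6, a7, a8, a9⟩ := h1
      obtain ⟨b0, b1, b4⟩ := h2
      have b4' : v.co 4 = 0 := (mul_eq_zero.1 b4).resolve_left (by simpa using ne1 hq0 hq 0)
      refine ⟨b0.symm, by linear_combination b1 - v.co 2 * t, b4'.symm, by field_simp, a6, a7, a8,
        a9⟩
    · obtain ⟨w, hw⟩ := exR (q ^ (i + 2)) (ne1 hq0 hq _)
        (by rw [← pow_succ']; exact ne1 hq0 hq _) v h1 h2
      refine ⟨i + 3, w, rfl, ?_⟩
      rw [if_neg (by omega), add_zero]
      rw [← pow_succ'] at hw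
      exact hw

theorem contrRP : IsContr (cx fun i => single i (aN k (Cq k q) (Cq k q) (en q i)))
    (cx fun i => single (i + 1) (aN k (Cq k q) (Cq k q) (aP q (i + 1)))) (single 2 (cc q 2)) := by
  have t : (2 : k) = 0 := CharTwo.two_eq_zero
  refine isContr_single _ _ _ 2 (cc q 2) (col 5) (fun i j h => Or.inl (by omega))
    (fun i v => by simp [← mul_assoc, en_en])
    (fun i v => by simpa [← mul_assoc] using congrArg (· * v) (aP_en q (i + 1)))
    (fun i v => by simp [← mul_assoc, en_aP])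
    (fun i v => by simpa [← mul_assoc] using congrArg (· * v) (aP_aP hq0 (i + 1 + 1)))
    (aP_cc hq0 2 |>.trans (by simp [cc])) (en_cc q 2) rfl (fun i v h => ?_) (fun i v h1 h2 => ?_)
  · obtain rfl : i = 1 := by omega
    simp only [aP, uu, mul_def, aN_apply, smul_eq_mul, col_apply, mk5, mk0, mk1, mk2, mk4, pow_zero]
    linear_combination v.co 4 * t
  · simp only [aN_apply, col_apply, smul_eq_mul] at h1 h2 ⊢
    rcases i with _ | _ | _ | i
    · left
      simp only [en, aP, zero_add] at h1 h2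
      rw [if_neg (by omega), add_zero]
      cq_simp at h1 h2 ⊢
      obtain ⟨a0, a1, a2, a3, a4, a5⟩ := h1
      obtain ⟨b6, -, b7, b8, b9⟩ := h2
      exact ⟨a0.symm, a1.symm, a2.symm, a3.symm, a4.symm, a5.symm, b6, b7, b8, b9⟩
    · refine Or.inr ⟨0, mk 0 0 0 0 0 0 (v.co 1) (v.co 3) (v.co 4) (v.co 5), rfl, ?_⟩
      simp only [en, aP, zero_add, pow_zero] at h1 h2 ⊢
      rw [if_neg (by omega), add_zero]
      cq_simp at h1 h2 ⊢
      obtain ⟨a6, a7, a8, a9⟩ := h1
      obtain ⟨b0, -, b1, -⟩ := h2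
      exact ⟨b0.symm, by linear_combination b1 - v.co 2 * t, a6, a7, a8, a9⟩
    · refine Or.inr ⟨1, mk (v.co 1) 0 (v.co 3) 0 0 0 0 0 0 0, rfl, ?_⟩
      simp only [en, aP, zero_add, cc, Nat.reduceAdd, if_true, pow_zero, pow_one] at h1 h2 ⊢
      cq_simp at h1 h2 ⊢
      obtain ⟨a6, a7, a8, a9⟩ := h1
      obtain ⟨b0, -, b1, b4⟩ := h2
      have b4' : v.co 4 = 0 := by
        have : (q ^ 0 + q⁻¹ ^ 1) * v.co 4 = 0 := by linear_combination b4
        exact (mul_eq_zero.1 this).resolve_left (ne3 hq0 hq 0 1 (by omega))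
      exact ⟨b0.symm, by linear_combination b1 - v.co 2 * t - v.co 1 * mul_inv_cancel₀ hq0,
        b4'.symm, by linear_combination -v.co 5 * t, a6, a7, a8, a9⟩
    · have e : q * q⁻¹ ^ (i + 2) = q⁻¹ ^ (i + 1) := by rw [pow_succ]; field_simp
      obtain ⟨w, hw⟩ := exR (q⁻¹ ^ (i + 2)) (by simpa using ne3 hq0 hq 0 (i + 2) (by omega))
        (by rw [e]; simpa using ne3 hq0 hq 0 (i + 1) (by omega)) v h1 h2
      rw [e] at hw
      exact Or.inr ⟨i + 2, w, rfl, by rw [if_neg (by omega), add_zero]; exact hw⟩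

theorem coneL : Cone (aL k (Cq k q)) (fun i => single i (en q i)) (fun i => single (i - 1) (aP q i))
    (fun i => single i (en q i)) (fun i => single (i + 1) (aQ q i))
    (fun i => single (2 - i) (cc q i)) (single 0 Ee) := by
  refine cone_single _ _ _ _ _ _ _ _ _ 0 Ee 2 (cc q 0) rfl (en_cc q 0) (contrLP hq0 hq)
    (contrLQ hq0 hq) (fun i v => ?_) (fun i v => by simp [mul_assoc, cc_en])
    (fun i v => by simp [mul_assoc, en_cc])
  simp only [aL_apply, mul_assoc]
  rcases i with _ | i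
  · simp [aP, cc_aQ]
  · rw [Nat.add_sub_cancel, aP_cc hq0]
    rcases i with _ | _ | i
    · rfl
    · rfl
    · simp [cc]

theorem coneR : Cone (aN k (Cq k q) (Cq k q)) (fun i => single i (en q i))
    (fun i => single (i - 1) (aQ' q i)) (fun i => single i (en q i))
    (fun i => single (i + 1) (aP q (i + 1))) (fun i => single (2 - i) (cc' q i)) (single 0 Ee) := by
  refine cone_single _ _ _ _ _ _ _ _ _ 0 Ee 2 (cc q 2) rfl (cc'_en q 0) (contrRQ hq0 hq)
    (contrRP hq0 hq) (fun i v => ?_) (fun i v => by simp [← mul_assoc, en_cc'])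
    (fun i v => by simp [← mul_assoc, cc'_en])
  simp only [aN_apply, smul_eq_mul, ← mul_assoc]
  rcases i with _ | _ | _ | _ | i
  · have : aP q (2 - 0 + 1) * cc' q 0 = 0 := (aP_cc hq0 2).trans (zero_mul _)
    rw [this]
    simp [aQ']
  · exact congrArg (fun a => single 2 (a * v)) (aP_cc hq0 1).symm
  · exact congrArg (fun a => single 1 (a * v)) (aP_cc hq0 0).symm
  · have : cc q 0 * aQ q 2 = 0 := cc_aQ
    simp [aQ', cc', this]
  · simp [cc']

/-- the Gorenstein data of the simple module at `e` -/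
noncomputable def gd : GDat k (Cq k q) where
  P := GP q
  Q := GQ q
  DP := fun (i : ℕ) => single (i - 1) (aP q i)
  DPt := fun (i : ℕ) => single (i + 1) (aP q (i + 1))
  DQ := fun (i : ℕ) => single (i + 1) (aQ q i)
  DQt := fun (i : ℕ) => single (i - 1) (aQ' q i)
  C := fun (i : ℕ) => single (2 - i) (cc q i)
  Ct := fun (i : ℕ) => single (2 - i) (cc' q i)
  hDP := GI.hom_single (X := GP q) (Y := GP q) (fun i : ℕ => i - 1) (aP q) 1
    (fun (i : ℕ) h => by
      rcases i with _ | i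
      · exact absurd rfl h
      · change ((i + 1 - 1 : ℕ) : ℤ) + 1 = (i + 1 : ℕ); omega) (en_aP q) (aP_en q)
  hDQ := GI.hom_single (X := GQ q) (Y := GQ q) (fun i : ℕ => (i + 1 : ℕ)) (aQ q) 1
    (fun (i : ℕ) h => by change 2 - ((i + 1 : ℕ) : ℤ) + 1 = 2 - (i : ℤ); omega) (en_aQ q) (aQ_en q)
  hC := GI.hom_single (X := GP q) (Y := GQ q) (fun i : ℕ => 2 - i) (cc q) 0
    (fun (i : ℕ) h => by
      change 2 - ((2 - i : ℕ) : ℤ) + 0 = (i : ℤ)
      rcases i with _ | _ | _ | i
      · rfl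
      · rfl
      · rfl
      · exact absurd rfl h) (en_cc q) (cc_en q)
  tP := fun (i j : ℕ) => by
    change single (j + 1) (aP q (j + 1)) i = single (i - 1) (aP q i) j
    rcases i with _ | i
    · simp [aP]
    · simp only [Finsupp.single_apply, Nat.add_sub_cancel, Nat.add_right_cancel_iff]
      split_ifs with h1 h2 h2
      · rw [h1]
      · omega
      · omega
      · rfl
  tQ := fun (i j : ℕ) => by
    change single (j - 1) (aQ' q j) i = single (i + 1) (aQ q i) j
    rcases j with _ | j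
    · simp [aQ']
    · simp only [Finsupp.single_apply, Nat.add_sub_cancel, Nat.add_right_cancel_iff, aQ']
      split_ifs with h1 h2 h2
      · rw [h1]
      · omega
      · omega
      · rfl
  tC := fun (i j : ℕ) => by
    change single (2 - j) (cc' q j) i = single (2 - i) (cc q i) j
    rcases i with _ | _ | _ | i <;> rcases j with _ | _ | _ | j <;>
      simp [cc', Finsupp.single_apply] <;> simp [cc]
  b := 2
  lo := fun (i : ℕ) => Int.natCast_nonneg i
  hi := fun (i : ℕ) => by change 2 - (i : ℤ) ≤ 2; omega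
  i₀ := (0 : ℕ)
  deg₀ := rfl
  r₀ := Ee
  χ := χe
  χr := rfl
  χD := fun (i : ℕ) => by
    change χe (single (i - 1) (aP q i) 0) = 0
    rw [Finsupp.single_apply]
    rcases i with _ | _ | i <;> split_ifs <;> simp [aP, pp, uu]
  coneL := coneL hq0 hq
  ηR := single (0 : ℕ) Ee
  coneR := coneR hq0 hq

theorem gd_min : (gd hq0 hq).Min (0 : ℕ) := by
  refine ⟨rfl, fun (i : ℕ) hi => ?_, rfl, fun (i : ℕ) hi => ?_, fun (i j : ℕ) => ?_,
    fun (i j : ℕ) => ?_⟩
  · rcases i with _ | i
    · exact absurd rfl hi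
    · rfl
  · rcases i with _ | i
    · exact absurd rfl hi
    · rfl
  · change χe (single (i - 1) (aP q i) j) = 0
    rw [Finsupp.single_apply]
    rcases i with _ | _ | i <;> split_ifs <;> simp [aP, pp, uu]
  · change χe (single (i + 1) (aQ q i) j) = 0
    rw [Finsupp.single_apply]
    rcases i with _ | i <;> split_ifs <;> simp [aQ, ii, uu]

theorem gd_deg : (gd hq0 hq).Q.deg (0 : ℕ) = 2 := rfl

end

end Cq

end Crest.Agent.R186
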