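import Crest.Agent.R186.MC

/-! Row 186: Gorenstein data (resolution, coresolution, comparison map), their tensor products and
the associated complete resolution. -/

set_option autoImplicit false
set_option linter.unusedSectionVars false
set_option linter.unusedSimpArgs false

namespace Crest.Agent.R186

open scoped TensorProduct

universe u

variable {k : Type u} [Field k] [CharP k 2] {R R' : Type u} [Ring R] [Algebra k R] [Ring R']
  [Algebra k R']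

/-- a module through an algebra map -/
def Via {W : Type u} [Ring W] [Algebra k W] (_ρ : R →ₐ[k] W) : Type u := W

section Via
variable {W : Type u} [Ring W] [Algebra k W] (ρ : R →ₐ[k] W)
instance : AddCommGroup (Via ρ) := inferInstanceAs (AddCommGroup W)
instance : Module k (Via ρ) := inferInstanceAs (Module k W)
instance : Module R (Via ρ) := Module.compHom W ρ.toRingHom
/-- identity -/
def Via.val : Via ρ ≃ₗ[k] W := LinearEquiv.refl k W
theorem Via.val_smul (r : R) (v : Via ρ) : Via.val ρ (r • v) = ρ r * Via.val ρ v := rfl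
instance : IsScalarTower k R (Via ρ) := ⟨fun c r v => (Via.val ρ).injective (by
  rw [Via.val_smul, map_smul, map_smul, Via.val_smul, smul_mul_assoc])⟩
instance [FiniteDimensional k W] : FiniteDimensional k (Via ρ) :=
  inferInstanceAs (FiniteDimensional k W)
end Via

namespace GI

variable {X : GI R} {D Dt : X.I → X.I →₀ R}

theorem hom_van (hD : Hom X X D 1) (hT : ∀ i j, Dt j i = D i j) {N : Type*} [AddCommGroup N]
    [Module k N] [Module R N] [IsScalarTower k R N] {η : X.I →₀ N}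
    (h : IsContr (cx (am (aN k R N) X.Eps)) (cx (am (aN k R N) Dt)) η) (n : ℤ)
    (f : X.M (n + 1) →ₗ[R] N) (hf : f ∘ₗ hD.res k (n + 1 + 1) (n + 1) = 0) :
    ∃ (c : k) (g : X.M n →ₗ[R] N), f = c • ofH (n + 1) η + g ∘ₗ hD.res k (n + 1) n := by
  obtain ⟨c, w, e⟩ := h.hom (toH k f) (eps_toH f) (by
    rw [cx_toH hD Dt hT _ _ rfl, hf, toH_zero])
  refine ⟨c, ofH n w, ?_⟩
  rw [ofH_res hD Dt hT _ _ rfl, ← ofH_smul, ← ofH_add, add_comm (c • η), ← e, ofH_toH]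

theorem hom_exact (hD : Hom X X D 1) {η : X.I →₀ R}
    (h : IsContr (cx (am (aL k R) X.Eps)) (cx (am (aL k R) D)) η) (n : ℤ) (x : X.M n)
    (hx : cxL k D x.1 = 0) :
    ∃ (c : k) (y : X.M (n + 1)), x = hD.res k (n + 1) n y + c • X.π k n η := by
  obtain ⟨c, y, e⟩ := h.hom x.1 (X.eps_coe n x) hx
  refine ⟨c, X.π k (n + 1) y, ?_⟩
  rw [hD.res_π _ _ rfl, ← LinearMap.map_smul_of_tower, ← map_add, cxL_apply, ← e, π_coe]

end GI

variable (k R) in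
/-- Gorenstein data -/
structure GDat where
  P : GI R
  Q : GI R
  DP : P.I → P.I →₀ R
  DPt : P.I → P.I →₀ R
  DQ : Q.I → Q.I →₀ R
  DQt : Q.I → Q.I →₀ R
  C : P.I → Q.I →₀ R
  Ct : Q.I → P.I →₀ R
  hDP : GI.Hom P P DP 1
  hDQ : GI.Hom Q Q DQ 1
  hC : GI.Hom P Q C 0
  tP : ∀ i j, DPt j i = DP i j
  tQ : ∀ i j, DQt j i = DQ i j
  tC : ∀ i j, Ct j i = C i j
  b : ℤ
  lo : ∀ i, 0 ≤ P.deg i
  hi : ∀ i, Q.deg i ≤ b
  i₀ : P.I
  deg₀ : P.deg i₀ = 0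
  r₀ : R
  χ : R →ₐ[k] k
  χr : χ r₀ = 1
  χD : ∀ i, χ (DP i i₀) = 0
  coneL : Cone (aL k R) P.Eps DP Q.Eps DQ C (Finsupp.single i₀ r₀)
  ηR : Q.I →₀ R
  coneR : Cone (aN k R R) Q.Eps DQt P.Eps DPt Ct ηR

namespace GDat

theorem eps_symm (X : GI R) (i j : X.I) : X.Eps j i = X.Eps i j := by
  classical
  simp only [GI.Eps, Finsupp.single_apply]
  by_cases h : i = j
  · subst h; rfl
  · rw [if_neg h, if_neg (Ne.symm h)]

theorem mt_add_apply {I I' J J' : Type*} (A A' : I → J →₀ R) (B B' : I' → J' →₀ R') (p : I × I')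
    (q : J × J') : (mt k A B + mt k A' B') p q =
      A p.1 q.1 ⊗ₜ[k] B p.2 q.2 + A' p.1 q.1 ⊗ₜ[k] B' p.2 q.2 := by simp

/-- tensor product -/
noncomputable def tensor (X : GDat k R) (Y : GDat k R') : GDat k (R ⊗[k] R') where
  P := GI.tensor k X.P Y.P (GI.fin_tensor_lo _ _ X.lo Y.lo)
  Q := GI.tensor k X.Q Y.Q (GI.fin_tensor_hi _ _ _ _ X.hi Y.hi)
  DP := mt k X.DP Y.P.Eps + mt k X.P.Eps Y.DP
  DPt := mt k X.DPt Y.P.Eps + mt k X.P.Eps Y.DPt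
  DQ := mt k X.DQ Y.Q.Eps + mt k X.Q.Eps Y.DQ
  DQt := mt k X.DQt Y.Q.Eps + mt k X.Q.Eps Y.DQt
  C := mt k X.C Y.C
  Ct := mt k X.Ct Y.Ct
  hDP := (X.hDP.mt (GI.hom_Eps _) _ _).add ((GI.hom_Eps _).mt Y.hDP _ _)
  hDQ := (X.hDQ.mt (GI.hom_Eps _) _ _).add ((GI.hom_Eps _).mt Y.hDQ _ _)
  hC := X.hC.mt Y.hC _ _
  tP := fun (i j : X.P.I × Y.P.I) => (mt_add_apply _ _ _ _ j i).trans (Eq.trans (by
    rw [X.tP, Y.tP, eps_symm X.P i.1, eps_symm Y.P i.2]) (mt_add_apply _ _ _ _ i j).symm)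
  tQ := fun (i j : X.Q.I × Y.Q.I) => (mt_add_apply _ _ _ _ j i).trans (Eq.trans (by
    rw [X.tQ, Y.tQ, eps_symm X.Q i.1, eps_symm Y.Q i.2]) (mt_add_apply _ _ _ _ i j).symm)
  tC := fun (i : X.P.I × Y.P.I) (j : X.Q.I × Y.Q.I) => (mt_apply _ _ j i).trans (Eq.trans (by
    rw [X.tC, Y.tC]) (mt_apply _ _ i j).symm)
  b := X.b + Y.b
  lo := fun i => add_nonneg (X.lo i.1) (Y.lo i.2)
  hi := fun i => add_le_add (X.hi i.1) (Y.hi i.2)
  i₀ := (X.i₀, Y.i₀)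
  deg₀ := by change X.P.deg _ + Y.P.deg _ = 0; rw [X.deg₀, Y.deg₀, add_zero]
  r₀ := X.r₀ ⊗ₜ Y.r₀
  χ := Algebra.TensorProduct.lift X.χ Y.χ fun _ _ => Commute.all _ _
  χr := by simp [X.χr, Y.χr]
  χD := fun (i : X.P.I × Y.P.I) => (congrArg _ (mt_add_apply _ _ _ _ i (X.i₀, Y.i₀))).trans
    (by simp [X.χD, Y.χD])
  coneL := by
    rw [GI.tensor_Eps, GI.tensor_Eps]
    have := Cone.tensor aL_tmul X.coneL Y.coneL
    rwa [finsuppTensorFinsupp_single] at this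
  ηR := finsuppTensorFinsupp k k R R' _ _ (X.ηR ⊗ₜ Y.ηR)
  coneR := by
    rw [GI.tensor_Eps, GI.tensor_Eps]
    exact Cone.tensor aN_tmul X.coneR Y.coneR

variable (X : GDat k R)

/-- differential of the resolution -/
noncomputable def dP (n : ℤ) : X.P.M (n + 1) →ₗ[R] X.P.M n := X.hDP.res k (n + 1) n
/-- differential of the coresolution -/
noncomputable def dQ (n : ℤ) : X.Q.M (n + 1) →ₗ[R] X.Q.M n := X.hDQ.res k (n + 1) n
/-- comparison map -/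
noncomputable def c (n : ℤ) : X.P.M n →ₗ[R] X.Q.M n := X.hC.res k n n

theorem dP_coe (n : ℤ) (x : X.P.M (n + 1)) : (X.dP n x).1 = cxL k X.DP x.1 :=
  X.hDP.res_coe _ _ rfl x
theorem dQ_coe (n : ℤ) (x : X.Q.M (n + 1)) : (X.dQ n x).1 = cxL k X.DQ x.1 :=
  X.hDQ.res_coe _ _ rfl x
theorem c_coe (n : ℤ) (x : X.P.M n) : (X.c n x).1 = cxL k X.C x.1 :=
  X.hC.res_coe _ _ (add_zero _) x

theorem dP_dP (n : ℤ) (x : X.P.M (n + 1 + 1)) : X.dP n (X.dP (n + 1) x) = 0 :=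
  Subtype.ext (by rw [dP_coe, dP_coe]; exact X.coneL.cP.dd _)
theorem dQ_dQ (n : ℤ) (x : X.Q.M (n + 1 + 1)) : X.dQ n (X.dQ (n + 1) x) = 0 :=
  Subtype.ext (by rw [dQ_coe, dQ_coe]; exact X.coneL.cQ.dd _)
theorem c_dP (n : ℤ) (x : X.P.M (n + 1)) : X.c n (X.dP n x) = X.dQ n (X.c (n + 1) x) :=
  Subtype.ext (by rw [dQ_coe, c_coe, c_coe, dP_coe]; exact X.coneL.cd _)

/-- differential of the cone -/
noncomputable def d (n : ℤ) : X.P.M (n + 1) × X.Q.M (n + 1 + 1) →ₗ[R] X.P.M n × X.Q.M (n + 1) :=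
  LinearMap.prod (X.dP n ∘ₗ LinearMap.fst _ _ _) (LinearMap.coprod (X.c (n + 1)) (X.dQ (n + 1)))

theorem d_apply (n : ℤ) (x : X.P.M (n + 1) × X.Q.M (n + 1 + 1)) :
    X.d n x = (X.dP n x.1, X.c (n + 1) x.1 + X.dQ (n + 1) x.2) := rfl

theorem exact_d (n : ℤ) : Function.Exact (X.d (n + 1)) (X.d n) := by
  rintro ⟨p, q⟩
  constructor
  · intro h
    have h1 : X.dP n p = 0 := congrArg Prod.fst h
    have h2 : X.c (n + 1) p + X.dQ (n + 1) q = 0 := congrArg Prod.snd h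
    obtain ⟨p', q', e1, e2⟩ := cone_exact _ X.coneL.cP X.coneL.cQ X.coneL.cd X.coneL.ec p.1 q.1
      (X.P.eps_coe _ p) (X.Q.eps_coe _ q) (by rw [← cxL_apply, ← dP_coe, h1]; rfl)
      (by rw [← cxL_apply, ← cxL_apply, ← dQ_coe, ← c_coe, ← Submodule.coe_add, h2]; rfl)
    refine ⟨(X.P.π k _ p', X.Q.π k _ q'), Prod.ext ?_ ?_⟩
    · change X.dP _ (X.P.π k _ p') = p
      rw [dP, X.hDP.res_π _ _ rfl, cxL_apply, e1, GI.π_coe]
    · change X.c _ (X.P.π k _ p') + X.dQ _ (X.Q.π k _ q') = q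
      rw [dQ, c, X.hDQ.res_π _ _ rfl, X.hC.res_π _ _ (add_zero _), ← map_add, cxL_apply, cxL_apply,
        e2, GI.π_coe]
  · rintro ⟨⟨p', q'⟩, h⟩
    rw [← h, d_apply, d_apply]
    refine Prod.ext (X.dP_dP _ _) ?_
    simp only [map_add, c_dP, dQ_dQ, add_zero, Prod.snd_zero]
    exact tt k (X := X.Q.M (n + 1)) _

theorem comp_d {N : Type*} [AddCommGroup N] [Module R N] (n : ℤ) (α : X.P.M n →ₗ[R] N)
    (β : X.Q.M (n + 1) →ₗ[R] N) : LinearMap.coprod α β ∘ₗ X.d n =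
      LinearMap.coprod (α ∘ₗ X.dP n + β ∘ₗ X.c (n + 1)) (β ∘ₗ X.dQ (n + 1)) := by
  apply LinearMap.ext
  rintro ⟨p, q⟩
  simp [d_apply, add_assoc]

theorem coprod_eq_zero {M₁ M₂ N : Type*} [AddCommMonoid M₁] [Module R M₁] [AddCommMonoid M₂]
    [Module R M₂] [AddCommMonoid N] [Module R N] {α : M₁ →ₗ[R] N} {β : M₂ →ₗ[R] N}
    (h : LinearMap.coprod α β = 0) : α = 0 ∧ β = 0 :=
  ⟨by rw [← LinearMap.coprod_inl α β, h, LinearMap.zero_comp],
    by rw [← LinearMap.coprod_inr α β, h, LinearMap.zero_comp]⟩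

theorem ta_d (n : ℤ) (f : X.P.M (n + 1) × X.Q.M (n + 1 + 1) →ₗ[R] R) (hf : f ∘ₗ X.d (n + 1) = 0) :
    ∃ g : X.P.M n × X.Q.M (n + 1) →ₗ[R] R, g ∘ₗ X.d n = f := by
  obtain ⟨⟨α, β⟩, rfl⟩ := (LinearMap.coprodEquiv ℕ).surjective f
  change LinearMap.coprod α β ∘ₗ _ = 0 at hf
  change ∃ g, _ = LinearMap.coprod α β
  rw [comp_d] at hf
  obtain ⟨h1, h2⟩ := coprod_eq_zero hf
  obtain ⟨q', p', e1, e2⟩ := cone_exact _ X.coneR.cP X.coneR.cQ X.coneR.cd X.coneR.ec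
    (GI.toH k β) (GI.toH k α) (GI.eps_toH _) (GI.eps_toH _)
    (by rw [GI.cx_toH X.hDQ _ X.tQ _ _ rfl, ← dQ, h2, GI.toH_zero])
    (by rw [GI.cx_toH X.hDP _ X.tP _ _ rfl, GI.cx_toH X.hC _ X.tC _ _ (add_zero _), ← GI.toH_add,
      add_comm (β ∘ₗ _), ← dP, ← c, h1, GI.toH_zero])
  refine ⟨LinearMap.coprod (GI.ofH _ p') (GI.ofH _ q'), ?_⟩
  rw [comp_d, dP, dQ, c, GI.ofH_res X.hDP _ X.tP _ _ rfl, GI.ofH_res X.hDQ _ X.tQ _ _ rfl,
    GI.ofH_res X.hC _ X.tC _ _ (add_zero _), ← GI.ofH_add, add_comm (cx _ p'), e1, e2, GI.ofH_toH,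
    GI.ofH_toH]

/-- the complete resolution -/
noncomputable def T : CR k R where
  P n := X.P.M n × X.Q.M (n + 1)
  fin _ := inferInstance
  proj _ := inferInstance
  d := X.d
  exact := X.exact_d
  ta := X.ta_d

theorem van {N : Type*} [AddCommGroup N] [Module k N] [Module R N] [IsScalarTower k R N]
    {η₁ : X.P.I →₀ N} {η₂ : X.Q.I →₀ N}
    (h₁ : IsContr (cx (am (aN k R N) X.P.Eps)) (cx (am (aN k R N) X.DPt)) η₁)
    (h₂ : IsContr (cx (am (aN k R N) X.Q.Eps)) (cx (am (aN k R N) X.DQt)) η₂) (n : ℤ)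
    (hη : ∀ j, X.Q.deg j = n + 1 + 1 → η₂ j = 0)
    (f : X.P.M (n + 1) × X.Q.M (n + 1 + 1) →ₗ[R] N) (hf : f ∘ₗ X.d (n + 1) = 0) :
    ∃ (c : k) (g : X.P.M n × X.Q.M (n + 1) →ₗ[R] N),
      f = c • (GI.ofH (n + 1) η₁ ∘ₗ LinearMap.fst _ _ _) + g ∘ₗ X.d n := by
  obtain ⟨⟨α, β⟩, rfl⟩ := (LinearMap.coprodEquiv ℕ).surjective f
  change LinearMap.coprod α β ∘ₗ X.d _ = 0 at hf
  rw [comp_d] at hf
  obtain ⟨h1, h2⟩ := coprod_eq_zero hf
  obtain ⟨c₂, β', e₂⟩ := GI.hom_van X.hDQ X.tQ h₂ _ β h2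
  rw [GI.ofH_eq_zero _ _ hη, smul_zero, zero_add, ← dQ] at e₂
  obtain ⟨c₁, α', e₁⟩ := GI.hom_van X.hDP X.tP h₁ _ (α + β' ∘ₗ X.c (n + 1)) (by
    rw [← h1, e₂, ← dP]
    ext x; simp [c_dP])
  refine ⟨c₁, LinearMap.coprod α' β', ?_⟩
  change LinearMap.coprod α β = _ + LinearMap.coprod α' β' ∘ₗ X.d _
  rw [comp_d, ← e₂]
  apply LinearMap.ext
  rintro ⟨p, q⟩
  rw [← dP] at e₁
  have := LinearMap.congr_fun e₁ p
  simp only [LinearMap.add_apply, LinearMap.comp_apply, LinearMap.smul_apply] at this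
  simp only [LinearMap.coprod_apply, LinearMap.add_apply, LinearMap.comp_apply,
    LinearMap.smul_apply, LinearMap.fst_apply]
  lc2 k this

/-- the augmentation -/
noncomputable def aug : X.P.M 0 →ₗ[R] Via X.χ where
  toFun x := (Via.val X.χ).symm (X.χ (x.1 X.i₀))
  map_add' x y := by simp
  map_smul' r x := (Via.val X.χ).injective (by simp [Via.val_smul])

theorem aug_apply (x : X.P.M 0) : Via.val X.χ (X.aug x) = X.χ (x.1 X.i₀) := rfl

theorem η_mem : Finsupp.single X.i₀ X.r₀ ∈ X.P.M 0 := by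
  classical
  refine ⟨fun i => ?_, fun i hi => ?_⟩
  · have := DFunLike.congr_fun X.coneL.cP.eη i
    rwa [GI.eps_apply] at this
  · rw [Finsupp.single_apply, if_neg]; rintro rfl; exact hi X.deg₀

theorem aug_surj : Function.Surjective X.aug := fun v =>
  ⟨Via.val X.χ v • ⟨_, X.η_mem⟩, (Via.val X.χ).injective (by simp [aug_apply, X.χr])⟩

theorem aug_dP (x : X.P.M (0 + 1)) : X.aug (X.dP 0 x) = 0 := by
  apply (Via.val X.χ).injective
  rw [aug_apply, dP_coe, map_zero]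
  generalize x.1 = y
  find y with i v
  simp [cxL_apply, X.χD]

theorem exact_aug : Function.Exact (X.dP 0) X.aug := by
  intro x
  constructor
  · intro h
    obtain ⟨c, y, e⟩ := GI.hom_exact X.hDP X.coneL.cP 0 x (by
      ext j
      refine cx_apply_eq_zero _ _ _ fun i hi => ?_
      by_contra h0
      have h1 := X.hDP.deg i j (fun h1 => h0 (by simp [h1]))
      have h2 := X.lo j
      exact hi (x.2.2 i (by omega)))
    have : c = 0 := by
      have h1 := congrArg (Via.val X.χ) h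
      rw [e, map_add, ← dP, aug_dP, zero_add, X.P.π_coe 0 ⟨_, X.η_mem⟩] at h1
      simpa [aug_apply, X.χr] using h1
    exact ⟨y, by rw [e, this, zero_smul, add_zero]; rfl⟩
  · rintro ⟨y, rfl⟩; exact X.aug_dP y

theorem exact_dP (n : ℤ) (hn : 0 ≤ n) : Function.Exact (X.dP (n + 1)) (X.dP n) := by
  classical
  intro x
  constructor
  · intro h
    obtain ⟨c, y, e⟩ := GI.hom_exact X.hDP X.coneL.cP (n + 1) x (by rw [← dP_coe, h]; rfl)
    rw [X.P.π_eq_zero, smul_zero, add_zero] at e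
    · exact ⟨y, e.symm⟩
    · intro i hi
      rw [Finsupp.single_apply, if_neg]; rintro rfl
      have := X.deg₀; omega
  · rintro ⟨y, rfl⟩; exact X.dP_dP _ y

theorem Q_eq_zero (n : ℤ) (hn : X.b < n) (q : X.Q.M n) : q = 0 := by
  ext j
  exact q.2.2 j (by have := X.hi j; omega)

end GDat

end Crest.Agent.R186
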