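import Crest.Agent.R186.Core2

/-! Row 186: the functor `G` and the triangular algebra. -/

set_option autoImplicit false
set_option linter.unusedSectionVars false
set_option linter.unusedSimpArgs false

namespace Crest.Agent.R186

open LinearMap (trace)

universe u

namespace Pkg

variable {k : Type u} [Field k] [CharP k 2] {E : Type u} [Ring E] [Algebra k E]
  [FiniteDimensional k E] (D : Pkg k E)

section G

variable (N : Type u) [AddCommGroup N] [Module k N] [Module E N] [IsScalarTower k E N]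

/-- pairs satisfying the trace condition -/
def Sub : Submodule k ((E →ₗ[k] N) × (E →ₗ[k] N)) where
  carrier := {p | TC D.S (p.1 + p.2)}
  add_mem' := fun {a b} ha hb => (TC.add ha hb).congr fun x => by
    simp only [Prod.fst_add, Prod.snd_add, LinearMap.add_apply]; abel
  zero_mem' := fun γ _ => by simp
  smul_mem' := fun c a ha γ hγ => by
    have := ha γ hγ
    rw [Prod.smul_fst, Prod.smul_snd, ← smul_add, LinearMap.smul_comp, map_smul, this, smul_zero]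

/-- (linear, semilinear) pairs -/
def Im : Submodule k (D.Sub N) where
  carrier := {p | IsE E p.1.1 ∧ IsH D.h p.1.2}
  add_mem' := fun ha hb => ⟨ha.1.add hb.1, ha.2.add hb.2⟩
  zero_mem' := ⟨IsE.zero, IsH.zero⟩
  smul_mem' := fun c a ha => ⟨ha.1.smul c, fun b x => by
    have := ha.2 b x
    simp only [SetLike.val_smul, Prod.smul_snd, LinearMap.smul_apply, this, smul_comm c (D.h b)]⟩

/-- the functor `G` on objects -/
def G : Type u := D.Sub N ⧸ D.Im N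

noncomputable instance : AddCommGroup (D.G N) := inferInstanceAs (AddCommGroup (D.Sub N ⧸ D.Im N))
noncomputable instance : Module k (D.G N) := inferInstanceAs (Module k (D.Sub N ⧸ D.Im N))
instance [FiniteDimensional k N] : FiniteDimensional k (D.G N) :=
  inferInstanceAs (FiniteDimensional k (D.Sub N ⧸ D.Im N))

variable {N}

/-- class of a pair -/
noncomputable def cls (φ₁ φ₂ : E →ₗ[k] N) (h : TC D.S (φ₁ + φ₂)) : D.G N :=
  (D.Im N).mkQ ⟨(φ₁, φ₂), h⟩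

theorem cls_surj (ξ : D.G N) : ∃ φ₁ φ₂ h, D.cls φ₁ φ₂ h = ξ := by
  obtain ⟨⟨⟨φ₁, φ₂⟩, h⟩, rfl⟩ := (D.Im N).mkQ_surjective ξ
  exact ⟨φ₁, φ₂, h, rfl⟩

theorem cls_add (φ₁ φ₂ : E →ₗ[k] N) (h : TC D.S (φ₁ + φ₂)) (ψ₁ ψ₂ : E →ₗ[k] N)
    (h' : TC D.S (ψ₁ + ψ₂)) : D.cls φ₁ φ₂ h + D.cls ψ₁ ψ₂ h' = D.cls (φ₁ + ψ₁) (φ₂ + ψ₂)
      ((D.Sub N).add_mem (x := (φ₁, φ₂)) (y := (ψ₁, ψ₂)) h h') :=
  (map_add (D.Im N).mkQ _ _).symm

theorem cls_smul (c : k) (φ₁ φ₂ : E →ₗ[k] N) (h : TC D.S (φ₁ + φ₂)) :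
    c • D.cls φ₁ φ₂ h = D.cls (c • φ₁) (c • φ₂) ((D.Sub N).smul_mem c (x := (φ₁, φ₂)) h) :=
  (map_smul (D.Im N).mkQ _ _).symm

theorem cls_eq_zero (φ₁ φ₂ : E →ₗ[k] N) (h : TC D.S (φ₁ + φ₂)) :
    D.cls φ₁ φ₂ h = 0 ↔ IsE E φ₁ ∧ IsH D.h φ₂ :=
  Submodule.Quotient.mk_eq_zero (D.Im N)

theorem cls_congr {φ₁ φ₂ ψ₁ ψ₂ : E →ₗ[k] N} {h : TC D.S (φ₁ + φ₂)} {h' : TC D.S (ψ₁ + ψ₂)}
    (e₁ : ∀ a, φ₁ a = ψ₁ a) (e₂ : ∀ a, φ₂ a = ψ₂ a) : D.cls φ₁ φ₂ h = D.cls ψ₁ ψ₂ h' := by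
  obtain rfl : φ₁ = ψ₁ := LinearMap.ext e₁
  obtain rfl : φ₂ = ψ₂ := LinearMap.ext e₂
  rfl

/-- precomposition with right multiplication -/
noncomputable def pre (b : E) : D.G N →ₗ[k] D.G N :=
  (D.Im N).mapQ (D.Im N)
    (((LinearMap.lcomp k N (rr b)).prodMap (LinearMap.lcomp k N (rr b))).restrict
      (p := D.Sub N) (q := D.Sub N) fun _ hp => TC.comp_S hp (isE_rr b).toS)
    fun _ hp => ⟨hp.1.comp (isE_rr b), hp.2.comp_E (isE_rr b)⟩

theorem pre_cls (b : E) (φ₁ φ₂ : E →ₗ[k] N) (h : TC D.S (φ₁ + φ₂)) :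
    D.pre b (D.cls φ₁ φ₂ h) = D.cls (φ₁ ∘ₗ rr b) (φ₂ ∘ₗ rr b) (TC.comp_S h (isE_rr b).toS) := rfl

noncomputable instance : Module E (D.G N) where
  smul b ξ := D.pre b ξ
  one_smul ξ := by
    obtain ⟨φ₁, φ₂, h, rfl⟩ := D.cls_surj ξ
    exact D.cls_congr (fun a => by simp) (fun a => by simp)
  mul_smul a b ξ := by
    obtain ⟨φ₁, φ₂, h, rfl⟩ := D.cls_surj ξ
    exact D.cls_congr (fun c => by simp [mul_assoc]) (fun c => by simp [mul_assoc])
  smul_zero b := map_zero (D.pre b)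
  smul_add b := map_add (D.pre b)
  add_smul a b ξ := by
    obtain ⟨φ₁, φ₂, h, rfl⟩ := D.cls_surj ξ
    change D.pre _ _ = D.pre _ _ + D.pre _ _
    rw [pre_cls, pre_cls, pre_cls, cls_add]
    exact D.cls_congr (fun c => by simp [mul_add]) (fun c => by simp [mul_add])
  zero_smul ξ := by
    obtain ⟨φ₁, φ₂, h, rfl⟩ := D.cls_surj ξ
    change D.pre _ _ = 0
    rw [pre_cls, cls_eq_zero]
    exact ⟨IsE.zero.congr fun a => by simp, IsH.zero.congr fun a => by simp⟩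

theorem smul_cls (b : E) (φ₁ φ₂ : E →ₗ[k] N) (h : TC D.S (φ₁ + φ₂)) :
    b • D.cls φ₁ φ₂ h = D.cls (φ₁ ∘ₗ rr b) (φ₂ ∘ₗ rr b) (TC.comp_S h (isE_rr b).toS) := rfl

instance : IsScalarTower k E (D.G N) := ⟨fun c b ξ => by
  obtain ⟨φ₁, φ₂, h, rfl⟩ := D.cls_surj ξ
  rw [smul_cls, smul_cls, cls_smul]
  exact D.cls_congr (fun a => by simp) (fun a => by simp)⟩

variable [FiniteDimensional k N]
variable {N' N'' : Type u} [AddCommGroup N'] [Module k N'] [Module E N'] [IsScalarTower k E N']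
  [FiniteDimensional k N'] [AddCommGroup N''] [Module k N''] [Module E N''] [IsScalarTower k E N'']
  [FiniteDimensional k N'']

/-- the functor `G` on maps -/
noncomputable def map (f : N →ₗ[E] N') : D.G N →ₗ[E] D.G N' where
  toFun := (D.Im N).mapQ (D.Im N')
    (((LinearMap.llcomp k E N N' (f.restrictScalars k)).prodMap
      (LinearMap.llcomp k E N N' (f.restrictScalars k))).restrict
      (p := D.Sub N) (q := D.Sub N') fun _ hp =>
        (TC.S_comp (isE_restrict f).toS hp).congr fun x => by simp)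
    fun _ hp => ⟨(isE_restrict f).comp hp.1, (isE_restrict f).comp_H hp.2⟩
  map_add' := map_add _
  map_smul' b ξ := by
    obtain ⟨φ₁, φ₂, h, rfl⟩ := D.cls_surj ξ
    rfl

theorem map_cls (f : N →ₗ[E] N') (φ₁ φ₂ : E →ₗ[k] N) (h : TC D.S (φ₁ + φ₂)) :
    D.map f (D.cls φ₁ φ₂ h) = D.cls (f.restrictScalars k ∘ₗ φ₁) (f.restrictScalars k ∘ₗ φ₂)
      ((TC.S_comp (isE_restrict f).toS h).congr fun x => by simp) := rfl

theorem map_map (f : N →ₗ[E] N') (g : N' →ₗ[E] N'') (ξ : D.G N) :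
    D.map g (D.map f ξ) = D.map (g ∘ₗ f) ξ := by
  obtain ⟨φ₁, φ₂, h, rfl⟩ := D.cls_surj ξ
  rfl

theorem map_id (ξ : D.G N) : D.map LinearMap.id ξ = ξ := by
  obtain ⟨φ₁, φ₂, h, rfl⟩ := D.cls_surj ξ
  rfl

theorem map_add' (f g : N →ₗ[E] N') (ξ : D.G N) : D.map (f + g) ξ = D.map f ξ + D.map g ξ := by
  obtain ⟨φ₁, φ₂, h, rfl⟩ := D.cls_surj ξ
  rw [map_cls, map_cls, map_cls, cls_add]
  exact D.cls_congr (fun c => by simp) (fun c => by simp)

theorem map_zero' (ξ : D.G N) : D.map (0 : N →ₗ[E] N') ξ = 0 := by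
  have := D.map_add' (0 : N →ₗ[E] N') 0 ξ
  rw [add_zero] at this
  exact left_eq_add.1 this

theorem map_smul' (c : k) (f : N →ₗ[E] N') (ξ : D.G N) : D.map (c • f) ξ = c • D.map f ξ := by
  obtain ⟨φ₁, φ₂, h, rfl⟩ := D.cls_surj ξ
  rw [map_cls, map_cls, cls_smul]
  exact D.cls_congr (fun c => by simp) (fun c => by simp)

theorem map_sum' {ι : Type*} (t : Finset ι) (f : ι → N →ₗ[E] N') (ξ : D.G N) :
    D.map (∑ i ∈ t, f i) ξ = ∑ i ∈ t, D.map (f i) ξ := by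
  classical
  induction t using Finset.induction_on with
  | empty => simp [map_zero']
  | insert i t hi ih => rw [Finset.sum_insert hi, Finset.sum_insert hi, map_add', ih]

variable {X X' : Type u} [AddCommGroup X] [Module k X] [Module E X] [IsScalarTower k E X]
  [AddCommGroup X'] [Module k X'] [Module E X'] [IsScalarTower k E X']

/-- the map `X → G N` given by a pair of `k`-linear maps -/
noncomputable def gm (ω₁ ω₂ : X →ₗ[k] N) (h : TC D.S (ω₁ + ω₂)) : X →ₗ[E] D.G N where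
  toFun x := D.cls (ω₁ ∘ₗ rr x) (ω₂ ∘ₗ rr x) (TC.comp_S h (isE_rr x).toS)
  map_add' x y := by
    rw [cls_add]; exact D.cls_congr (fun c => by simp) (fun c => by simp)
  map_smul' b x := by
    rw [RingHom.id_apply, smul_cls]
    exact D.cls_congr (fun c => by simp [mul_smul]) (fun c => by simp [mul_smul])

theorem gm_apply (ω₁ ω₂ : X →ₗ[k] N) (h : TC D.S (ω₁ + ω₂)) (x : X) :
    D.gm ω₁ ω₂ h x = D.cls (ω₁ ∘ₗ rr x) (ω₂ ∘ₗ rr x) (TC.comp_S h (isE_rr x).toS) := rfl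

theorem gm_eq_zero (ω₁ ω₂ : X →ₗ[k] N) (h : TC D.S (ω₁ + ω₂)) :
    D.gm ω₁ ω₂ h = 0 ↔ IsE E ω₁ ∧ IsH D.h ω₂ := by
  constructor
  · intro h0
    have := fun x => (D.cls_eq_zero _ _ _).1 (LinearMap.congr_fun h0 x)
    exact ⟨fun a x => by simpa using (this x).1 a 1, fun a x => by simpa using (this x).2 a 1⟩
  · rintro ⟨h1, h2⟩
    ext x
    exact (D.cls_eq_zero _ _ _).2 ⟨h1.comp (isE_rr x), h2.comp_E (isE_rr x)⟩

theorem gm_add (ω₁ ω₂ : X →ₗ[k] N) (h : TC D.S (ω₁ + ω₂)) (ψ₁ ψ₂ : X →ₗ[k] N)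
    (h' : TC D.S (ψ₁ + ψ₂)) : D.gm ω₁ ω₂ h + D.gm ψ₁ ψ₂ h' = D.gm (ω₁ + ψ₁) (ω₂ + ψ₂)
      ((h.add h').congr fun x => by simp only [LinearMap.add_apply]; abel) := by
  ext x
  rw [LinearMap.add_apply, gm_apply, gm_apply, cls_add]
  rfl

theorem map_comp_gm (f : N →ₗ[E] N') (ω₁ ω₂ : X →ₗ[k] N) (h : TC D.S (ω₁ + ω₂)) :
    D.map f ∘ₗ D.gm ω₁ ω₂ h = D.gm (f.restrictScalars k ∘ₗ ω₁) (f.restrictScalars k ∘ₗ ω₂)
      ((TC.S_comp (isE_restrict f).toS h).congr fun x => by simp) := rfl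

theorem gm_comp (f : X' →ₗ[E] X) (ω₁ ω₂ : X →ₗ[k] N) (h : TC D.S (ω₁ + ω₂)) :
    D.gm ω₁ ω₂ h ∘ₗ f = D.gm (ω₁ ∘ₗ f.restrictScalars k) (ω₂ ∘ₗ f.restrictScalars k)
      (TC.comp_S h (isE_restrict f).toS) := by
  ext x
  exact D.cls_congr (fun c => by simp) (fun c => by simp)

theorem gm_surj [Module.Finite E X] [Module.Projective E X] (w : X →ₗ[E] D.G N) :
    ∃ ω₁ ω₂ h, D.gm ω₁ ω₂ h = w := by
  obtain ⟨r, g, p, hp⟩ := exists_dualBasis E X
  choose φ₁ φ₂ hφ e using fun j => D.cls_surj (w (p j))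
  have key : ∀ t : Finset (Fin r), ∃ ω₁ ω₂ h, ∀ x, D.gm ω₁ ω₂ h x = ∑ j ∈ t, g j x • w (p j) := by
    intro t
    induction t using Finset.induction_on with
    | empty => exact ⟨0, 0, fun γ _ => by simp, fun x => by
        rw [(D.gm_eq_zero _ _ _).2 ⟨IsE.zero, IsH.zero⟩]; simp⟩
    | insert i t hi ih =>
      obtain ⟨ω₁, ω₂, h, e'⟩ := ih
      refine ⟨φ₁ i ∘ₗ (g i).restrictScalars k + ω₁, φ₂ i ∘ₗ (g i).restrictScalars k + ω₂,
        ((TC.comp_S (hφ i) (isE_restrict (g i)).toS).add h).congr fun x => by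
          simp only [LinearMap.add_apply, LinearMap.comp_apply]; abel, fun x => ?_⟩
      rw [Finset.sum_insert hi, ← e', ← e i, smul_cls, gm_apply, gm_apply, cls_add]
      exact D.cls_congr (fun c => by simp) (fun c => by simp)
  obtain ⟨ω₁, ω₂, h, e'⟩ := key Finset.univ
  refine ⟨ω₁, ω₂, h, LinearMap.ext fun x => ?_⟩
  rw [e']
  conv_rhs => rw [← hp x]
  simp [map_sum]

end G

end Pkg

end Crest.Agent.R186
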