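import Mathlib
import Crest.Prelude.Def_Tilting

/-! Row 186, task Gamma, part 1: a non-split coresolution of a ring `Γ` by retracts of powers of a
projective-injective module `W`, and its homological consequences. -/

set_option autoImplicit false

namespace Crest.Agent.R186

open CategoryTheory CategoryTheory.Abelian Crest.AlgebraR

universe u

variable {Γ : Type u} [Ring Γ]

/-- `I` is a retract of a finite power of `W`. -/
def Retr (Γ : Type u) [Ring Γ] (W : Type u) [AddCommGroup W] [Module Γ W]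
    (I : Type u) [AddCommGroup I] [Module Γ I] : Prop :=
  ∃ (n : ℕ) (s : I →ₗ[Γ] (Fin n → W)) (r : (Fin n → W) →ₗ[Γ] I), ∀ x, r (s x) = x

section
variable {W : Type u} [AddCommGroup W] [Module Γ W] {I : Type u} [AddCommGroup I] [Module Γ I]

theorem Retr.proj [Module.Projective Γ W] (h : Retr Γ W I) : Module.Projective Γ I := by
  obtain ⟨n, s, r, h⟩ := h
  have : Module.Projective Γ (Fin n → W) :=
    Module.Projective.of_equiv (DirectSum.linearEquivFunOnFintype Γ (Fin n) fun _ => W)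
  exact Module.Projective.of_split s r (LinearMap.ext h)

theorem Retr.fin [Module.Finite Γ W] (h : Retr Γ W I) : Module.Finite Γ I := by
  obtain ⟨n, s, r, h⟩ := h
  exact Module.Finite.of_surjective r fun x => ⟨s x, h x⟩

theorem Retr.inj [Module.Injective Γ W] (h : Retr Γ W I) : Module.Injective Γ I := by
  obtain ⟨n, s, r, h⟩ := h
  refine ⟨fun X Y _ _ _ _ f hf g => ?_⟩
  obtain ⟨k, hk⟩ := Module.Injective.out (R := Γ) (Q := Fin n → W) f hf (s ∘ₗ g)
  exact ⟨r ∘ₗ k, fun x => by simp [hk, h]⟩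

theorem Retr.inAdd (h : Retr Γ W I) : InAdd Γ W I := by
  obtain ⟨n, s, r, h⟩ := h
  refine ⟨n, LinearMap.ker r, inferInstance, inferInstance, ⟨?_⟩⟩
  refine LinearEquiv.ofLinearMap (s.coprod (LinearMap.ker r).subtype)
    (r.prod ((LinearMap.id - s ∘ₗ r).codRestrict _ fun w => by simp [h])) ?_ ?_
  · refine LinearMap.ext fun w => ?_
    simp
  · refine LinearMap.ext fun ⟨x, y, hy⟩ => ?_
    have hy' : r y = 0 := hy
    ext <;> simp [h, hy']

theorem retr_of_inAdd (h : InAdd Γ W I) : Retr Γ W I := by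
  obtain ⟨n, Y, _, _, ⟨e⟩⟩ := h
  exact ⟨n, e.toLinearMap ∘ₗ LinearMap.inl Γ I Y, LinearMap.fst Γ I Y ∘ₗ e.symm.toLinearMap,
    fun x => by simp⟩

theorem Retr.hom_zero (h : Retr Γ W I) {S : Type u} [AddCommGroup S] [Module Γ S]
    (hS : ∀ f : S →ₗ[Γ] W, f = 0) (f : S →ₗ[Γ] I) : f = 0 := by
  obtain ⟨n, s, r, h⟩ := h
  ext x
  have : s (f x) = 0 := by
    funext i
    exact LinearMap.congr_fun (hS (LinearMap.proj i ∘ₗ s ∘ₗ f)) x
  rw [← h (f x), this, map_zero, LinearMap.zero_apply]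

end

section
variable {M N P : Type u} [AddCommGroup M] [AddCommGroup N] [AddCommGroup P]
  [Module Γ M] [Module Γ N] [Module Γ P]

/-- short exactness of two linear maps -/
structure SEx (u : M →ₗ[Γ] N) (v : N →ₗ[Γ] P) : Prop where
  inj : Function.Injective u
  ex : Function.Exact u v
  sur : Function.Surjective v

/-- the short complex attached to `SEx` -/
noncomputable abbrev SEx.cx {u : M →ₗ[Γ] N} {v : N →ₗ[Γ] P} (h : SEx u v) :
    ShortComplex (ModuleCat.{u} Γ) :=
  ShortComplex.mk (ModuleCat.ofHom u) (ModuleCat.ofHom v)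
    (by ext x; simpa using h.ex.apply_apply_eq_zero x)

theorem SEx.shortExact {u : M →ₗ[Γ] N} {v : N →ₗ[Γ] P} (h : SEx u v) : h.cx.ShortExact :=
  ModuleCat.shortComplex_shortExact _ h.ex h.inj h.sur

theorem SEx.retr_of_proj {u : M →ₗ[Γ] N} {v : N →ₗ[Γ] P} (h : SEx u v) [Module.Projective Γ P] :
    ∃ r : N →ₗ[Γ] M, ∀ x, r (u x) = x := by
  obtain ⟨s, hs⟩ := Module.projective_lifting_property v LinearMap.id h.sur
  have hs' : ∀ y, v (s y) = y := fun y => LinearMap.congr_fun hs y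
  have hm : ∀ y, (LinearMap.id - s ∘ₗ v : N →ₗ[Γ] N) y ∈ LinearMap.range u := fun y =>
    (h.ex _).1 (by simp [hs'])
  refine ⟨(LinearEquiv.ofInjective u h.inj).symm.toLinearMap ∘ₗ
    (LinearMap.id - s ∘ₗ v).codRestrict _ hm, fun x => ?_⟩
  apply (LinearEquiv.ofInjective u h.inj).injective
  ext
  simp [h.ex.apply_apply_eq_zero]

theorem retr_of_inj (u : M →ₗ[Γ] N) (hu : Function.Injective u) [Module.Injective Γ M] :
    ∃ r : N →ₗ[Γ] M, ∀ x, r (u x) = x :=
  Module.Injective.out (R := Γ) (Q := M) u hu LinearMap.id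

theorem exact_hom_of_inj {W : Type u} [AddCommGroup W] [Module Γ W] [Module.Injective Γ W]
    {a : M →ₗ[Γ] N} {b : N →ₗ[Γ] P} (h : Function.Exact a b) :
    Function.Exact (fun f : P →ₗ[Γ] W => f ∘ₗ b) (fun f : N →ₗ[Γ] W => f ∘ₗ a) := by
  intro f
  constructor
  · intro hf
    have hk : LinearMap.ker b ≤ LinearMap.ker f := by
      intro y hy
      obtain ⟨x, rfl⟩ := (h y).1 hy
      exact LinearMap.congr_fun hf x
    obtain ⟨g, hg⟩ := Module.Injective.out (R := Γ) (Q := W) ((LinearMap.ker b).liftQ b le_rfl)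
      (by rw [← LinearMap.ker_eq_bot]; exact Submodule.ker_liftQ_eq_bot _ _ _ le_rfl)
      ((LinearMap.ker b).liftQ f hk)
    refine ⟨g, ?_⟩
    ext y
    exact hg (Submodule.Quotient.mk y)
  · rintro ⟨g, rfl⟩
    ext x
    simp [h.apply_apply_eq_zero]

end

/-- a non-split coresolution of `Γ` by retracts of powers of `W` -/
structure Tower (Γ : Type u) [Ring Γ] (W : Type u) [AddCommGroup W] [Module Γ W] where
  C : ℕ → ModuleCat.{u} Γ
  I : ℕ → ModuleCat.{u} Γ
  e : Γ ≃ₗ[Γ] C 0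
  a : ∀ j, C j →ₗ[Γ] I j
  b : ∀ j, I j →ₗ[Γ] C (j + 1)
  se : ∀ j, SEx (a j) (b j)
  retr : ∀ j, Retr Γ W (I j)
  ns : ∀ j, ¬ ∃ r : I j →ₗ[Γ] C j, ∀ x, r (a j x) = x

theorem exists_tower (W : Type u) [AddCommGroup W] [Module Γ W] (p : ModuleCat.{u} Γ → Prop)
    (C₀ : ModuleCat.{u} Γ) (e : Γ ≃ₗ[Γ] C₀) (h₀ : p C₀)
    (step : ∀ C : ModuleCat.{u} Γ, p C → ∃ (I C' : ModuleCat.{u} Γ) (a : C →ₗ[Γ] I)
      (b : I →ₗ[Γ] C'), p C' ∧ SEx a b ∧ Retr Γ W I ∧ ¬ ∃ r : I →ₗ[Γ] C, ∀ x, r (a x) = x) :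
    Nonempty (Tower Γ W) := by
  choose I C' a b hp hse hre hns using step
  let s : ℕ → {C : ModuleCat.{u} Γ // p C} := fun n =>
    Nat.rec ⟨C₀, h₀⟩ (fun _ c => ⟨C' c.1 c.2, hp c.1 c.2⟩) n
  exact ⟨⟨fun n => (s n).1, fun n => I (s n).1 (s n).2, e, fun n => a (s n).1 (s n).2,
    fun n => b (s n).1 (s n).2, fun n => hse _ _, fun n => hre _ _, fun n => hns _ _⟩⟩

namespace Tower

variable {W : Type u} [AddCommGroup W] [Module Γ W] (t : Tower Γ W)

theorem fin [Module.Finite Γ W] : ∀ j, Module.Finite Γ (t.C j)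
  | 0 => Module.Finite.equiv t.e
  | j + 1 => by
    have := (t.retr j).fin
    exact Module.Finite.of_surjective (t.b j) (t.se j).sur

theorem pd_lt [Module.Projective Γ W] : ∀ j, HasProjectiveDimensionLT (t.C j) (j + 1)
  | 0 => by
    have : Module.Projective Γ (t.C 0) := Module.Projective.of_equiv t.e
    infer_instance
  | j + 1 => by
    have := (t.retr j).proj
    exact ((t.se j).shortExact.hasProjectiveDimensionLT_X₃_iff j
      (inferInstanceAs (Projective (t.I j)))).2 (pd_lt j)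

theorem not_pd_lt [Module.Projective Γ W] : ∀ j, ¬ HasProjectiveDimensionLT (t.C (j + 1)) (j + 1)
  | 0 => by
    intro h
    have h1 : Projective (t.C (0 + 1)) := projective_iff_hasProjectiveDimensionLT_one.2 h
    have h2 : Module.Projective Γ (t.C (0 + 1)) := inferInstance
    exact t.ns 0 (t.se 0).retr_of_proj
  | j + 1 => by
    intro h
    have := (t.retr (j + 1)).proj
    exact not_pd_lt j (((t.se (j + 1)).shortExact.hasProjectiveDimensionLT_X₃_iff j
      (inferInstanceAs (Projective (t.I (j + 1))))).1 h)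

theorem pd_eq [Module.Projective Γ W] (n : ℕ) (hn : 1 ≤ n) :
    projectiveDimension (t.C n) = (n : WithBot ℕ∞) := by
  obtain ⟨j, rfl⟩ : ∃ j, n = j + 1 := ⟨n - 1, by omega⟩
  apply le_antisymm
  · exact (projectiveDimension_le_iff _ _).2 (t.pd_lt (j + 1))
  · exact (projectiveDimension_ge_iff _ _).2 (t.not_pd_lt j)

theorem not_id_lt_aux [Module.Injective Γ W] :
    ∀ n j, ¬ HasInjectiveDimensionLT (t.C j) (n + 1)
  | 0, j => by
    intro h
    have h1 : Injective (ModuleCat.of Γ (t.C j)) :=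
      injective_iff_hasInjectiveDimensionLT_one.2 h
    have h2 : Module.Injective Γ (t.C j) := Module.injective_module_of_injective_object Γ _
    exact t.ns j (retr_of_inj _ (t.se j).inj)
  | n + 1, j => by
    intro h
    have := (t.retr j).inj
    exact not_id_lt_aux n (j + 1) (((t.se j).shortExact.hasInjectiveDimensionLT_X₃_iff n
      (Module.injective_object_of_injective_module Γ (t.I j))).2 h)

include t in
theorem not_id_lt [Module.Injective Γ W] (n : ℕ) :
    ¬ HasInjectiveDimensionLT (ModuleCat.of Γ Γ) n := by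
  intro h
  have h1 : HasInjectiveDimensionLT (ModuleCat.of Γ Γ) (n + 1) :=
    hasInjectiveDimensionLT_of_ge _ n _ (by omega)
  exact t.not_id_lt_aux n 0 (hasInjectiveDimensionLT_of_iso t.e.toModuleIso (n + 1))

theorem ext_zero_aux [Module.Injective Γ W] (S : ModuleCat.{u} Γ)
    (hS : ∀ f : S →ₗ[Γ] W, f = 0) : ∀ (i j : ℕ) (x : Ext S (t.C j) i), x = 0
  | 0, j => by
    intro x
    obtain ⟨φ, rfl⟩ := Ext.homEquiv₀.symm.surjective x
    have : φ = 0 := by
      ext y
      apply (t.se j).inj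
      have := LinearMap.congr_fun ((t.retr j).hom_zero hS (t.a j ∘ₗ φ.hom)) y
      simpa using this
    rw [this]
    simp
  | i + 1, j => by
    intro x
    have := (t.retr j).inj
    have h2 : Injective (t.se j).cx.X₂ := Module.injective_object_of_injective_module Γ (t.I j)
    obtain ⟨y, hy⟩ := Ext.covariant_sequence_exact₁ S (t.se j).shortExact x
      (Ext.eq_zero_of_injective _) rfl
    rw [← hy, ext_zero_aux S hS i (j + 1) y, Ext.zero_comp]

include t in
theorem ext_zero [Module.Injective Γ W] (S : ModuleCat.{u} Γ)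
    (hS : ∀ f : S →ₗ[Γ] W, f = 0) (i : ℕ) : Subsingleton (Ext S (ModuleCat.of Γ Γ) i) := by
  have key : ∀ x : Ext S (ModuleCat.of Γ Γ) i, x = 0 := by
    intro x
    have hc : t.e.toModuleIso.hom ≫ t.e.toModuleIso.inv = 𝟙 (ModuleCat.of Γ Γ) := Iso.hom_inv_id _
    rw [← x.comp_mk₀_id, ← hc, ← Ext.mk₀_comp_mk₀, ← Ext.comp_assoc_of_third_deg_zero,
      t.ext_zero_aux S hS i 0 (x.comp (Ext.mk₀ t.e.toModuleIso.hom) (add_zero i)), Ext.zero_comp]
  exact ⟨fun x y => by rw [key x, key y]⟩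

/-- the augmentation -/
def ε : Γ →ₗ[Γ] t.I 0 := t.a 0 ∘ₗ t.e.toLinearMap

/-- the differential -/
def d (j : ℕ) : t.I j →ₗ[Γ] t.I (j + 1) := t.a (j + 1) ∘ₗ t.b j

theorem ε_inj : Function.Injective t.ε := (t.se 0).inj.comp t.e.injective

theorem exact_ε : Function.Exact t.ε (t.d 0) := by
  intro y
  have h1 : t.d 0 y = 0 ↔ t.b 0 y = 0 := by
    simp only [d, LinearMap.comp_apply]
    exact map_eq_zero_iff _ (t.se 1).inj
  rw [h1, (t.se 0).ex y]
  constructor
  · rintro ⟨x, rfl⟩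
    exact ⟨t.e.symm x, by simp [ε]⟩
  · rintro ⟨x, rfl⟩
    exact ⟨t.e x, rfl⟩

theorem exact_d (j : ℕ) : Function.Exact (t.d j) (t.d (j + 1)) := by
  intro y
  have h1 : t.d (j + 1) y = 0 ↔ t.b (j + 1) y = 0 := by
    simp only [d, LinearMap.comp_apply]
    exact map_eq_zero_iff _ (t.se (j + 2)).inj
  rw [h1, (t.se (j + 1)).ex y]
  constructor
  · rintro ⟨x, rfl⟩
    obtain ⟨z, rfl⟩ := (t.se j).sur x
    exact ⟨z, rfl⟩
  · rintro ⟨x, rfl⟩
    exact ⟨t.b j x, rfl⟩

include t in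
theorem wakamatsu [Module.Injective Γ W] [Module.Projective Γ W] : IsWakamatsuTilting Γ W := by
  refine ⟨fun i hi => ?_, fun j => t.I j, inferInstance, inferInstance, t.ε, t.d,
    ⟨fun j => (t.retr j).inAdd, t.ε_inj, t.exact_ε, t.exact_d⟩, fun f => ?_,
    exact_hom_of_inj t.exact_ε, fun j => exact_hom_of_inj (t.exact_d j)⟩
  · obtain ⟨k, rfl⟩ : ∃ k, i = k + 1 := ⟨i - 1, by omega⟩
    exact ⟨fun x y => by rw [x.eq_zero_of_projective, y.eq_zero_of_projective]⟩
  · obtain ⟨g, hg⟩ := Module.Injective.out (R := Γ) (Q := W) t.ε t.ε_inj f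
    exact ⟨g, LinearMap.ext hg⟩

include t in
theorem not_tilting [Module.Injective Γ W] : ¬ IsTilting Γ W := by
  rintro ⟨-, -, C, _, _, ε, d, r, ⟨h1, h2, h3, h4⟩, h5⟩
  have hse : ∀ j, SEx (LinearMap.ker (d j)).subtype
      ((d j).codRestrict (LinearMap.ker (d (j + 1))) fun x => (h4 j).apply_apply_eq_zero x) := by
    intro j
    refine ⟨Subtype.val_injective, fun y => ?_, fun ⟨y, hy⟩ => ?_⟩
    · constructor
      · intro h
        exact ⟨⟨y, congrArg Subtype.val h⟩, rfl⟩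
      · rintro ⟨x, rfl⟩
        exact Subtype.ext x.2
    · obtain ⟨x, rfl⟩ := (h4 j y).1 hy
      exact ⟨x, rfl⟩
  have key : ∀ k j, r < j + k →
      HasInjectiveDimensionLT (ModuleCat.of Γ (LinearMap.ker (d j))) (k + 1) := by
    intro k
    induction k with
    | zero =>
      intro j hj
      have := h5 j hj
      have := (ModuleCat.isZero_of_subsingleton
        (ModuleCat.of Γ (LinearMap.ker (d j)))).hasInjectiveDimensionLT_zero
      infer_instance
    | succ k ih =>
      intro j hj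
      have := (retr_of_inAdd (h1 j)).inj
      exact ((hse j).shortExact.hasInjectiveDimensionLT_X₃_iff k
        (Module.injective_object_of_injective_module Γ (C j))).1 (ih (j + 1) (by omega))
  have e : Γ ≃ₗ[Γ] LinearMap.ker (d 0) :=
    LinearEquiv.ofBijective (ε.codRestrict _ fun x => h3.apply_apply_eq_zero x)
      ⟨fun x y h => h2 (congrArg Subtype.val h), fun ⟨y, hy⟩ => by
        obtain ⟨x, rfl⟩ := (h3 y).1 hy
        exact ⟨x, rfl⟩⟩
  have := key (r + 1) 0 (by omega)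
  exact t.not_id_lt (r + 1 + 1) (hasInjectiveDimensionLT_of_iso e.symm.toModuleIso _)

end Tower

end Crest.Agent.R186
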