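import Crest.Agent.R186.Basic
import Crest.Agent.R186.GammaAux1
import Crest.Prelude.Def_SymmetricAlgebra

/-! Row 186, task Gamma, part 2: the functor `H N = Hom_A(G, N)` to left modules over
`Γ = (End_A G)ᵐᵒᵖ`, for a module `G` having `A` as a direct summand. -/

set_option autoImplicit false

namespace Crest.Agent.R186

open Crest.AlgebraR MulOpposite

universe u

variable {A : Type u} [Ring A] (G : Type u) [AddCommGroup G] [Module A G]

variable (A) in
/-- the opposite endomorphism ring -/
abbrev Gam : Type u := (Module.End A G)ᵐᵒᵖ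

variable (A) in
/-- `Hom_A(G, N)` as a left `Γ`-module -/
def HH (N : Type u) [AddCommGroup N] [Module A N] : Type u := G →ₗ[A] N

section
variable {N N' N'' : Type u} [AddCommGroup N] [Module A N] [AddCommGroup N'] [Module A N']
  [AddCommGroup N''] [Module A N'']

instance : AddCommGroup (HH A G N) := inferInstanceAs (AddCommGroup (G →ₗ[A] N))

variable {G} in
/-- the underlying linear map -/
def HH.lin (f : HH A G N) : G →ₗ[A] N := f

variable {G} in
/-- a linear map as an element of `HH` -/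
def HH.mk (f : G →ₗ[A] N) : HH A G N := f

variable {G} in
theorem HH.ext {f g : HH A G N} (h : ∀ x, f.lin x = g.lin x) : f = g :=
  LinearMap.ext (f := f.lin) (g := g.lin) h

@[simp] theorem HH.lin_mk (f : G →ₗ[A] N) : (HH.mk f).lin = f := rfl
@[simp] theorem HH.lin_add (f g : HH A G N) : (f + g).lin = f.lin + g.lin := rfl
@[simp] theorem HH.lin_zero : (0 : HH A G N).lin = 0 := rfl

theorem HH.lin_sum {ι : Type*} (s : Finset ι) (f : ι → HH A G N) (x : G) :
    (∑ i ∈ s, f i).lin x = ∑ i ∈ s, (f i).lin x :=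
  LinearMap.sum_apply s (fun i => (f i).lin) x

instance : Module (Gam A G) (HH A G N) where
  smul γ f := HH.mk (f.lin ∘ₗ γ.unop)
  one_smul _ := rfl
  mul_smul _ _ _ := rfl
  smul_zero _ := rfl
  smul_add _ _ _ := rfl
  add_smul γ δ f := HH.ext fun x => map_add f.lin (γ.unop x) (δ.unop x)
  zero_smul f := HH.ext fun _ => map_zero f.lin

@[simp] theorem HH.lin_smul (γ : Gam A G) (f : HH A G N) (x : G) :
    (γ • f).lin x = f.lin (γ.unop x) := rfl

/-- functoriality -/
def HH.map (u : N →ₗ[A] N') : HH A G N →ₗ[Gam A G] HH A G N' where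
  toFun f := HH.mk (u ∘ₗ f.lin)
  map_add' f g := HH.ext fun x => map_add u (f.lin x) (g.lin x)
  map_smul' _ _ := rfl

@[simp] theorem HH.lin_map (u : N →ₗ[A] N') (f : HH A G N) (x : G) :
    (HH.map G u f).lin x = u (f.lin x) := rfl

/-- `Γ ≃ H G` -/
def HH.self : Gam A G ≃ₗ[Gam A G] HH A G G where
  toFun γ := HH.mk γ.unop
  invFun f := op f.lin
  map_add' _ _ := rfl
  map_smul' _ _ := rfl
  left_inv _ := rfl
  right_inv _ := rfl

theorem HH.sex {u : N →ₗ[A] N'} {v : N' →ₗ[A] N''} (hu : Function.Injective u)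
    (huv : Function.Exact u v) (hv : ∀ f : G →ₗ[A] N'', ∃ g : G →ₗ[A] N', v ∘ₗ g = f) :
    SEx (HH.map G u) (HH.map G v) := by
  refine ⟨fun f g h => HH.ext fun x => hu ?_, fun f => ⟨fun h => ?_, ?_⟩, fun f => ?_⟩
  · exact congrArg (fun k : HH A G N' => k.lin x) h
  · have hm : ∀ x, f.lin x ∈ LinearMap.range u := fun x =>
      (huv _).1 (congrArg (fun k : HH A G N'' => k.lin x) h)
    refine ⟨HH.mk ((LinearEquiv.ofInjective u hu).symm.toLinearMap ∘ₗ f.lin.codRestrict _ hm),
      HH.ext fun x => ?_⟩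
    have := congrArg Subtype.val ((LinearEquiv.ofInjective u hu).apply_symm_apply ⟨_, hm x⟩)
    exact this
  · rintro ⟨g, rfl⟩
    exact HH.ext fun x => huv.apply_apply_eq_zero _
  · obtain ⟨g, hg⟩ := hv f.lin
    exact ⟨HH.mk g, HH.ext fun x => LinearMap.congr_fun hg x⟩

theorem HH.retr (Q : Type u) [AddCommGroup Q] [Module A Q] [Module.Finite A Q]
    [Module.Projective A Q] : Retr (Gam A G) (HH A G A) (HH A G Q) := by
  obtain ⟨r, g, p, h⟩ := exists_dualBasis A Q
  refine ⟨r, LinearMap.pi fun j => HH.map G (g j),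
    ∑ j, HH.map G (LinearMap.toSpanSingleton A Q (p j)) ∘ₗ LinearMap.proj j, fun f => ?_⟩
  refine HH.ext fun x => ?_
  rw [LinearMap.sum_apply, HH.lin_sum]
  simpa using h (f.lin x)

variable {G}
variable (ι : A →ₗ[A] G) (π : G →ₗ[A] A) (hπ : ∀ a, π (ι a) = a)

/-- `g ↦ π g • y` -/
def gm (y : N) : G →ₗ[A] N := LinearMap.toSpanSingleton A N y ∘ₗ π

@[simp] theorem gm_apply (y : N) (g : G) : gm π y g = π g • y := rfl

include hπ

theorem HH.proj_fin : Module.Projective (Gam A G) (HH A G A) ∧ Module.Finite (Gam A G) (HH A G A) := by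
  have h : ∀ f, (HH.map G π ∘ₗ (HH.self G).toLinearMap)
      (((HH.self G).symm.toLinearMap ∘ₗ HH.map G ι) f) = f := fun f =>
    HH.ext fun x => hπ _
  exact ⟨Module.Projective.of_split ((HH.self G).symm.toLinearMap ∘ₗ HH.map G ι)
      (HH.map G π ∘ₗ (HH.self G).toLinearMap) (LinearMap.ext h),
    Module.Finite.of_surjective _ fun f => ⟨_, h f⟩⟩

theorem HH.retr_down {u : N →ₗ[A] N'}
    (h : ∃ r : HH A G N' →ₗ[Gam A G] HH A G N, ∀ x, r (HH.map G u x) = x) :
    ∃ ρ : N' →ₗ[A] N, ∀ x, ρ (u x) = x := by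
  obtain ⟨r, hr⟩ := h
  refine ⟨{ toFun := fun q => (r (HH.mk (gm π q))).lin (ι 1)
            map_add' := fun q q' => ?_
            map_smul' := fun a q => ?_ }, fun n => ?_⟩
  · have : HH.mk (gm π (q + q')) = HH.mk (gm π q) + HH.mk (gm π q') :=
      HH.ext fun x => by simp
    rw [this, map_add]
    rfl
  · have : HH.mk (gm π (a • q)) = (op (gm π (ι a)) : Gam A G) • HH.mk (gm π q) :=
      HH.ext fun x => by simp [hπ, smul_smul]
    rw [this, map_smul, HH.lin_smul, unop_op, gm_apply, hπ, one_smul, RingHom.id_apply,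
      ← map_smul, ← map_smul, smul_eq_mul, mul_one]
  · have : HH.mk (gm π (u n)) = HH.map G u (HH.mk (gm π n)) := HH.ext fun x => by simp
    change (r (HH.mk (gm π (u n)))).lin (ι 1) = n
    rw [this, hr]
    simp [hπ]

theorem HH.exists_simple (hG : ¬ Module.Projective A G) :
    ∃ S : ModuleCat.{u} (Gam A G), IsSimpleModule (Gam A G) S ∧
      ∀ f : S →ₗ[Gam A G] HH A G A, f = 0 := by
  let J : Ideal (Gam A G) :=
    { carrier := {γ | ∃ s : G →ₗ[A] G →₀ A, ∀ x, Finsupp.linearCombination A id (s x) = γ.unop x}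
      add_mem' := by
        rintro γ δ ⟨s, hs⟩ ⟨t, ht⟩
        exact ⟨s + t, fun x => by simp [hs, ht]⟩
      zero_mem' := ⟨0, fun x => by simp⟩
      smul_mem' := by
        rintro δ γ ⟨s, hs⟩
        exact ⟨s ∘ₗ δ.unop, fun x => by simp [hs]⟩ }
  have hJ : J ≠ ⊤ := by
    intro h
    have h1 : (1 : Gam A G) ∈ J := h ▸ Submodule.mem_top
    obtain ⟨s, hs⟩ := h1
    exact hG ⟨⟨s, fun x => hs x⟩⟩
  obtain ⟨m, hm, hJm⟩ := Ideal.exists_le_maximal J hJ
  refine ⟨ModuleCat.of _ (Gam A G ⧸ m), isSimpleModule_iff_isCoatom.2 hm.out, fun f => ?_⟩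
  have h1 : f (Submodule.Quotient.mk 1) = 0 := by
    refine HH.ext fun x => ?_
    have h2 : (op (gm π x) : Gam A G) ∈ m :=
      hJm ⟨gm π (Finsupp.single x 1), fun y => by simp⟩
    have h3 : (op (gm π x) : Gam A G) • (Submodule.Quotient.mk 1 : Gam A G ⧸ m) = 0 := by
      rw [← Submodule.Quotient.mk_smul, smul_eq_mul, mul_one]
      exact (Submodule.Quotient.mk_eq_zero _).2 h2
    have h4 := congrArg (fun k : HH A G A => k.lin (ι 1)) ((map_smul f _ _).symm.trans
      ((congrArg f h3).trans (map_zero f)))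
    simpa [hπ] using h4
  refine LinearMap.ext fun y => ?_
  obtain ⟨γ, rfl⟩ := Submodule.Quotient.mk_surjective _ y
  have : (Submodule.Quotient.mk γ : Gam A G ⧸ m) = γ • Submodule.Quotient.mk 1 := by
    rw [← Submodule.Quotient.mk_smul, smul_eq_mul, mul_one]
  rw [this, map_smul, h1, smul_zero, LinearMap.zero_apply]

theorem HH.injective (K : Type u) [Field K] [Algebra K A] [Module K G] [IsScalarTower K A G]
    (hA : IsSymmetricAlgebra K A) : Module.Injective (Gam A G) (HH A G A) := by
  obtain ⟨φ, hφ⟩ := hA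
  have hφ' : ∀ a y, φ a y = φ 1 (y * a) := fun a y => by
    simpa using hφ a 1 1 y
  refine Module.Baer.injective fun I g => ?_
  have hk : ∀ (k : K) (x : G), (algebraMap K (Gam A G) k).unop x = algebraMap K A k • x := by
    intro k x
    simp
  let ℓ : I.restrictScalars K →ₗ[K] K :=
    { toFun := fun γ => φ 1 ((g ⟨γ.1, γ.2⟩).lin (ι 1))
      map_add' := fun γ δ => by
        rw [← map_add, ← LinearMap.add_apply, ← HH.lin_add, ← map_add]
        rfl
      map_smul' := fun k γ => by
        have : (⟨(k • γ).1, (k • γ).2⟩ : I) = algebraMap K (Gam A G) k • (⟨γ.1, γ.2⟩ : I) :=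
          Subtype.ext (Algebra.smul_def k γ.1)
        rw [this, map_smul, HH.lin_smul, hk, map_smul, algebraMap_smul, map_smul]
        rfl }
  obtain ⟨L, hL⟩ := LinearMap.exists_extend ℓ
  let ψ : G → Module.Dual K A := fun x =>
    { toFun := fun b => L (op (gm π (b • x)))
      map_add' := fun b c => by
        rw [← map_add, ← op_add]
        congr 2
        ext y
        simp [add_smul]
      map_smul' := fun k b => by
        rw [RingHom.id_apply, ← map_smul, ← op_smul]
        congr 2
        ext y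
        simp only [gm_apply, LinearMap.smul_apply, smul_assoc]
        exact smul_comm _ _ _ }
  have hψ : ∀ x b, ψ x b = L (op (gm π (b • x))) := fun _ _ => rfl
  let h : G →ₗ[A] A :=
    { toFun := fun x => φ.symm (ψ x)
      map_add' := fun x y => by
        rw [← map_add]
        congr 1
        ext b
        rw [LinearMap.add_apply, hψ, hψ, hψ, ← map_add, ← op_add]
        congr 2
        ext z
        simp
      map_smul' := fun c x => by
        apply φ.injective
        ext b
        rw [φ.apply_symm_apply, RingHom.id_apply, smul_eq_mul, hφ', ← mul_assoc, ← hφ',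
          φ.apply_symm_apply, hψ, hψ, mul_smul] }
  have hh : ∀ x b, φ (h x) b = L (op (gm π (b • x))) := fun x b => by
    change φ (φ.symm (ψ x)) b = _
    rw [φ.apply_symm_apply, hψ]
  refine ⟨LinearMap.toSpanSingleton _ _ (HH.mk h), fun γ hγ => HH.ext fun x => ?_⟩
  apply φ.injective
  ext b
  have h1 : (op (gm π (b • γ.unop x)) : Gam A G) = op (gm π (b • x)) * γ := by
    apply unop_injective
    ext y
    simp
  have h2 : (op (gm π (b • x)) : Gam A G) * γ ∈ I := I.mul_mem_left _ hγ
  have h3 := LinearMap.congr_fun hL ⟨_, h2⟩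
  have h4 : (⟨_, h2⟩ : I) = (op (gm π (b • x)) : Gam A G) • (⟨γ, hγ⟩ : I) := rfl
  rw [LinearMap.toSpanSingleton_apply, HH.lin_smul, HH.lin_mk, hh, h1, hφ']
  refine h3.trans ?_
  change φ 1 ((g ⟨_, h2⟩).lin (ι 1)) = _
  rw [h4, map_smul, HH.lin_smul, unop_op, gm_apply, hπ, one_smul, map_smul, smul_eq_mul]

end

theorem gam_finite (K : Type u) [Field K] [Algebra K A] [FiniteDimensional K A] [Module K G]
    [IsScalarTower K A G] [Module.Finite A G] : FiniteDimensional K (Gam A G) := by
  have : Module.Finite K G := Module.Finite.trans A G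
  have : Module.Finite K (Module.End A G) :=
    Module.Finite.of_injective (LinearMap.restrictScalarsₗ K A G G K)
      (LinearMap.restrictScalars_injective K)
  infer_instance

end Crest.Agent.R186
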