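import Crest.Agent.R186.Basic
import Crest.Agent.R186.GammaAux2
import Crest.Prelude.Def_SymmetricAlgebra
import Crest.Prelude.Def_Tilting

/-! Row 186, task Gamma (+ S0282–S0285).  `A` symmetric, `T : CR k A` with positive Tate vanishing,
`M = ker (d 0) ⊆ P 1` (or any syzygy), `G = A × M`, `Γ = (End_A G)ᵐᵒᵖ`, `H N = G →ₗ[A] N` (left
`Γ`-module by precomposition), `H G ≃ Γ`.
* `H A` is projective (summand of `H G`) and injective: `H A ≃ Dual k G`; a `Γ`-map
  `Φ : N → H A` corresponds to the form `ℓ n = ε (Φ n (1,0))` (`ε = φ 1` the symmetrizing form),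
  inverse `ε (b * Φ n x) = ℓ (γ_{b x} • n)` with `γ_x (a,m) = a • x`; forms extend along injections.
* `0 → H K_j → H P_j → H K_{j-1} → 0` (`K_j = ker d ⊆ P_j`, `j ≤ 1`) is exact because a map
  `M → K_{j-1}` lifts to `P_j` (`T.Van`: precompose with `P 2 → M`, extend to `P 1`, `T.lift`).
* a `Γ`-linear retraction of `H K_j → H P_j` gives an `A`-linear retraction of `K_j → P_j`
  (evaluate at `(1,0)`), contradicting `NP`.  Hence `H K_{j}` has projective dimension `1 - j`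
  (S0283), `Γ = H A × H M` has the coresolution by the projective-injective `H (A × P 1), H P 0, …`
  and infinite injective dimension (S0284), `W = H A` is Wakamatsu tilting and not tilting (S0285),
  and a simple module `S` killed by the idempotent `e` (projection on `A`; `Γ e Γ ≠ Γ` because `M`
  is not projective) has `Hom(S, H P) = 0` for all projective `P`, so `Ext^i(S, Γ) = 0` (S0282).
State the four conclusions exactly as in the templates, for a field `K : Type u` and `A : Type u`. -/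

set_option autoImplicit false

namespace Crest.Agent.R186

open CategoryTheory Crest.AlgebraR

universe u

section
variable {K : Type u} [Field K] {A : Type u} [Ring A] [Algebra K A] (T : CR K A)

/-- the module `M = ker (d 0)` -/
abbrev CR.MM : Type u := LinearMap.ker (T.d 0)

/-- the generator `A × M` -/
abbrev CR.GG : Type u := A × T.MM

/-- the projective cover map onto a kernel -/
def CR.pk (m : ℤ) : T.P (m + 1 + 1) →ₗ[A] LinearMap.ker (T.d m) :=
  (T.d (m + 1)).codRestrict _ fun x => T.d_d m x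

theorem CR.pk_surj (m : ℤ) : Function.Surjective (T.pk m) := by
  rintro ⟨y, hy⟩
  obtain ⟨x, rfl⟩ := (T.exact m y).1 hy
  exact ⟨x, rfl⟩

instance : Module.Finite A T.MM := Module.Finite.of_surjective _ (T.pk_surj 0)

theorem CR.not_proj_GG (hN : ∀ m, T.NP m) : ¬ Module.Projective A T.GG := by
  intro h
  have hM : Module.Projective A T.MM :=
    Module.Projective.of_split (LinearMap.inr A A T.MM) (LinearMap.snd A A T.MM) rfl
  obtain ⟨s, hs⟩ := Module.projective_lifting_property (T.pk 0) LinearMap.id (T.pk_surj 0)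
  obtain ⟨g, hg⟩ := T.ta' T.MM (0 + 1) (T.pk 0)
    (LinearMap.ext fun x => Subtype.ext (T.d_d (0 + 1) x))
  refine hN (0 + 1) ⟨s ∘ₗ g, LinearMap.ext fun x => ?_⟩
  have h1 : g (T.d (0 + 1) x) = T.pk 0 x := LinearMap.congr_fun hg x
  have h2 := congrArg Subtype.val (LinearMap.congr_fun hs (T.pk 0 x))
  simp only [LinearMap.comp_apply, h1]
  exact h2

theorem CR.lift_MM (hV : ∀ n m : ℤ, 1 ≤ n - m - 1 → T.Van n m) (m : ℤ) (hm : m ≤ -1)
    (f : T.MM →ₗ[A] LinearMap.ker (T.d m)) :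
    ∃ g : T.MM →ₗ[A] T.P (m + 1 + 1), T.pk m ∘ₗ g = f := by
  obtain ⟨g, hg1, hg2⟩ := hV (0 + 1) m (by omega)
    ((LinearMap.ker (T.d m)).subtype ∘ₗ f ∘ₗ T.pk 0)
    (LinearMap.ext fun x => (f (T.pk 0 x)).2)
    (LinearMap.ext fun x => by
      have : T.pk 0 (T.d (0 + 1 + 1) x) = 0 := Subtype.ext (T.d_d (0 + 1) x)
      simp only [LinearMap.comp_apply, this, map_zero, LinearMap.zero_apply])
  obtain ⟨g', hg'⟩ := T.lift _ m g hg1
  refine ⟨g' ∘ₗ (LinearMap.ker (T.d 0)).subtype, LinearMap.ext fun y => ?_⟩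
  obtain ⟨x, rfl⟩ := T.pk_surj 0 y
  apply Subtype.ext
  have h1 := LinearMap.congr_fun hg' (T.d (0 + 1) x)
  have h2 := LinearMap.congr_fun hg2 x
  exact h1.trans h2

theorem CR.lift_GG (hV : ∀ n m : ℤ, 1 ≤ n - m - 1 → T.Van n m) (m : ℤ) (hm : m ≤ -1)
    (f : T.GG →ₗ[A] LinearMap.ker (T.d m)) :
    ∃ g : T.GG →ₗ[A] T.P (m + 1 + 1), T.pk m ∘ₗ g = f := by
  obtain ⟨g₁, h₁⟩ := Module.projective_lifting_property (T.pk m) (f ∘ₗ LinearMap.inl A A T.MM)
    (T.pk_surj m)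
  obtain ⟨g₂, h₂⟩ := T.lift_MM hV m hm (f ∘ₗ LinearMap.inr A A T.MM)
  refine ⟨g₁.coprod g₂, ?_⟩
  rw [LinearMap.comp_coprod, h₁, h₂, ← LinearMap.comp_coprod, LinearMap.coprod_inl_inr,
    LinearMap.comp_id]

/-- stages of the coresolution -/
def CR.Stage (C : ModuleCat.{u} (Gam A T.GG)) : Prop :=
  ∃ (N : Type u) (_ : AddCommGroup N) (_ : Module A N) (X : Type u) (_ : AddCommGroup X)
    (_ : Module A X) (_ : Module.Finite A X) (_ : Module.Projective A X) (m : ℤ)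
    (u : N →ₗ[A] X × T.P (m + 1)), m ≤ 0 ∧ Function.Injective u ∧
    (∀ q, T.d m q.2 = 0 ↔ q ∈ Set.range u) ∧ C = ModuleCat.of _ (HH A T.GG N)

theorem CR.exists_tower (hV : ∀ n m : ℤ, 1 ≤ n - m - 1 → T.Van n m) (hN : ∀ m, T.NP m) :
    Nonempty (Tower (Gam A T.GG) (HH A T.GG A)) := by
  refine Crest.Agent.R186.exists_tower _ T.Stage (ModuleCat.of _ (HH A T.GG T.GG)) (HH.self _)
    ⟨T.GG, _, _, A, _, _, inferInstance, inferInstance, 0,
      LinearMap.prodMap LinearMap.id (LinearMap.ker (T.d 0)).subtype, le_rfl, ?_, ?_, rfl⟩ ?_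
  · rintro ⟨a, x⟩ ⟨b, y⟩ h
    simp only [LinearMap.prodMap_apply, LinearMap.id_apply, Prod.mk.injEq] at h
    exact Prod.ext h.1 (Subtype.ext h.2)
  · rintro ⟨a, p⟩
    constructor
    · intro h
      exact ⟨(a, ⟨p, h⟩), rfl⟩
    · rintro ⟨⟨b, y⟩, h⟩
      rw [← h]
      exact y.2
  rintro C ⟨N, _, _, X, _, _, _, _, m, u, hm, hu, hr, rfl⟩
  obtain ⟨m, rfl⟩ : ∃ m', m = m' + 1 := ⟨m - 1, by omega⟩
  refine ⟨ModuleCat.of _ (HH A T.GG (X × T.P (m + 1 + 1))),
    ModuleCat.of _ (HH A T.GG (LinearMap.ker (T.d m))), HH.map _ u,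
    HH.map _ (T.pk m ∘ₗ LinearMap.snd A X _), ?_, ?_, HH.retr _ _, ?_⟩
  · refine ⟨LinearMap.ker (T.d m), _, _, PUnit.{u + 1}, _, _, inferInstance, inferInstance, m,
      LinearMap.prod 0 (LinearMap.ker (T.d m)).subtype, by omega, fun x y h => ?_, ?_, rfl⟩
    · exact Subtype.ext (congrArg Prod.snd h)
    · rintro ⟨a, p⟩
      constructor
      · intro h
        exact ⟨⟨p, h⟩, rfl⟩
      · rintro ⟨y, h⟩
        rw [← h]
        exact y.2
  · refine HH.sex _ hu (fun q => ?_) fun f => ?_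
    · rw [← hr q]
      exact ⟨fun h => congrArg Subtype.val h, fun h => Subtype.ext h⟩
    · obtain ⟨g, hg⟩ := T.lift_GG hV m (by omega) f
      exact ⟨LinearMap.inr A X _ ∘ₗ g, hg⟩
  · intro h
    obtain ⟨ρ, hρ⟩ := HH.retr_down (LinearMap.inl A A T.MM) (LinearMap.fst A A T.MM)
      (fun _ => rfl) h
    let s : T.P (m + 1 + 1) →ₗ[A] T.P (m + 1 + 1) :=
      LinearMap.snd A X _ ∘ₗ u ∘ₗ ρ ∘ₗ LinearMap.inr A X _
    have hs1 : ∀ p, T.d (m + 1) (s p) = 0 := fun p => (hr _).2 ⟨_, rfl⟩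
    have hs2 : ∀ p, T.d (m + 1) p = 0 → s p = p := fun p hp => by
      obtain ⟨n, hn⟩ := (hr (0, p)).1 hp
      change (u (ρ (0, p))).2 = p
      rw [← hn, hρ, hn]
    obtain ⟨σ, hσ⟩ := T.ta' _ (m + 1) (LinearMap.id - s)
      (LinearMap.ext fun x => by simp [hs2 _ (T.d_d (m + 1) x)])
    refine hN (m + 1) ⟨σ, LinearMap.ext fun x => ?_⟩
    have := LinearMap.congr_fun hσ x
    simp only [LinearMap.comp_apply] at this ⊢
    rw [this]
    simp [hs1]

end

variable (K : Type u) [Field K] (A : Type u) [Ring A] [Algebra K A] [FiniteDimensional K A]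
  (hA : IsSymmetricAlgebra K A) (T : CR K A) (hV : ∀ n m : ℤ, 1 ≤ n - m - 1 → T.Van n m)
  (hN : ∀ m, T.NP m)

include hA hV hN

theorem gamma_simple :
    ∃ (Γ : Type u) (_ : Ring Γ) (_ : Algebra K Γ), FiniteDimensional K Γ ∧
      ∃ S : ModuleCat.{u} Γ, IsSimpleModule Γ S ∧
        ∀ i : ℕ, Subsingleton (Abelian.Ext S (ModuleCat.of Γ Γ) i) := by
  obtain ⟨t⟩ := T.exists_tower hV hN
  have := HH.injective (LinearMap.inl A A T.MM) (LinearMap.fst A A T.MM) (fun _ => rfl) K hA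
  obtain ⟨S, hS, h⟩ := HH.exists_simple (LinearMap.inl A A T.MM) (LinearMap.fst A A T.MM)
    (fun _ => rfl) (T.not_proj_GG hN)
  exact ⟨Gam A T.GG, _, inferInstance, gam_finite _ K, S, hS, t.ext_zero S h⟩

theorem gamma_pd :
    ∃ (Γ : Type u) (_ : Ring Γ) (_ : Algebra K Γ), FiniteDimensional K Γ ∧
      ∀ n : ℕ, 1 ≤ n → ∃ C : ModuleCat.{u} Γ, Module.Finite Γ C ∧
        projectiveDimension C = (n : WithBot ℕ∞) := by
  have _ := hA
  obtain ⟨t⟩ := T.exists_tower hV hN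
  obtain ⟨h1, h2⟩ := HH.proj_fin (LinearMap.inl A A T.MM) (LinearMap.fst A A T.MM) (fun _ => rfl)
  exact ⟨Gam A T.GG, _, inferInstance, gam_finite _ K, fun n hn => ⟨t.C n, t.fin n, t.pd_eq n hn⟩⟩

theorem gamma_domdim :
    ∃ (Γ : Type u) (_ : Ring Γ) (_ : Algebra K Γ), FiniteDimensional K Γ ∧
      (∃ (I : ℕ → ModuleCat.{u} Γ) (ε : Γ →ₗ[Γ] I 0) (d : ∀ j : ℕ, I j →ₗ[Γ] I (j + 1)),
        Function.Injective ε ∧ Function.Exact ε (d 0) ∧ (∀ j, Function.Exact (d j) (d (j + 1))) ∧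
        ∀ j, Module.Projective Γ (I j) ∧ Module.Injective Γ (I j)) ∧
      ∀ n : ℕ, ¬ HasInjectiveDimensionLT (ModuleCat.of Γ Γ) n := by
  obtain ⟨t⟩ := T.exists_tower hV hN
  obtain ⟨h1, h2⟩ := HH.proj_fin (LinearMap.inl A A T.MM) (LinearMap.fst A A T.MM) (fun _ => rfl)
  have := HH.injective (LinearMap.inl A A T.MM) (LinearMap.fst A A T.MM) (fun _ => rfl) K hA
  exact ⟨Gam A T.GG, _, inferInstance, gam_finite _ K, ⟨t.I, t.ε, t.d, t.ε_inj, t.exact_ε,
    t.exact_d, fun j => ⟨(t.retr j).proj, (t.retr j).inj⟩⟩, t.not_id_lt⟩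

theorem gamma_wakamatsu :
    ∃ (Γ : Type u) (_ : Ring Γ) (_ : Algebra K Γ), FiniteDimensional K Γ ∧
      ∃ (W : Type u) (_ : AddCommGroup W) (_ : Module Γ W), Module.Finite Γ W ∧
        Module.Projective Γ W ∧ Module.Injective Γ W ∧
        IsWakamatsuTilting Γ W ∧ ¬ IsTilting Γ W := by
  obtain ⟨t⟩ := T.exists_tower hV hN
  obtain ⟨h1, h2⟩ := HH.proj_fin (LinearMap.inl A A T.MM) (LinearMap.fst A A T.MM) (fun _ => rfl)
  have := HH.injective (LinearMap.inl A A T.MM) (LinearMap.fst A A T.MM) (fun _ => rfl) K hA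
  exact ⟨Gam A T.GG, _, inferInstance, gam_finite _ K, HH A T.GG A, _, _, h2, h1, this,
    t.wakamatsu, t.not_tilting⟩

end Crest.Agent.R186
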