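import Crest.Agent.R186.Basic

/-! Row 186: linear algebra (characteristic two normalisation, contractions, trace pairing). -/

set_option autoImplicit false

namespace Crest.Agent.R186

section Char2

variable (k : Type*) [Field k] [CharP k 2] {X : Type*} [AddCommGroup X] [Module k X]
include k

theorem tt (x : X) : x + x = 0 := by
  rw [← two_smul k x, CharTwo.two_eq_zero, zero_smul]

theorem neg2 (x : X) : -x = x := by
  rw [neg_eq_iff_add_eq_zero, tt k]

theorem zs2 (x : X) : (2 : ℤ) • x = 0 := by rw [two_zsmul, tt k]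
theorem zs4 (x : X) : (4 : ℤ) • x = 0 := by
  rw [show (4 : ℤ) = 2 * 2 from rfl, mul_smul, zs2 k]
theorem zs6 (x : X) : (6 : ℤ) • x = 0 := by
  rw [show (6 : ℤ) = 2 * 3 from rfl, mul_smul, zs2 k]
theorem zsm2 (x : X) : (-2 : ℤ) • x = 0 := by rw [neg_smul, zs2 k, neg_zero]
theorem zsm4 (x : X) : (-4 : ℤ) • x = 0 := by rw [neg_smul, zs4 k, neg_zero]
theorem zsm6 (x : X) : (-6 : ℤ) • x = 0 := by rw [neg_smul, zs6 k, neg_zero]

theorem eq_of_add_eq_zero {x y : X} (h : x + y = 0) : x = y := by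
  rw [← neg2 k y]; exact eq_neg_of_add_eq_zero_left h

end Char2

/-- closes `e = 0` when `e` vanishes after `abel` normalisation modulo two -/
macro "c2" k:term : tactic =>
  `(tactic| (first
    | abel1
    | (abel_nf
       simp only [zs2 $k, zs4 $k, zs6 $k, zsm2 $k, zsm4 $k, zsm6 $k, add_zero, zero_add,
         Int.reduceNeg])))

/-- `linear_combination` modulo two -/
macro "lc2" k:term:max e:term : tactic =>
  `(tactic| linear_combination (norm := c2 $k) $e:term)

theorem exists_ginv {k V W : Type*} [Field k] [AddCommGroup V] [Module k V] [AddCommGroup W]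
    [Module k W] (d : V →ₗ[k] W) : ∃ t : W →ₗ[k] V, ∀ x, d (t (d x)) = d x := by
  obtain ⟨r, hr⟩ := d.rangeRestrict.exists_rightInverse_of_surjective d.range_rangeRestrict
  obtain ⟨t, ht⟩ := LinearMap.exists_extend r
  refine ⟨t, fun x => ?_⟩
  have h1 : t (d x) = r (d.rangeRestrict x) := LinearMap.congr_fun ht (d.rangeRestrict x)
  have h2 := congrArg Subtype.val (LinearMap.congr_fun hr (d.rangeRestrict x))
  rw [h1]
  simpa using h2

theorem exists_contraction {k : Type*} [Field k] (P : ℤ → Type*) [∀ n, AddCommGroup (P n)]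
    [∀ n, Module k (P n)] (d : ∀ n, P (n + 1) →ₗ[k] P n)
    (hex : ∀ n, Function.Exact (d (n + 1)) (d n)) :
    ∃ s : ∀ n, P n →ₗ[k] P (n + 1), ∀ n (x : P (n + 1)),
      d (n + 1) (s (n + 1) x) + s n (d n x) = x := by
  choose t ht using fun n => exists_ginv (d n)
  -- `s' n : P (n+1) → P (n+2)`
  let s' : ∀ n, P (n + 1) →ₗ[k] P (n + 1 + 1) := fun n =>
    t (n + 1) ∘ₗ (LinearMap.id - t n ∘ₗ d n)
  have key : ∀ n (x : P (n + 1 + 1)),
      d (n + 1 + 1) (s' (n + 1) x) + s' n (d (n + 1) x) = x := by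
    intro n x
    have h0 : d (n + 1) (x - t (n + 1) (d (n + 1) x)) = 0 := by rw [map_sub, ht, sub_self]
    obtain ⟨y, hy⟩ := (hex (n + 1) _).1 h0
    have h1 : d n (d (n + 1) x) = 0 := (hex n).apply_apply_eq_zero x
    simp only [s', LinearMap.comp_apply, LinearMap.sub_apply, LinearMap.id_apply, h1, map_zero,
      sub_zero]
    rw [← hy, ht, hy]; abel
  -- reindex
  have hs : ∀ n : ℤ, ∃ m : ℤ, m + 1 = n := fun n => ⟨n - 1, by ring⟩
  let s : ∀ n, P n →ₗ[k] P (n + 1) := fun n => (Int.sub_add_cancel n 1) ▸ s' (n - 1)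
  have hs' : ∀ m, s (m + 1) = s' m := by
    intro m
    have : ∀ (a : ℤ) (h : a + 1 = m + 1), (h ▸ s' a : P (m + 1) →ₗ[k] P (m + 1 + 1)) = s' m := by
      intro a h
      obtain rfl : a = m := by omega
      rfl
    exact this _ _
  refine ⟨s, fun n x => ?_⟩
  obtain ⟨m, rfl⟩ := hs n
  rw [hs', hs']
  exact key m x

/-- every linear form on `Hom(V,W)` is a trace pairing -/
theorem exists_trace_rep {k V W : Type*} [Field k] [AddCommGroup V] [Module k V] [AddCommGroup W]
    [Module k W] [FiniteDimensional k V] [FiniteDimensional k W] (μ : (V →ₗ[k] W) →ₗ[k] k) :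
    ∃ ξ : W →ₗ[k] V, ∀ φ, μ φ = LinearMap.trace k W (φ ∘ₗ ξ) := by
  let b := Module.finBasis k V
  refine ⟨∑ i, (μ ∘ₗ LinearMap.smulRightₗ (b.coord i)).smulRight (b i), fun φ => ?_⟩
  have h1 : φ = ∑ i, (b.coord i).smulRight (φ (b i)) := by
    ext x
    conv_lhs => rw [← b.sum_repr x, map_sum]
    simp
  have h2 : φ ∘ₗ ∑ i, (μ ∘ₗ LinearMap.smulRightₗ (b.coord i)).smulRight (b i) =
      ∑ i, (μ ∘ₗ LinearMap.smulRightₗ (b.coord i)).smulRight (φ (b i)) := by
    ext x; simp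
  rw [h2, map_sum]
  conv_lhs => rw [h1, map_sum]
  refine Finset.sum_congr rfl fun i _ => ?_
  rw [LinearMap.trace_smulRight]
  rfl

theorem exists_rep {k U V W : Type*} [Field k] [AddCommGroup U] [Module k U] [AddCommGroup V]
    [Module k V] [AddCommGroup W] [Module k W] [FiniteDimensional k V] [FiniteDimensional k W]
    (S : Submodule k U) (Φ : U →ₗ[k] (V →ₗ[k] W)) (l : U →ₗ[k] k)
    (h : ∀ u ∈ S, Φ u = 0 → l u = 0) :
    ∃ ξ : W →ₗ[k] V, ∀ u ∈ S, l u = LinearMap.trace k W (Φ u ∘ₗ ξ) := by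
  have hle : LinearMap.ker (Φ.domRestrict S) ≤ LinearMap.ker (l.domRestrict S) :=
    fun u hu => h u u.2 hu
  let l1 := (LinearMap.ker (Φ.domRestrict S)).liftQ (l.domRestrict S) hle ∘ₗ
    (Φ.domRestrict S).quotKerEquivRange.symm.toLinearMap
  obtain ⟨μ, hμ⟩ := LinearMap.exists_extend l1
  obtain ⟨ξ, hξ⟩ := exists_trace_rep μ
  refine ⟨ξ, fun u hu => ?_⟩
  rw [← hξ]
  have := LinearMap.congr_fun hμ ⟨Φ u, ⟨⟨u, hu⟩, rfl⟩⟩
  simp only [LinearMap.comp_apply, Submodule.subtype_apply, l1, LinearEquiv.coe_coe] at this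
  rw [this]
  have h3 := LinearMap.quotKerEquivRange_symm_apply_image (Φ.domRestrict S) ⟨u, hu⟩ ⟨⟨u, hu⟩, rfl⟩
  erw [h3]
  rfl

theorem trace_eq_finrank_range {k V W : Type*} [Field k] [AddCommGroup V] [Module k V]
    [AddCommGroup W] [Module k W] [FiniteDimensional k W] (d : V →ₗ[k] W) (s : W →ₗ[k] V)
    (h : ∀ x, d (s (d x)) = d x) :
    LinearMap.trace k W (d ∘ₗ s) = (Module.finrank k (LinearMap.range d) : k) := by
  have : LinearMap.IsProj (LinearMap.range d) (d ∘ₗ s) :=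
    ⟨fun x => ⟨s x, rfl⟩, by rintro _ ⟨x, rfl⟩; exact h x⟩
  exact this.trace

/-- an endomorphism of a finite-dimensional space that is onto modulo an invariant subspace is
injective modulo it -/
theorem inj_mod_of_surj_mod {k V : Type*} [Field k] [AddCommGroup V] [Module k V]
    [FiniteDimensional k V] (Z B : Submodule k V) (Ψ : V →ₗ[k] V) (hZ : ∀ x ∈ Z, Ψ x ∈ Z)
    (hB : ∀ x ∈ B, Ψ x ∈ B) (hs : ∀ y ∈ Z, ∃ x ∈ Z, y - Ψ x ∈ B) (x : V) (hx : x ∈ Z)
    (hΨ : Ψ x ∈ B) : x ∈ B := by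
  let B' : Submodule k Z := B.comap Z.subtype
  let Ψ' : Z →ₗ[k] Z := Ψ.restrict hZ
  let Q : (Z ⧸ B') →ₗ[k] (Z ⧸ B') := B'.mapQ B' Ψ' (fun y hy => hB _ hy)
  have hsurj : Function.Surjective Q := by
    intro y
    obtain ⟨y, rfl⟩ := B'.mkQ_surjective y
    obtain ⟨x, hx, hxy⟩ := hs y y.2
    refine ⟨B'.mkQ ⟨x, hx⟩, ?_⟩
    simp only [Q, Submodule.mkQ_apply, Submodule.mapQ_apply]
    rw [eq_comm, Submodule.Quotient.eq]
    exact hxy
  have hinj : Function.Injective Q := LinearMap.injective_iff_surjective.2 hsurj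
  have : B'.mkQ ⟨x, hx⟩ = 0 := by
    apply hinj
    simp only [Q, Submodule.mkQ_apply, Submodule.mapQ_apply, map_zero]
    rw [Submodule.Quotient.mk_eq_zero]
    exact hΨ
  exact (Submodule.Quotient.mk_eq_zero B').1 this

/-- if the kernel of an endomorphism is detected by one linear form, the cokernel on an invariant
subspace is spanned by one vector -/
theorem coker_le_one {k V : Type*} [Field k] [AddCommGroup V] [Module k V]
    [FiniteDimensional k V] (Z : Submodule k V) (Ψ : V →ₗ[k] V) (hZ : ∀ x ∈ Z, Ψ x ∈ Z)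
    (l : V →ₗ[k] k) (p : Prop) (h : ∀ x, Ψ x = 0 → (p ∨ l x = 0) → x = 0) :
    ∃ y₀ ∈ Z, ∀ y ∈ Z, ∃ (c : k) (x : V), (p → c = 0) ∧ x ∈ Z ∧ y = c • y₀ + Ψ x := by
  let Ψ' : Z →ₗ[k] Z := Ψ.restrict hZ
  by_cases hs : Function.Surjective Ψ'
  · refine ⟨0, Z.zero_mem, fun y hy => ?_⟩
    obtain ⟨x, hx⟩ := hs ⟨y, hy⟩
    exact ⟨0, x, fun _ => rfl, x.2, by
      rw [smul_zero, zero_add]; exact (congrArg Subtype.val hx).symm⟩
  · have hp : ¬ p := fun hp => hs (LinearMap.injective_iff_surjective.1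
      ((injective_iff_map_eq_zero _).2 fun x hx =>
        Subtype.ext (h x (congrArg Subtype.val hx) (Or.inl hp))))
    have hk : Module.finrank k (LinearMap.ker Ψ') ≤ 1 := by
      have : Function.Injective (l ∘ₗ Z.subtype ∘ₗ (LinearMap.ker Ψ').subtype) := by
        refine (injective_iff_map_eq_zero _).2 fun x hx => Subtype.ext (Subtype.ext ?_)
        exact h _ (congrArg Subtype.val x.2) (Or.inr hx)
      simpa using LinearMap.finrank_le_finrank_of_injective this
    have hq : Module.finrank k (Z ⧸ LinearMap.range Ψ') ≤ 1 := by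
      have h1 := LinearMap.finrank_range_add_finrank_ker Ψ'
      have h2 := Submodule.finrank_quotient_add_finrank (LinearMap.range Ψ')
      omega
    obtain ⟨v, hv⟩ := finrank_le_one_iff.1 hq
    obtain ⟨y₀, rfl⟩ := (LinearMap.range Ψ').mkQ_surjective v
    refine ⟨y₀, y₀.2, fun y hy => ?_⟩
    obtain ⟨c, hc⟩ := hv ((LinearMap.range Ψ').mkQ ⟨y, hy⟩)
    rw [← map_smul, Submodule.mkQ_apply, Submodule.mkQ_apply, eq_comm,
      Submodule.Quotient.eq] at hc
    obtain ⟨x, hx⟩ := hc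
    refine ⟨c, x, fun h => absurd h hp, x.2, ?_⟩
    have := congrArg Subtype.val hx
    simp only [Ψ', LinearMap.coe_restrict_apply, AddSubgroupClass.coe_sub,
      SetLike.val_smul] at this
    rw [this]; abel

example (k : Type*) [Field k] [CharP k 2] {X : Type*} [AddCommGroup X] [Module k X] (a b c e : X)
    (h1 : a + b = c) (h2 : c + e = 0) : a = b + e := by
  lc2 k (h1 + h2)

end Crest.Agent.R186
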