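import Crest.Agent.R186.Contr

/-! Row 186: complexes of projective modules given by matrices. -/

set_option autoImplicit false
set_option linter.unusedSectionVars false
set_option linter.unusedSimpArgs false

namespace Crest.Agent.R186

open scoped TensorProduct

universe u

variable {k : Type u} [Field k] [CharP k 2] {R R' : Type u} [Ring R] [Algebra k R] [Ring R']
  [Algebra k R']

section Am

variable {V V' : Type*} [AddCommGroup V] [Module k V] [AddCommGroup V'] [Module k V']
variable {I J I' J' : Type*}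

/-- matrix of operators attached to a matrix over `R` -/
noncomputable def am (α : R →ₗ[k] (V →ₗ[k] V)) (A : I → J →₀ R) : I → J →₀ (V →ₗ[k] V) :=
  fun i => (A i).mapRange α (map_zero α)

@[simp] theorem am_apply (α : R →ₗ[k] (V →ₗ[k] V)) (A : I → J →₀ R) (i : I) (j : J) :
    am α A i j = α (A i j) := rfl

theorem am_add (α : R →ₗ[k] (V →ₗ[k] V)) (A B : I → J →₀ R) : am α (A + B) = am α A + am α B := by
  funext i; ext j : 1; simp

theorem am_single (α : R →ₗ[k] (V →ₗ[k] V)) (σ : I → J) (a : I → R) :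
    am α (fun i => Finsupp.single (σ i) (a i)) = fun i => Finsupp.single (σ i) (α (a i)) := by
  funext i; exact Finsupp.mapRange_single

variable (k) in
/-- tensor product of matrices -/
noncomputable def mt (A : I → J →₀ R) (B : I' → J' →₀ R') : I × I' → J × J' →₀ R ⊗[k] R' :=
  fun p => finsuppTensorFinsupp k k R R' J J' (A p.1 ⊗ₜ B p.2)

@[simp] theorem mt_apply (A : I → J →₀ R) (B : I' → J' →₀ R') (p : I × I') (q : J × J') :
    mt k A B p q = A p.1 q.1 ⊗ₜ[k] B p.2 q.2 :=
  finsuppTensorFinsupp_apply _ _ _ _ _ _ _ _ _ _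

variable {α : R →ₗ[k] (V →ₗ[k] V)} {α' : R' →ₗ[k] (V' →ₗ[k] V')}
  {β : R ⊗[k] R' →ₗ[k] (V ⊗[k] V' →ₗ[k] V ⊗[k] V')}

theorem cx_mt (hβ : ∀ r r', β (r ⊗ₜ r') = TensorProduct.map (α r) (α' r')) (A : I → J →₀ R)
    (B : I' → J' →₀ R') (x : (I →₀ V) ⊗[k] (I' →₀ V')) :
    cx (am β (mt k A B)) (finsuppTensorFinsupp k k V V' I I' x) =
      finsuppTensorFinsupp k k V V' J J' (TensorProduct.map (cx (am α A)) (cx (am α' B)) x) :=
  cx_tensor _ _ _ (fun i i' j j' => by simp [hβ]) x

theorem isContr_mt (hβ : ∀ r r', β (r ⊗ₜ r') = TensorProduct.map (α r) (α' r'))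
    {E₁ D₁ : I → I →₀ R} {E₂ D₂ : I' → I' →₀ R'} {η : I →₀ V} {η' : I' →₀ V'}
    (h : IsContr (cx (am α E₁)) (cx (am α D₁)) η) (h' : IsContr (cx (am α' E₂)) (cx (am α' D₂)) η') :
    IsContr (cx (am β (mt k E₁ E₂))) (cx (am β (mt k D₁ E₂ + mt k E₁ D₂)))
      (finsuppTensorFinsupp k k V V' I I' (η ⊗ₜ η')) :=
  (h.tensor h').transport _ (cx_mt hβ _ _) fun x => by
    rw [am_add, cx_add, cx_mt hβ, cx_mt hβ, LinearMap.add_apply, map_add]

/-- a quasi-isomorphism of complexes with one-dimensional homology -/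
structure Cone (α : R →ₗ[k] (V →ₗ[k] V)) (EP DP : I → I →₀ R) (EQ DQ : J → J →₀ R)
    (C : I → J →₀ R) (η : I →₀ V) : Prop where
  cP : IsContr (cx (am α EP)) (cx (am α DP)) η
  cQ : IsContr (cx (am α EQ)) (cx (am α DQ)) (cx (am α C) η)
  cd : ∀ x, cx (am α C) (cx (am α DP) x) = cx (am α DQ) (cx (am α C) x)
  ec : ∀ x, cx (am α EQ) (cx (am α C) x) = cx (am α C) x
  ce : ∀ x, cx (am α C) (cx (am α EP) x) = cx (am α C) x

theorem Cone.tensor (hβ : ∀ r r', β (r ⊗ₜ r') = TensorProduct.map (α r) (α' r'))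
    {EP DP : I → I →₀ R} {EQ DQ : J → J →₀ R} {C : I → J →₀ R} {η : I →₀ V}
    {EP' DP' : I' → I' →₀ R'} {EQ' DQ' : J' → J' →₀ R'} {C' : I' → J' →₀ R'} {η' : I' →₀ V'}
    (h : Cone α EP DP EQ DQ C η) (h' : Cone α' EP' DP' EQ' DQ' C' η') :
    Cone β (mt k EP EP') (mt k DP EP' + mt k EP DP') (mt k EQ EQ') (mt k DQ EQ' + mt k EQ DQ')
      (mt k C C') (finsuppTensorFinsupp k k V V' I I' (η ⊗ₜ η')) := by
  refine ⟨isContr_mt hβ h.cP h'.cP, ?_, fun x => ?_, fun x => ?_, fun x => ?_⟩
  · rw [cx_mt hβ]; exact isContr_mt hβ h.cQ h'.cQ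
  · obtain ⟨x, rfl⟩ := (finsuppTensorFinsupp k k V V' I I').surjective x
    tind x with a b
    simp only [am_add, cx_add, cx_mt hβ, map_add]
    simp [h.cd, h'.cd, h.ec, h'.ec, h.ce, h'.ce]
  · obtain ⟨x, rfl⟩ := (finsuppTensorFinsupp k k V V' I I').surjective x
    simp only [cx_mt hβ]
    tind x with a b
    simp [h.ec, h'.ec]
  · obtain ⟨x, rfl⟩ := (finsuppTensorFinsupp k k V V' I I').surjective x
    simp only [cx_mt hβ]
    tind x with a b
    simp [h.ce, h'.ce]

end Am

variable (k R) in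
/-- right multiplication -/
noncomputable def aL : R →ₗ[k] (R →ₗ[k] R) := (LinearMap.mul k R).flip

@[simp] theorem aL_apply (r v : R) : aL k R r v = v * r := rfl

variable (k R) in
/-- the action on a module -/
noncomputable def aN (N : Type*) [AddCommGroup N] [Module k N] [Module R N] [IsScalarTower k R N] :
    R →ₗ[k] (N →ₗ[k] N) := (Algebra.lsmul k k N : R →ₐ[k] Module.End k N).toLinearMap

@[simp] theorem aN_apply (N : Type*) [AddCommGroup N] [Module k N] [Module R N]
    [IsScalarTower k R N] (r : R) (v : N) : aN k R N r v = r • v := rfl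

theorem aL_tmul (r : R) (r' : R') :
    aL k (R ⊗[k] R') (r ⊗ₜ r') = TensorProduct.map (aL k R r) (aL k R' r') := by
  ext a b; simp

theorem aN_tmul (r : R) (r' : R') :
    aN k (R ⊗[k] R') (R ⊗[k] R') (r ⊗ₜ r') = TensorProduct.map (aN k R R r) (aN k R' R' r') := by
  ext a b; simp

variable (k) in
/-- the `R`-linear map of free modules given by a matrix -/
noncomputable def cxL {I J : Type*} (A : I → J →₀ R) : (I →₀ R) →ₗ[R] (J →₀ R) where
  toFun := cx (am (aL k R) A)
  map_add' := map_add _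
  map_smul' r x := by
    rw [RingHom.id_apply]
    find x with i v
    ext j
    rw [Finsupp.smul_single, cx_single, Finsupp.smul_apply, cx_single]
    simp [mul_assoc]

theorem cxL_apply {I J : Type*} (A : I → J →₀ R) (x : I →₀ R) :
    cxL k A x = cx (am (aL k R) A) x := rfl

theorem pair_adj {I J : Type*} (N : Type*) [AddCommGroup N] [Module k N] [Module R N]
    [IsScalarTower k R N] (A : I → J →₀ R) (At : J → I →₀ R) (h : ∀ i j, At j i = A i j)
    (v : J →₀ N) (x : I →₀ R) :
    Finsupp.linearCombination R v (cxL k A x) =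
      Finsupp.linearCombination R (cx (am (aN k R N) At) v) x := by
  classical
  find x with i r
  induction v using Finsupp.induction_linear with
  | zero => simp
  | add v w hv hw =>
    simp only [map_add, Finsupp.coe_add, Finsupp.linearCombination_single, Pi.add_apply,
      smul_add] at hv hw ⊢
    rw [← hv, ← hw]
    simp [Finsupp.linearCombination_apply, Finsupp.sum, Finset.sum_add_distrib]
  | single j n =>
    rw [Finsupp.linearCombination_single, cx_single, am_apply, aN_apply, h,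
      Finsupp.linearCombination_apply, Finsupp.sum, Finset.sum_eq_single j]
    · simp [cxL_apply, mul_smul]
    · intro b _ hb; simp [Finsupp.single_apply, hb.symm]
    · intro hj
      rw [Finsupp.notMem_support_iff.1 hj, zero_smul]

variable (R) in
/-- a graded family of idempotents -/
structure GI where
  I : Type
  deg : I → ℤ
  e : I → R
  ee : ∀ i, e i * e i = e i
  fin : ∀ n, {i | deg i = n}.Finite

namespace GI

variable (X Y : GI R)

/-- the diagonal matrix of the idempotents -/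
noncomputable def Eps : X.I → X.I →₀ R := fun i => Finsupp.single i (X.e i)

theorem eps_apply {V : Type*} [AddCommGroup V] [Module k V] (α : R →ₗ[k] (V →ₗ[k] V))
    (x : X.I →₀ V) (i : X.I) : cx (am α X.Eps) x i = α (X.e i) (x i) := by
  classical
  rw [cx_apply_single _ _ i i (fun i' hi' => by simp [Eps, Finsupp.single_apply, hi'])]
  simp [Eps]

/-- the projective module in degree `n` -/
def M (n : ℤ) : Submodule R (X.I →₀ R) where
  carrier := {x | (∀ i, x i * X.e i = x i) ∧ ∀ i, X.deg i ≠ n → x i = 0}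
  add_mem' := fun ha hb => ⟨fun i => by simp [add_mul, ha.1 i, hb.1 i],
    fun i hi => by simp [ha.2 i hi, hb.2 i hi]⟩
  zero_mem' := ⟨fun i => by simp, fun i _ => rfl⟩
  smul_mem' := fun c x ha => ⟨fun i => by simp [mul_assoc, ha.1 i], fun i hi => by simp [ha.2 i hi]⟩

/-- generators -/
noncomputable def gen (n : ℤ) (i : X.I) (hi : X.deg i = n) : X.M n :=
  ⟨Finsupp.single i (X.e i), fun j => by
    classical
    rw [Finsupp.single_apply]; split_ifs with h
    · subst h; exact X.ee i
    · simp, fun j hj => by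
    classical
    rw [Finsupp.single_apply, if_neg]; rintro rfl; exact hj hi⟩

theorem sum_gen (n : ℤ) [Fintype {i // X.deg i = n}] (x : X.M n) :
    ∑ i : {i // X.deg i = n}, x.1 i.1 • X.gen n i.1 i.2 = x := by
  classical
  ext j
  simp only [gen, AddSubmonoidClass.coe_finsetSum, SetLike.val_smul, Finsupp.smul_single,
    smul_eq_mul, Finsupp.finsetSum_apply, Finsupp.single_apply, x.2.1]
  by_cases hj : X.deg j = n
  · rw [Finset.sum_eq_single ⟨j, hj⟩]
    · simp
    · intro b _ hb; rw [if_neg fun h => hb (Subtype.ext h)]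
    · simp
  · rw [x.2.2 j hj]
    exact Finset.sum_eq_zero fun i _ => if_neg fun h : i.1 = j => hj (h ▸ i.2)

theorem fin_proj (n : ℤ) : Module.Finite R (X.M n) ∧ Module.Projective R (X.M n) := by
  have : Fintype {i // X.deg i = n} := (X.fin n).fintype
  exact finite_projective_of_dualBasis (ι := {i // X.deg i = n})
    (fun i => Finsupp.lapply i.1 ∘ₗ (X.M n).subtype) (fun i => X.gen n i.1 i.2) (X.sum_gen n)

instance (n : ℤ) : Module.Finite R (X.M n) := (X.fin_proj n).1
instance (n : ℤ) : Module.Projective R (X.M n) := (X.fin_proj n).2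

theorem hom_ext {N : Type*} [AddCommGroup N] [Module R N] {n : ℤ} (f g : X.M n →ₗ[R] N)
    (h : ∀ i hi, f (X.gen n i hi) = g (X.gen n i hi)) : f = g := by
  have : Fintype {i // X.deg i = n} := (X.fin n).fintype
  ext x
  rw [← X.sum_gen n x, map_sum, map_sum]
  simp [h]

variable (k) in
open Classical in
/-- projection on degree `n` -/
noncomputable def π (n : ℤ) : (X.I →₀ R) →ₗ[R] X.M n :=
  LinearMap.codRestrict _ (cxL k X.Eps ∘ₗ
    { toFun := fun x => x.filter fun i => X.deg i = n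
      map_add' := fun _ _ => Finsupp.filter_add
      map_smul' := fun _ _ => Finsupp.filter_smul })
    fun x => ⟨fun i => by simp [cxL_apply, eps_apply, mul_assoc, X.ee],
      fun i hi => by simp [cxL_apply, eps_apply, Finsupp.filter_apply, hi]⟩

open Classical in
theorem π_apply (n : ℤ) (x : X.I →₀ R) (i : X.I) :
    (X.π k n x).1 i = if X.deg i = n then x i * X.e i else 0 := by
  simp only [π, LinearMap.codRestrict_apply, LinearMap.comp_apply, cxL_apply, eps_apply,
    LinearMap.coe_mk, AddHom.coe_mk, Finsupp.filter_apply, aL_apply]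
  split_ifs <;> simp

theorem π_coe (n : ℤ) (x : X.M n) : X.π k n x.1 = x := by
  ext i
  rw [π_apply]
  split_ifs with h
  · exact x.2.1 i
  · exact (x.2.2 i h).symm

theorem π_eq_zero (n : ℤ) (x : X.I →₀ R) (h : ∀ i, X.deg i = n → x i = 0) : X.π k n x = 0 := by
  ext i
  rw [π_apply]
  split_ifs with hi
  · simp [h i hi]
  · rfl

theorem eps_coe (n : ℤ) (x : X.M n) : cx (am (aL k R) X.Eps) x.1 = x.1 := by
  ext i; rw [eps_apply]; exact x.2.1 i

/-- homogeneous matrices -/
structure Hom (A : X.I → Y.I →₀ R) (r : ℤ) : Prop where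
  deg : ∀ i j, A i j ≠ 0 → Y.deg j + r = X.deg i
  eA : ∀ i j, X.e i * A i j = A i j
  Ae : ∀ i j, A i j * Y.e j = A i j

variable {X Y}

theorem Hom.eps_cx {A : X.I → Y.I →₀ R} {r : ℤ} (h : Hom X Y A r) (x : X.I →₀ R) :
    cxL k Y.Eps (cxL k A x) = cxL k A x := by
  find x with i v
  ext j; simp [cxL_apply, eps_apply, mul_assoc, h.Ae]

theorem Hom.cx_eps {A : X.I → Y.I →₀ R} {r : ℤ} (h : Hom X Y A r) (x : X.I →₀ R) :
    cxL k A (cxL k X.Eps x) = cxL k A x := by
  classical
  find x with i v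
  rw [cxL_apply X.Eps, cx_single' _ _ _ i (aL k R (X.e i)) (by simp [am, Eps])]
  ext j
  rw [cxL_apply, cxL_apply, cx_single, cx_single]
  simp [mul_assoc, h.eA]

variable (k) in
/-- the map of projective modules given by a homogeneous matrix -/
noncomputable def Hom.res {A : X.I → Y.I →₀ R} {r : ℤ} (_h : Hom X Y A r) (n m : ℤ) :
    X.M n →ₗ[R] Y.M m := Y.π k m ∘ₗ cxL k A ∘ₗ (X.M n).subtype

theorem Hom.res_π {A : X.I → Y.I →₀ R} {r : ℤ} (h : Hom X Y A r) (n m : ℤ) (hnm : m + r = n)
    (x : X.I →₀ R) : h.res k n m (X.π k n x) = Y.π k m (cxL k A x) := by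
  classical
  have e1 : ∀ x : X.I →₀ R, cxL k A (x.filter fun i => X.deg i = n) =
      (cxL k A x).filter fun j => Y.deg j = m := fun x =>
    cx_filter _ _ _ (fun i j hij => by
      have := h.deg i j (fun h0 => hij (by simp [h0]))
      omega) x
  apply Subtype.ext
  change cxL k Y.Eps ((cxL k A (cxL k X.Eps (x.filter _))).filter _) =
    cxL k Y.Eps ((cxL k A x).filter _)
  rw [h.cx_eps, e1]
  congr 1
  ext j
  simp only [Finsupp.filter_apply]
  split_ifs <;> rfl

theorem Hom.res_coe {A : X.I → Y.I →₀ R} {r : ℤ} (h : Hom X Y A r) (n m : ℤ) (hnm : m + r = n)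
    (x : X.M n) : (h.res k n m x).1 = cxL k A x.1 := by
  have hm : cxL k A x.1 ∈ Y.M m := by
    refine ⟨fun j => ?_, fun j hj => cx_apply_eq_zero _ _ _ fun i hi => ?_⟩
    · have := DFunLike.congr_fun (h.eps_cx (k := k) x.1) j
      rwa [cxL_apply, eps_apply] at this
    · by_contra h0
      have := h.deg i j (fun h1 => h0 (by simp [h1]))
      exact hi (x.2.2 i (by omega))
  exact congrArg Subtype.val (Y.π_coe (k := k) m ⟨_, hm⟩)

section ToH

variable {N : Type*} [AddCommGroup N] [Module k N] [Module R N] [IsScalarTower k R N]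

variable (k) in
/-- the values of a map on the generators -/
noncomputable def toH {n : ℤ} (f : X.M n →ₗ[R] N) : X.I →₀ N :=
  Finsupp.onFinset (X.fin n).toFinset (fun i => f (X.π k n (Finsupp.single i 1))) fun i hi => by
    classical
    rw [Set.Finite.mem_toFinset]
    by_contra h
    refine hi (by rw [π_eq_zero, map_zero]; intro j hj; rw [Finsupp.single_apply, if_neg]
                  rintro rfl; exact h hj)

theorem toH_apply {n : ℤ} (f : X.M n →ₗ[R] N) (i : X.I) :
    toH k f i = f (X.π k n (Finsupp.single i 1)) := rfl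

theorem pair_toH {n : ℤ} (f : X.M n →ₗ[R] N) (x : X.I →₀ R) :
    Finsupp.linearCombination R (toH k f) x = f (X.π k n x) := by
  find x with i r
  rw [Finsupp.linearCombination_single, toH_apply, ← map_smul, ← map_smul]
  simp

theorem cx_toH {A : X.I → Y.I →₀ R} {r : ℤ} (h : Hom X Y A r) (At : Y.I → X.I →₀ R)
    (hT : ∀ i j, At j i = A i j) (n m : ℤ) (hnm : m + r = n) (f : Y.M m →ₗ[R] N) :
    cx (am (aN k R N) At) (toH k f) = toH k (f ∘ₗ h.res k n m) := by
  ext i
  have := pair_adj (k := k) N A At hT (toH k f) (Finsupp.single i 1)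
  rw [Finsupp.linearCombination_single, one_smul, pair_toH] at this
  rw [← this, toH_apply, LinearMap.comp_apply, h.res_π n m hnm]

theorem eps_toH {n : ℤ} (f : X.M n →ₗ[R] N) :
    cx (am (aN k R N) X.Eps) (toH k f) = toH k f := by
  classical
  ext i
  rw [eps_apply, aN_apply, toH_apply, ← map_smul, ← map_smul]
  congr 1
  ext j
  simp only [π_apply, Finsupp.smul_single, smul_eq_mul, mul_one, Finsupp.single_apply]
  split_ifs with h1 h2
  · subst h2; simp [X.ee]
  · rfl
  · rfl

theorem toH_zero {n : ℤ} : toH k (0 : X.M n →ₗ[R] N) = 0 := by ext i; rfl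

theorem toH_add {n : ℤ} (f g : X.M n →ₗ[R] N) : toH k (f + g) = toH k f + toH k g := by ext i; rfl

/-- the map with given values on the generators -/
noncomputable def ofH (n : ℤ) (v : X.I →₀ N) : X.M n →ₗ[R] N :=
  Finsupp.linearCombination R v ∘ₗ (X.M n).subtype

theorem ofH_toH {n : ℤ} (f : X.M n →ₗ[R] N) : ofH n (toH k f) = f := by
  ext x; simp [ofH, pair_toH, π_coe]

theorem ofH_res {A : X.I → Y.I →₀ R} {r : ℤ} (h : Hom X Y A r) (At : Y.I → X.I →₀ R)
    (hT : ∀ i j, At j i = A i j) (n m : ℤ) (hnm : m + r = n) (v : Y.I →₀ N) :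
    ofH m v ∘ₗ h.res k n m = ofH n (cx (am (aN k R N) At) v) := by
  ext x
  simp only [ofH, LinearMap.comp_apply, Submodule.subtype_apply, h.res_coe n m hnm]
  exact pair_adj N A At hT v x.1

theorem ofH_add (n : ℤ) (v w : X.I →₀ N) : ofH n (v + w) = ofH n v + ofH n w := by
  ext x
  simp [ofH, Finsupp.linearCombination_apply, Finsupp.sum, Finset.sum_add_distrib]

theorem ofH_smul (n : ℤ) (c : k) (v : X.I →₀ N) : ofH n (c • v) = c • ofH n v := by
  ext x
  simp [ofH, Finsupp.linearCombination_apply, Finsupp.sum, Finset.smul_sum, smul_comm c]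

theorem ofH_eq_zero (n : ℤ) (v : X.I →₀ N) (h : ∀ i, X.deg i = n → v i = 0) : ofH n v = 0 := by
  ext x
  simp only [ofH, LinearMap.comp_apply, Submodule.subtype_apply, Finsupp.linearCombination_apply,
    Finsupp.sum, LinearMap.zero_apply]
  refine Finset.sum_eq_zero fun i hi => ?_
  by_cases hd : X.deg i = n
  · rw [h i hd, smul_zero]
  · rw [x.2.2 i hd, zero_smul]

end ToH

variable (k) in
/-- tensor product, given the finiteness -/
noncomputable def tensor (X : GI R) (Y : GI R')
    (h : ∀ n, {p : X.I × Y.I | X.deg p.1 + Y.deg p.2 = n}.Finite) : GI (R ⊗[k] R') where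
  I := X.I × Y.I
  deg p := X.deg p.1 + Y.deg p.2
  e p := X.e p.1 ⊗ₜ Y.e p.2
  ee p := by simp [X.ee, Y.ee]
  fin := h

theorem tensor_Eps (X : GI R) (Y : GI R') (h) : (tensor k X Y h).Eps = mt k X.Eps Y.Eps := by
  funext p
  exact (finsuppTensorFinsupp_single _ _ _ _ _ _ _ _ _ _).symm

theorem hom_Eps (X : GI R) : Hom X X X.Eps 0 := by
  classical
  refine ⟨fun i j h => ?_, fun i j => ?_, fun i j => ?_⟩
  · simp only [Eps, Finsupp.single_apply, ne_eq, ite_eq_right_iff, Classical.not_imp] at h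
    rw [h.1, add_zero]
  · simp only [Eps, Finsupp.single_apply]; split_ifs <;> simp [X.ee]
  · simp only [Eps, Finsupp.single_apply]; split_ifs with h
    · subst h; simp [X.ee]
    · simp

theorem Hom.mt {X Y : GI R} {X' Y' : GI R'} {A : X.I → Y.I →₀ R} {B : X'.I → Y'.I →₀ R'} {r r' : ℤ}
    (h : Hom X Y A r) (h' : Hom X' Y' B r') (f1) (f2) :
    Hom (tensor k X X' f1) (tensor k Y Y' f2) (mt k A B) (r + r') := by
  refine ⟨fun p q hpq => ?_, fun p q => ?_, fun p q => ?_⟩
  · replace hpq : A p.1 q.1 ⊗ₜ[k] B p.2 q.2 ≠ 0 := fun h0 => hpq ((mt_apply A B p q).trans h0)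
    have h1 := h.deg p.1 q.1 (fun h0 => hpq (by simp [h0]))
    have h2 := h'.deg p.2 q.2 (fun h0 => hpq (by simp [h0]))
    change Y.deg q.1 + Y'.deg q.2 + _ = X.deg p.1 + X'.deg p.2
    omega
  · erw [mt_apply]; simp [tensor, h.eA, h'.eA]
  · erw [mt_apply]; simp [tensor, h.Ae, h'.Ae]

theorem Hom.add {A B : X.I → Y.I →₀ R} {r : ℤ} (h : Hom X Y A r) (h' : Hom X Y B r) :
    Hom X Y (A + B) r := by
  refine ⟨fun i j hij => ?_, fun i j => by simp [mul_add, h.eA, h'.eA],
    fun i j => by simp [add_mul, h.Ae, h'.Ae]⟩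
  by_cases hA : A i j = 0
  · exact h'.deg i j (fun h0 => hij (by simp [hA, h0]))
  · exact h.deg i j hA

theorem fin_tensor_lo (X : GI R) (Y : GI R') (hX : ∀ i, 0 ≤ X.deg i) (hY : ∀ i, 0 ≤ Y.deg i)
    (n : ℤ) : {p : X.I × Y.I | X.deg p.1 + Y.deg p.2 = n}.Finite := by
  refine ((Set.finite_Icc 0 n).biUnion fun a _ => (X.fin a).prod (Y.fin (n - a))).subset ?_
  intro p hp
  have h1 := hX p.1
  have h2 := hY p.2
  simp only [Set.mem_ofPred_eq] at hp
  simp only [Set.mem_iUnion, Set.mem_Icc, Set.mem_prod, Set.mem_ofPred_eq]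
  exact ⟨X.deg p.1, ⟨h1, by omega⟩, rfl, by omega⟩

theorem fin_tensor_hi (X : GI R) (Y : GI R') (b b' : ℤ) (hX : ∀ i, X.deg i ≤ b)
    (hY : ∀ i, Y.deg i ≤ b') (n : ℤ) : {p : X.I × Y.I | X.deg p.1 + Y.deg p.2 = n}.Finite := by
  refine ((Set.finite_Icc (n - b') b).biUnion fun a _ => (X.fin a).prod (Y.fin (n - a))).subset ?_
  intro p hp
  have h1 := hX p.1
  have h2 := hY p.2
  simp only [Set.mem_ofPred_eq] at hp
  simp only [Set.mem_iUnion, Set.mem_Icc, Set.mem_prod, Set.mem_ofPred_eq]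
  exact ⟨X.deg p.1, ⟨by omega, h1⟩, rfl, by omega⟩

end GI

end Crest.Agent.R186
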