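import Crest.Agent.R186.Tri

/-! Row 186: the complete resolution over the triangular algebra. -/

set_option autoImplicit false
set_option linter.unusedSectionVars false
set_option linter.unusedSimpArgs false

namespace Crest.Agent.R186

universe u

namespace Pkg

variable {k : Type u} [Field k] [CharP k 2] {E : Type u} [Ring E] [Algebra k E]
  [FiniteDimensional k E] (D : Pkg k E)

local notation "P" => D.T.P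
local notation "d" => D.T.d
local notation "s" => D.T.s

/-- the twisting map -/
noncomputable def ψ (n : ℤ) : P n →ₗ[E] D.G (P (n + 1)) :=
  D.gm (s n) (s n + D.κ n) ((D.tc_of_S _ (D.κ_S n)).congr fun x => by
    simp only [LinearMap.add_apply]; lc2 k (rfl : (0 : P (n + 1)) = 0))

theorem ψ_d (n : ℤ) : D.ψ n ∘ₗ d n = D.map (d (n + 1)) ∘ₗ D.ψ (n + 1) := by
  apply eq_of_add_eq_zero k
  rw [ψ, ψ, gm_comp, map_comp_gm, gm_add, gm_eq_zero]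
  refine ⟨IsE.id.congr fun x => ?_, (D.θ_H (n + 1)).congr fun x => ?_⟩
  · have := D.T.s_eq n x
    simp only [CR.dk_apply] at this
    simp only [LinearMap.add_apply, LinearMap.comp_apply, LinearMap.restrictScalars_apply,
      LinearMap.id_apply]
    lc2 k this
  · have h1 := D.T.s_eq n x
    have h2 := D.κ_eq n x
    simp only [CR.dk_apply] at h1 h2
    simp only [LinearMap.add_apply, LinearMap.comp_apply, LinearMap.restrictScalars_apply,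
      map_add, LinearEquiv.coe_coe]
    lc2 k (h1 + h2)

theorem exactG' (n : ℤ) (ξ : D.G (P (n + 1 + 1))) (h : D.map (d (n + 1)) ξ = 0) :
    ∃ ξ', D.map (d (n + 1 + 1)) ξ' = ξ := by
  obtain ⟨φ₁, φ₂, hφ, rfl⟩ := D.cls_surj ξ
  rw [map_cls, cls_eq_zero] at h
  obtain ⟨φ₁', φ₂', hφ', h1, h2⟩ := D.exactG n φ₁ φ₂ hφ h.1 h.2
  refine ⟨D.cls φ₁' φ₂' hφ', eq_of_add_eq_zero k ?_⟩
  rw [map_cls, cls_add, cls_eq_zero]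
  exact ⟨h1, h2⟩

theorem taG' (n : ℤ) (w : P (n + 1 + 1) →ₗ[E] D.G E) (h : w ∘ₗ d (n + 1 + 1) = 0) :
    ∃ w' : P (n + 1) →ₗ[E] D.G E, w' ∘ₗ d (n + 1) = w := by
  obtain ⟨ω₁, ω₂, hω, rfl⟩ := D.gm_surj w
  rw [gm_comp, gm_eq_zero] at h
  obtain ⟨ω₁', ω₂', hω', h1, h2⟩ := D.taG n ω₁ ω₂ hω h.1 h.2
  refine ⟨D.gm ω₁' ω₂' hω', eq_of_add_eq_zero k ?_⟩
  rw [gm_comp, gm_add, gm_eq_zero]
  exact ⟨h1, h2⟩

/-- the differential -/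
noncomputable def dΛ (n : ℤ) : D.Tr (P (n + 1 + 1 + 1)) (P (n + 1)) →ₗ[D.Λ]
    D.Tr (P (n + 1 + 1)) (P n) := D.mk3 (d (n + 1 + 1)) (d n) (D.ψ (n + 1))

theorem dΛ_dΛ (n : ℤ) : D.dΛ n ∘ₗ D.dΛ (n + 1) = 0 := by
  rw [dΛ, dΛ, mk3_comp, mk3_eq_zero, ψ_d]
  exact ⟨D.T.d_comp_d _, D.T.d_comp_d _, tt k _⟩

theorem exactΛ (n : ℤ) : Function.Exact (D.dΛ (n + 1)) (D.dΛ n) := by
  intro t
  constructor
  · intro h
    have h1 : d (n + 1 + 1) t.c1 = 0 := congrArg Tr.c1 h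
    have h2 : d n t.c2 = 0 := congrArg Tr.c2 h
    have h3 : D.ψ (n + 1) t.c2 + D.map (d (n + 1 + 1)) t.c3 = 0 := congrArg Tr.c3 h
    obtain ⟨x, hx⟩ := (D.T.exact _ _).1 h1
    obtain ⟨u, hu⟩ := (D.T.exact _ _).1 h2
    have h4 : D.ψ (n + 1) t.c2 = D.map (d (n + 1 + 1)) (D.ψ (n + 1 + 1) u) := by
      rw [← hu]; exact LinearMap.congr_fun (D.ψ_d (n + 1)) u
    obtain ⟨ξ, hξ⟩ := D.exactG' (n + 1) (t.c3 + D.ψ (n + 1 + 1) u) (by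
      rw [map_add, ← h4]; exact (add_comm _ _).trans h3)
    refine ⟨D.tr x u ξ, D.tr_ext hx hu ?_⟩
    change D.ψ (n + 1 + 1) u + D.map (d (n + 1 + 1 + 1)) ξ = t.c3
    lc2 k hξ
  · rintro ⟨t, rfl⟩
    exact LinearMap.congr_fun (D.dΛ_dΛ n) t

theorem taΛ (n : ℤ) (F : D.Tr (P (n + 1 + 1 + 1)) (P (n + 1)) →ₗ[D.Λ] D.Λ)
    (hF : F ∘ₗ D.dΛ (n + 1) = 0) : ∃ g : D.Tr (P (n + 1 + 1)) (P n) →ₗ[D.Λ] D.Λ,
      g ∘ₗ D.dΛ n = F := by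
  obtain ⟨n, rfl⟩ : ∃ m, n = m + 1 := ⟨n - 1, by ring⟩
  obtain ⟨f, g, w, e⟩ := D.mk3_surj (D.reg.symm.toLinearMap ∘ₗ F)
  have h : D.mk3 f g w ∘ₗ D.dΛ (n + 1 + 1) = 0 := by
    rw [e, LinearMap.comp_assoc, hF, LinearMap.comp_zero]
  rw [dΛ, mk3_comp, mk3_eq_zero] at h
  obtain ⟨h1, h2, h3⟩ := h
  obtain ⟨f', rfl⟩ := D.T.ta _ f h1
  obtain ⟨g', rfl⟩ := D.T.ta _ g h2
  obtain ⟨w', hw'⟩ := D.taG' n (w + D.map f' ∘ₗ D.ψ (n + 1 + 1)) (by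
    rw [LinearMap.add_comp, LinearMap.comp_assoc, ψ_d, ← h3]
    refine congrArg (w ∘ₗ d (n + 1 + 1) + ·) (LinearMap.ext fun x => D.map_map _ _ _))
  refine ⟨D.reg.toLinearMap ∘ₗ D.mk3 f' g' w', ?_⟩
  rw [LinearMap.comp_assoc, dΛ, mk3_comp, hw', add_assoc w, tt k, add_zero, e]
  exact LinearMap.ext fun x => D.reg.apply_symm_apply _

/-- the complete resolution over `Λ` -/
noncomputable def TΛ : CR k D.Λ :=
  CR.mk (fun n => D.Tr (P (n + 1 + 1)) (P n)) (fun _ => D.tr_fin_proj.1)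
    (fun _ => D.tr_fin_proj.2) D.dΛ D.exactΛ D.taΛ

theorem npΛ (m : ℤ) : D.TΛ.NP m := by
  rintro ⟨σ, hσ⟩
  obtain ⟨f, g, w, rfl⟩ := D.mk3_surj (X := P (m + 1 + 1)) (U := P m) (X' := P (m + 1 + 1 + 1))
    (U' := P (m + 1)) σ
  change D.dΛ m ∘ₗ D.mk3 f g w ∘ₗ D.dΛ m = D.dΛ m at hσ
  rw [dΛ, mk3_comp, mk3_comp] at hσ
  exact D.np _ ⟨f, (D.mk3_inj hσ).1⟩

theorem vanΛ (n m : ℤ) (h0 : n - m - 1 ≠ 0) (h1 : n - m - 1 ≠ -1) : D.TΛ.Van n m := by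
  obtain ⟨n, rfl⟩ : ∃ n', n = n' + 1 := ⟨n - 1, by ring⟩
  intro F hdF hFd
  obtain ⟨f, g, w, rfl⟩ := D.mk3_surj (X := P (n + 1 + 1 + 1 + 1)) (U := P (n + 1 + 1))
    (X' := P (m + 1 + 1 + 1)) (U' := P (m + 1)) F
  change D.dΛ m ∘ₗ D.mk3 f g w = 0 at hdF
  change D.mk3 f g w ∘ₗ D.dΛ (n + 1 + 1) = 0 at hFd
  change ∃ g' : D.Tr (P (n + 1 + 1 + 1)) (P (n + 1)) →ₗ[D.Λ] D.Tr (P (m + 1 + 1 + 1)) (P (m + 1)),
    D.dΛ m ∘ₗ g' = 0 ∧ g' ∘ₗ D.dΛ (n + 1) = D.mk3 f g w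
  obtain ⟨ω₁, ω₂, hω, rfl⟩ := D.gm_surj w
  have hdF' := hdF
  have hFd' := hFd
  rw [dΛ, mk3_comp, mk3_eq_zero, ψ, gm_comp, map_comp_gm, gm_add, gm_eq_zero] at hdF' hFd'
  obtain ⟨f', ζ', hf', hζ', a1, a2, a3⟩ := D.step1 (n + 1) m h0 (f.restrictScalars k)
    (g.restrictScalars k) ω₁ ω₂ (LinearMap.congr_fun hdF'.1) (LinearMap.congr_fun hdF'.2.1)
    (LinearMap.congr_fun hFd'.1) (LinearMap.congr_fun hFd'.2.1) hdF'.2.2.1 hdF'.2.2.2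
    hFd'.2.2.1 hFd'.2.2.2
  set F' := D.mk3 hf'.toE (d (m + 1) ∘ₗ hζ'.toE) (D.ψ (m + 1 + 1) ∘ₗ hζ'.toE) with hF'
  have b1 : D.dΛ m ∘ₗ F' = 0 := by
    rw [hF', dΛ, mk3_comp, mk3_eq_zero, ← LinearMap.comp_assoc, ← LinearMap.comp_assoc,
      ← LinearMap.comp_assoc, ψ_d, D.T.d_comp_d, LinearMap.zero_comp]
    exact ⟨LinearMap.ext a1, rfl, tt k _⟩
  obtain ⟨w₂, b2⟩ : ∃ w₂, D.mk3 f g (D.gm ω₁ ω₂ hω) + F' ∘ₗ D.dΛ (n + 1) = D.mk3 0 0 w₂ := by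
    rw [hF', dΛ, mk3_comp, mk3_add]
    have c1 : hf'.toE ∘ₗ d (n + 1 + 1 + 1) = f := LinearMap.ext a2
    have c2 : (d (m + 1) ∘ₗ hζ'.toE) ∘ₗ d (n + 1) = g := LinearMap.ext a3
    rw [c1, c2, tt k, tt k]
    exact ⟨_, rfl⟩
  have b3 : D.dΛ m ∘ₗ D.mk3 (0 : P (n + 1 + 1 + 1 + 1) →ₗ[E] P (m + 1 + 1 + 1)) 0 w₂ = 0 := by
    rw [← b2, LinearMap.comp_add, hdF, ← LinearMap.comp_assoc, b1, LinearMap.zero_comp, add_zero]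
  have b4 : D.mk3 0 (0 : P (n + 1 + 1) →ₗ[E] P (m + 1)) w₂ ∘ₗ D.dΛ (n + 1 + 1) = 0 := by
    rw [← b2, LinearMap.add_comp, hFd, LinearMap.comp_assoc, dΛ_dΛ, LinearMap.comp_zero, add_zero]
  obtain ⟨η₁, η₂, hη, rfl⟩ := D.gm_surj w₂
  rw [dΛ, mk3_comp, mk3_eq_zero] at b3 b4
  have b3' := b3.2.2
  have b4' := b4.2.2
  rw [LinearMap.comp_zero, zero_add, map_comp_gm, gm_eq_zero] at b3'
  have z : D.map (0 : P (n + 1 + 1 + 1 + 1) →ₗ[E] P (m + 1 + 1 + 1)) ∘ₗ D.ψ (n + 1 + 1 + 1) = 0 := by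
    ext x; exact D.map_zero' _
  rw [z, add_zero, gm_comp, gm_eq_zero] at b4'
  obtain ⟨ζ, p, ω₁', ω₂', hζ, hp, c1, c2, c3, c4, c5, c6, c7⟩ := D.step2 n m (by omega) (by omega)
    η₁ η₂ hη b3'.1 b3'.2 b4'.1 b4'.2
  set F'' := D.mk3 (hζ.toE ∘ₗ d (n + 1 + 1)) (d (m + 1) ∘ₗ hp.toE)
    (D.ψ (m + 1 + 1) ∘ₗ hp.toE + D.gm ω₁' ω₂' c3) with hF''
  have e1 : D.dΛ m ∘ₗ F'' = 0 := by
    rw [hF'', dΛ, mk3_comp, mk3_eq_zero, LinearMap.comp_add, ← add_assoc,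
      ← LinearMap.comp_assoc hp.toE, ← LinearMap.comp_assoc hp.toE, ← LinearMap.comp_assoc hp.toE,
      ψ_d, D.T.d_comp_d, LinearMap.zero_comp, tt k, zero_add, map_comp_gm, gm_eq_zero]
    exact ⟨LinearMap.ext c1, rfl, IsE.zero.congr c4, IsH.zero.congr c5⟩
  have e2 : F'' ∘ₗ D.dΛ (n + 1) = D.mk3 0 0 (D.gm η₁ η₂ hη) := by
    rw [hF'', dΛ, mk3_comp]
    congr 1
    · rw [LinearMap.comp_assoc, D.T.d_comp_d, LinearMap.comp_zero]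
    · exact LinearMap.ext c2
    · apply eq_of_add_eq_zero k
      rw [LinearMap.add_comp, ψ, ψ, gm_comp, gm_comp, gm_comp, map_comp_gm, gm_add, gm_add, gm_add,
        gm_eq_zero]
      exact ⟨c6, c7⟩
  refine ⟨F' + F'', by rw [LinearMap.comp_add, b1, e1, add_zero], ?_⟩
  rw [LinearMap.add_comp, e2, ← b2]
  lc2 k (rfl : (0 : D.Tr (P (n + 1 + 1 + 1 + 1)) (P (n + 1 + 1)) →ₗ[D.Λ]
    D.Tr (P (m + 1 + 1 + 1)) (P (m + 1))) = 0)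

end Pkg

end Crest.Agent.R186
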