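import Crest.Agent.R186.CAlg
import Crest.Agent.R186.TriCR

/-! Row 186: the triangular algebra over `E = (C ⊗ C) ⊗ k[ε]` is split basic with eight simples.

Recipe.  `φ : D.Λ → E × E → Fin 8 → k`: `TrivSqZeroExt.fstHom`, then on each factor the four
characters `(χ₁ ⊗ χ₂) ⊗ fst`, `χᵢ ∈ {Cq.χe, Cq.χf}`.  Surjective: the idempotents
`(Ee or F) ⊗ (Ee or F) ⊗ 1`.  Kernel nilpotent: in `Cq` the joint kernel of `χe, χf` has fifth power
zero (grade the basis); for a tensor product the joint kernel is spanned by `K ⊗ ⊤ + ⊤ ⊗ K'`; for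
`fstHom` the kernel has square zero.  `a b c d ≠ 0`: `x ⊗ 1, y ⊗ 1, 1 ⊗ x, 1 ⊗ y` with
`x = Cq.mk 0 1 0 …`, `y = Cq.mk 0 0 1 …` (placed in the first factor of `E × E`). -/

set_option autoImplicit false

namespace Crest.Agent.R186

open scoped TensorProduct

universe u

instance finDim_dualNumber {k : Type u} [Field k] : FiniteDimensional k (DualNumber k) :=
  inferInstanceAs (FiniteDimensional k (k × k))

section NK

variable {k : Type u} [Field k] {R S T : Type u} [Ring R] [Algebra k R] [Ring S] [Algebra k S]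
  [Ring T] [Algebra k T]

/-- nilpotent kernel -/
def NK (φ : R →ₐ[k] S) : Prop := ∃ N : ℕ, (LinearMap.ker φ.toLinearMap) ^ N = ⊥

theorem sub_pow_mono {A B : Submodule k R} (h : A ≤ B) (n : ℕ) : A ^ n ≤ B ^ n := by
  induction n with
  | zero => simp
  | succ n ih => rw [pow_succ, pow_succ]; exact mul_le_mul' ih h

theorem NK.comp {φ : R →ₐ[k] S} {ψ : S →ₐ[k] T} (hφ : NK φ) (hψ : NK ψ) : NK (ψ.comp φ) := by
  obtain ⟨M, hM⟩ := hφ
  obtain ⟨N, hN⟩ := hψ
  refine ⟨N * M, le_bot_iff.1 ?_⟩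
  rw [pow_mul, ← hM]
  apply sub_pow_mono
  have h1 : Submodule.map φ.toLinearMap (LinearMap.ker (ψ.comp φ).toLinearMap) ≤
      LinearMap.ker ψ.toLinearMap := by
    rintro _ ⟨x, hx, rfl⟩
    exact hx
  have h2 := sub_pow_mono h1 N
  rw [← Submodule.map_pow, hN] at h2
  intro x hx
  exact h2 ⟨x, hx, rfl⟩

theorem NK.of_injective {φ : R →ₐ[k] S} (h : Function.Injective φ) : NK φ :=
  ⟨1, by rw [pow_one]; exact LinearMap.ker_eq_bot.2 h⟩

theorem NK.prodMap {R' S' : Type u} [Ring R'] [Algebra k R'] [Ring S'] [Algebra k S']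
    {φ : R →ₐ[k] S} {ψ : R' →ₐ[k] S'} (hφ : NK φ) (hψ : NK ψ) : NK (φ.prodMap ψ) := by
  obtain ⟨M, hM⟩ := hφ
  obtain ⟨N, hN⟩ := hψ
  refine ⟨M + N, le_bot_iff.1 fun x hx => ?_⟩
  have h1 : Submodule.map (AlgHom.fst k R R').toLinearMap
      (LinearMap.ker (φ.prodMap ψ).toLinearMap) ≤ LinearMap.ker φ.toLinearMap := by
    rintro _ ⟨x, hx, rfl⟩
    exact congrArg Prod.fst (show φ.prodMap ψ x = 0 from hx)
  have h2 : Submodule.map (AlgHom.snd k R R').toLinearMap
      (LinearMap.ker (φ.prodMap ψ).toLinearMap) ≤ LinearMap.ker ψ.toLinearMap := by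
    rintro _ ⟨x, hx, rfl⟩
    exact congrArg Prod.snd (show φ.prodMap ψ x = 0 from hx)
  have h3 := sub_pow_mono h1 (M + N)
  have h4 := sub_pow_mono h2 (M + N)
  rw [← Submodule.map_pow, pow_add (LinearMap.ker φ.toLinearMap), hM, Submodule.bot_mul] at h3
  rw [← Submodule.map_pow, pow_add (LinearMap.ker ψ.toLinearMap), hN, Submodule.mul_bot] at h4
  exact Prod.ext (h3 ⟨x, hx, rfl⟩) (h4 ⟨x, hx, rfl⟩)

/-- `K ⊗ A` -/
def tK (A : Type u) [Ring A] [Algebra k A] (K : Submodule k R) : Submodule k (R ⊗[k] A) :=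
  Submodule.span k {x | ∃ r ∈ K, ∃ a : A, r ⊗ₜ[k] a = x}

theorem tK_pow (A : Type u) [Ring A] [Algebra k A] (K : Submodule k R) (n : ℕ) :
    tK A K ^ n ≤ tK A (K ^ n) := by
  induction n with
  | zero =>
    rw [pow_zero, pow_zero, Submodule.one_le]
    exact Submodule.subset_span ⟨1, Submodule.one_le.1 le_rfl, 1, rfl⟩
  | succ n ih =>
    rw [pow_succ, pow_succ]
    refine (mul_le_mul' ih le_rfl).trans ?_
    rw [tK, tK, Submodule.span_mul_span, Submodule.span_le]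
    rintro _ ⟨_, ⟨r, hr, a, rfl⟩, _, ⟨r', hr', a', rfl⟩, rfl⟩
    exact Submodule.subset_span ⟨r * r', Submodule.mul_mem_mul hr hr', a * a',
      (Algebra.TensorProduct.tmul_mul_tmul _ _ _ _).symm⟩

theorem NK.rTensor (A : Type u) [Ring A] [Algebra k A] {φ : R →ₐ[k] S} (hφ : NK φ)
    (hs : Function.Surjective φ) : NK (Algebra.TensorProduct.map φ (AlgHom.id k A)) := by
  obtain ⟨N, hN⟩ := hφ
  refine ⟨N, le_bot_iff.1 ?_⟩
  have h1 : LinearMap.ker (Algebra.TensorProduct.map φ (AlgHom.id k A)).toLinearMap ≤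
      tK A (LinearMap.ker φ.toLinearMap) := by
    intro x hx
    have hx' : LinearMap.rTensor A φ.toLinearMap x = 0 := hx
    obtain ⟨y, rfl⟩ := (rTensor_exact A (LinearMap.exact_subtype_ker_map φ.toLinearMap) hs x).1 hx'
    clear hx hx'
    induction y using TensorProduct.induction_on with
    | zero => simp
    | tmul r a => exact Submodule.subset_span ⟨r, r.2, a, rfl⟩
    | add y z hy hz => rw [map_add]; exact Submodule.add_mem _ hy hz
  refine (sub_pow_mono h1 N).trans ((tK_pow A _ N).trans ?_)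
  rw [hN, tK, Submodule.span_le]
  rintro _ ⟨r, hr, a, rfl⟩
  rw [(Submodule.mem_bot k).1 hr]
  simp

end NK

section SB

variable (k : Type u) [Field k] (R : Type u) [Ring R] [Algebra k R]

/-- split basic with simples indexed by `ι` -/
def SB (ι : Type) : Prop := ∃ φ : R →ₐ[k] (ι → k), Function.Surjective φ ∧ NK φ

variable {k R} {S : Type u} [Ring S] [Algebra k S] {ι κ : Type}

theorem SB.of_surj (π : R →ₐ[k] S) (hs : Function.Surjective π) (hπ : NK π) (h : SB k S ι) :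
    SB k R ι := by
  obtain ⟨φ, h1, h2⟩ := h
  exact ⟨φ.comp π, h1.comp hs, hπ.comp h2⟩

theorem SB.of_equiv (φ : R →ₐ[k] S) (hs : Function.Surjective φ) (hφ : NK φ)
    (e : S ≃ₐ[k] (ι → k)) : SB k R ι :=
  SB.of_surj φ hs hφ ⟨e, e.surjective, NK.of_injective e.injective⟩

theorem SB.reindex (e : ι ≃ κ) (h : SB k R ι) : SB k R κ := by
  obtain ⟨φ, h1, h2⟩ := h
  exact SB.of_equiv φ h1 h2 (AlgEquiv.piCongrLeft' k (fun _ => k) e)

theorem SB.prod (h : SB k R ι) (h' : SB k S κ) : SB k (R × S) (ι ⊕ κ) := by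
  obtain ⟨φ, h1, h2⟩ := h
  obtain ⟨ψ, h3, h4⟩ := h'
  exact SB.of_equiv (φ.prodMap ψ) (h1.prodMap h3) (h2.prodMap h4)
    (AlgEquiv.sumArrowEquivProdArrow ι κ k k).symm

/-- currying -/
def uncurryAlg (ι κ : Type) : (ι → κ → k) ≃ₐ[k] (ι × κ → k) :=
  AlgEquiv.ofRingEquiv (f := { (Equiv.curry ι κ k).symm with
    map_mul' := fun _ _ => rfl
    map_add' := fun _ _ => rfl }) fun _ => rfl

theorem SB.tensor [Fintype ι] [DecidableEq ι] (h : SB k R ι) (h' : SB k S κ) :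
    SB k (R ⊗[k] S) (ι × κ) := by
  obtain ⟨φ, h1, h2⟩ := h
  obtain ⟨ψ, h3, h4⟩ := h'
  have hs : ∀ {A B : Type u} [Ring A] [Algebra k A] [Ring B] [Algebra k B] (C : Type u) [Ring C]
      [Algebra k C] (f : A →ₐ[k] B), Function.Surjective f →
      Function.Surjective (Algebra.TensorProduct.map f (AlgHom.id k C)) :=
    fun C _ _ f hf => LinearMap.rTensor_surjective C (g := f.toLinearMap) hf
  refine SB.of_surj _ (hs S φ h1) (h2.rTensor S h1) ?_
  refine SB.of_surj (Algebra.TensorProduct.comm k (ι → k) S).toAlgHom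
    (Algebra.TensorProduct.comm k (ι → k) S).surjective
    (NK.of_injective (Algebra.TensorProduct.comm k (ι → k) S).injective) ?_
  exact SB.of_equiv _ (hs (ι → k) ψ h3) (h4.rTensor (ι → k) h3)
    ((Algebra.TensorProduct.piScalarRight k k (κ → k) ι).trans (uncurryAlg ι κ))

end SB

section Tsq

variable {k : Type u} [Field k] {R : Type u} [Ring R] [Algebra k R] {M : Type u} [AddCommGroup M]
  [Module k M] [Module R M] [Module Rᵐᵒᵖ M] [SMulCommClass R Rᵐᵒᵖ M] [IsScalarTower k R M]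
  [IsScalarTower k Rᵐᵒᵖ M]

theorem nk_fstHom : NK (TrivSqZeroExt.fstHom k R M) := by
  refine ⟨2, le_bot_iff.1 ?_⟩
  rw [pow_two, Submodule.mul_le]
  intro a ha b hb
  have ha' : a.fst = 0 := ha
  have hb' : b.fst = 0 := hb
  rw [Submodule.mem_bot]
  ext <;> simp [ha', hb']

theorem surj_fstHom : Function.Surjective (TrivSqZeroExt.fstHom k R M) :=
  fun r => ⟨TrivSqZeroExt.inl r, rfl⟩

theorem sb_tsq {ι : Type} (h : SB k R ι) : SB k (TrivSqZeroExt R M) ι :=
  SB.of_surj (TrivSqZeroExt.fstHom k R M) surj_fstHom nk_fstHom h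

end Tsq

theorem sb_dual (k : Type u) [Field k] : SB k (DualNumber k) Unit :=
  SB.of_equiv (TrivSqZeroExt.fstHom k k k) surj_fstHom nk_fstHom
    (AlgEquiv.funUnique k Unit k).symm

theorem sb_Cq {k : Type u} [Field k] (q : k) : SB k (Cq k q) (Unit ⊕ Unit) := by
  refine SB.of_equiv ((Cq.χe).prod Cq.χf) (fun y => ⟨Cq.mk y.2 0 0 0 0 0 0 0 y.1 0, rfl⟩) ?_
    ((AlgEquiv.prodCongr (AlgEquiv.funUnique k Unit k).symm
      (AlgEquiv.funUnique k Unit k).symm).trans
      (AlgEquiv.sumArrowEquivProdArrow Unit Unit k k).symm)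
  refine ⟨5, le_bot_iff.1 ?_⟩
  set K := LinearMap.ker ((Cq.χe (k := k) (q := q)).prod Cq.χf).toLinearMap with hK
  have hmem : ∀ a ∈ K, a.co 8 = 0 ∧ a.co 0 = 0 := fun a ha =>
    ⟨congrArg Prod.fst (show ((Cq.χe (k := k) (q := q)).prod Cq.χf) a = 0 from ha),
      congrArg Prod.snd (show ((Cq.χe (k := k) (q := q)).prod Cq.χf) a = 0 from ha)⟩
  have key : ∀ (n : ℕ) (s t : Finset (Fin 10)), (∀ a ∈ K ^ n, ∀ i ∈ s, a.co i = 0) →
      (∀ a b : Cq k q, (∀ i ∈ s, a.co i = 0) → b.co 8 = 0 → b.co 0 = 0 →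
        ∀ i ∈ t, (a * b).co i = 0) → ∀ a ∈ K ^ (n + 1), ∀ i ∈ t, a.co i = 0 := by
    intro n s t h1 h2 a ha
    rw [pow_succ] at ha
    refine Submodule.mul_induction_on ha (fun x hx y hy => h2 x y (h1 x hx) (hmem y hy).1
      (hmem y hy).2) fun x y hx hy i hi => ?_
    rw [Cq.co_add, hx i hi, hy i hi, add_zero]
  have k1 : ∀ a ∈ K ^ 1, ∀ i ∈ ({0, 8} : Finset (Fin 10)), a.co i = 0 := by
    intro a ha
    rw [pow_one] at ha
    simp [hmem a ha]
  have k2 := key 1 {0, 8} {0, 8, 4, 6} k1 (by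
    intro a b h b8 b0
    simp only [Finset.mem_insert, Finset.mem_singleton, forall_eq_or_imp, forall_eq] at h ⊢
    simp [Cq.mul_def, h, b8, b0])
  have k3 := key 2 _ {0, 8, 4, 6, 1, 2, 9} k2 (by
    intro a b h b8 b0
    simp only [Finset.mem_insert, Finset.mem_singleton, forall_eq_or_imp, forall_eq] at h ⊢
    simp [Cq.mul_def, h, b8, b0])
  have k4 := key 3 _ {0, 8, 4, 6, 1, 2, 9, 5, 7} k3 (by
    intro a b h b8 b0
    simp only [Finset.mem_insert, Finset.mem_singleton, forall_eq_or_imp, forall_eq] at h ⊢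
    simp [Cq.mul_def, h, b8, b0])
  have k5 := key 4 _ {0, 8, 4, 6, 1, 2, 9, 5, 7, 3} k4 (by
    intro a b h b8 b0
    simp only [Finset.mem_insert, Finset.mem_singleton, forall_eq_or_imp, forall_eq] at h ⊢
    simp [Cq.mul_def, h, b8, b0])
  intro a ha
  have := k5 a ha
  rw [Submodule.mem_bot]
  apply Cq.ext10 <;> exact this _ (by simp)

theorem splitBasic8_of {k : Type u} [Field k] [CharP k 2] {E : Type u} [Ring E] [Algebra k E]
    [FiniteDimensional k E] (D : Pkg k E) {ι : Type} [Fintype ι] (hι : Fintype.card ι = 4)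
    (hE : SB k E ι) (a b c d : E) (ha : a * a = 0) (hb : b * b = 0) (hc : c * c = 0)
    (hd : d * d = 0) (h : a * b * c * d ≠ 0) : SplitBasic8 k D.Λ := by
  have hΛ : SB k D.Λ (Fin 8) :=
    (sb_tsq (M := D.F) (hE.prod hE)).reindex (Fintype.equivFinOfCardEq (by simp [hι]))
  obtain ⟨φ, h1, h2⟩ := hΛ
  let j : E → D.Λ := fun a => TrivSqZeroExt.inl (a, 0)
  have hj : ∀ a b, j a * j b = j (a * b) := by
    intro a b
    simp only [j, ← TrivSqZeroExt.inl_mul, Prod.mk_mul_mk, mul_zero]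
  have hnil : ∀ a : E, a * a = 0 → φ (j a) = 0 := fun a ha => by
    have : φ (j a) * φ (j a) = 0 := by
      rw [← map_mul, hj, ha]
      simp only [j, Prod.mk_zero_zero, TrivSqZeroExt.inl_zero, map_zero]
    ext i
    exact mul_self_eq_zero.1 (congrFun this i)
  refine ⟨φ, h1, h2, j a, j b, j c, j d, hnil a ha, hnil b hb, hnil c hc, hnil d hd, ?_⟩
  rw [hj, hj, hj]
  intro h'
  exact h (congrArg (fun t : D.Λ => t.fst.1) h')

theorem exists_four {k : Type u} [Field k] (q : k) :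
    ∃ a b c d : (Cq k q ⊗[k] Cq k q) ⊗[k] DualNumber k,
      a * a = 0 ∧ b * b = 0 ∧ c * c = 0 ∧ d * d = 0 ∧ a * b * c * d ≠ 0 := by
  let x : Cq k q := Cq.mk 0 1 0 0 0 0 0 0 0 0
  let y : Cq k q := Cq.mk 0 0 1 0 0 0 0 0 0 0
  have hx : x * x = 0 := by apply Cq.ext10 <;> simp [x, Cq.mul_def]
  have hy : y * y = 0 := by apply Cq.ext10 <;> simp [y, Cq.mul_def]
  have hxy : (x * y).co 3 = 1 := by simp [x, y, Cq.mul_def]
  refine ⟨(x ⊗ₜ[k] 1) ⊗ₜ[k] 1, (y ⊗ₜ[k] 1) ⊗ₜ[k] 1, (1 ⊗ₜ[k] x) ⊗ₜ[k] 1, (1 ⊗ₜ[k] y) ⊗ₜ[k] 1,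
    ?_, ?_, ?_, ?_, ?_⟩
  · simp only [Algebra.TensorProduct.tmul_mul_tmul, hx, TensorProduct.zero_tmul]
  · simp only [Algebra.TensorProduct.tmul_mul_tmul, hy, TensorProduct.zero_tmul]
  · simp only [Algebra.TensorProduct.tmul_mul_tmul, hx, TensorProduct.zero_tmul,
      TensorProduct.tmul_zero]
  · simp only [Algebra.TensorProduct.tmul_mul_tmul, hy, TensorProduct.zero_tmul,
      TensorProduct.tmul_zero]
  · simp only [Algebra.TensorProduct.tmul_mul_tmul, mul_one, one_mul]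
    intro h'
    let l : (Cq k q ⊗[k] Cq k q) ⊗[k] DualNumber k →ₗ[k] k :=
      LinearMap.mul' k k ∘ₗ TensorProduct.map
        (LinearMap.mul' k k ∘ₗ TensorProduct.map (Cq.col 3) (Cq.col 3))
        (TrivSqZeroExt.fstHom k k k).toLinearMap
    have := congrArg l h'
    rw [map_zero] at this
    simp only [l, LinearMap.comp_apply, TensorProduct.map_tmul, LinearMap.mul'_apply,
      Cq.col_apply, hxy, AlgHom.toLinearMap_apply, map_one, mul_one] at this
    exact one_ne_zero this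

theorem splitBasic8 {k : Type u} [Field k] [CharP k 2] (q : k)
    (D : Pkg k ((Cq k q ⊗[k] Cq k q) ⊗[k] DualNumber k)) : SplitBasic8 k D.Λ := by
  obtain ⟨a, b, c, d, ha, hb, hc, hd, h⟩ := exists_four q
  exact splitBasic8_of D (by simp) (((sb_Cq q).tensor (sb_Cq q)).tensor (sb_dual k))
    a b c d ha hb hc hd h

end Crest.Agent.R186
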