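import Crest.Agent.R186.Dual2
import Crest.Agent.R186.GC
import Crest.Agent.R186.Split

/-! Row 186: the construction (owner helper73).  Over a field of characteristic two with an element
`q` of infinite multiplicative order: a split basic algebra with 8 simples and a complete resolution
whose Tate self-extensions vanish outside the degrees `0, -1`, with non-projective syzygies. -/

set_option autoImplicit false

namespace Crest.Agent.R186

open scoped TensorProduct

universe u

theorem trace_aL_tensor {k : Type u} [Field k] [CharP k 2] {A B : Type u} [Ring A] [Algebra k A]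
    [Ring B] [Algebra k B] [FiniteDimensional k A] [FiniteDimensional k B]
    (h : ∀ c, LinearMap.trace k A (aL k A c) = 0) (c : A ⊗[k] B) :
    LinearMap.trace k _ (aL k _ c) = 0 := by
  tind c with a b
  rw [aL_tmul, LinearMap.trace_tensorProduct', h, zero_mul]

theorem exists_tri (k : Type u) [Field k] [CharP k 2] (q : k) (hq0 : q ≠ 0)
    (hq : ∀ n : ℕ, 0 < n → q ^ n ≠ 1) :
    ∃ (Λ : Type u) (_ : Ring Λ) (_ : Algebra k Λ), FiniteDimensional k Λ ∧ SplitBasic8 k Λ ∧
      ∃ T : CR k Λ, (∀ n m : ℤ, n - m - 1 ≠ 0 → n - m - 1 ≠ -1 → T.Van n m) ∧ ∀ m, T.NP m := by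
  let D : Pkg k ((Cq k q ⊗[k] Cq k q) ⊗[k] DualNumber k) :=
    ((dnDual k).tw hq0 (trace_aL_tensor Cq.trace_mulRight) hq
      ((Cq.gd hq0 hq).tensor (Cq.gd hq0 hq)) ((Cq.gd_min hq0 hq).tensor (Cq.gd_min hq0 hq))
      rfl).pkg
  exact ⟨D.Λ, inferInstance, inferInstance, inferInstance, splitBasic8 q D, D.TΛ, D.vanΛ, D.npΛ⟩

end Crest.Agent.R186
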