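import Crest.Agent.R186.Lin

/-! Row 186: the input package of the gluing construction and its elementary consequences. -/

set_option autoImplicit false
set_option linter.unusedSectionVars false

namespace Crest.Agent.R186

open LinearMap (trace)

universe u

section Preds

variable {k : Type u} [Field k] (E : Type u) [Ring E] [Algebra k E]
variable {X Y W : Type*} [AddCommGroup X] [Module k X] [Module E X] [AddCommGroup Y] [Module k Y]
  [Module E Y] [AddCommGroup W] [Module k W] [Module E W]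

/-- `E`-linear -/
def IsE (f : X →ₗ[k] Y) : Prop := ∀ (a : E) x, f (a • x) = a • f x
variable {E}
/-- `h`-semilinear -/
def IsH (h : E ≃ₐ[k] E) (f : X →ₗ[k] Y) : Prop := ∀ (a : E) x, f (a • x) = h a • f x
/-- `S`-linear -/
def IsS (S : Subalgebra k E) (f : X →ₗ[k] Y) : Prop := ∀ a ∈ S, ∀ x, f (a • x) = a • f x

variable {h : E ≃ₐ[k] E} {S : Subalgebra k E}

theorem IsE.add {f g : X →ₗ[k] Y} (hf : IsE E f) (hg : IsE E g) : IsE E (f + g) := fun a x => by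
  simp [hf a x, hg a x]
theorem IsH.add {f g : X →ₗ[k] Y} (hf : IsH h f) (hg : IsH h g) : IsH h (f + g) := fun a x => by
  simp [hf a x, hg a x]
theorem IsS.add {f g : X →ₗ[k] Y} (hf : IsS S f) (hg : IsS S g) : IsS S (f + g) := fun a ha x => by
  simp [hf a ha x, hg a ha x]
theorem IsE.zero : IsE E (0 : X →ₗ[k] Y) := fun a x => by simp
theorem IsH.zero : IsH h (0 : X →ₗ[k] Y) := fun a x => by simp
theorem IsS.zero : IsS S (0 : X →ₗ[k] Y) := fun a _ x => by simp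
theorem IsE.id : IsE E (LinearMap.id : X →ₗ[k] X) := fun a x => by simp
theorem IsE.smul [IsScalarTower k E Y] {f : X →ₗ[k] Y} (hf : IsE E f) (c : k) : IsE E (c • f) :=
  fun a x => by simp [hf a x, smul_comm c a]
theorem IsS.smul [IsScalarTower k E Y] {f : X →ₗ[k] Y} (hf : IsS S f) (c : k) : IsS S (c • f) :=
  fun a ha x => by simp [hf a ha x, smul_comm c a]
theorem IsE.comp {f : Y →ₗ[k] W} {g : X →ₗ[k] Y} (hf : IsE E f) (hg : IsE E g) :
    IsE E (f ∘ₗ g) := fun a x => by simp [hg a x, hf a]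
theorem IsH.comp_E {f : Y →ₗ[k] W} {g : X →ₗ[k] Y} (hf : IsH h f) (hg : IsE E g) :
    IsH h (f ∘ₗ g) := fun a x => by simp [hg a x, hf a]
theorem IsE.comp_H {f : Y →ₗ[k] W} {g : X →ₗ[k] Y} (hf : IsE E f) (hg : IsH h g) :
    IsH h (f ∘ₗ g) := fun a x => by simp [hg a x, hf (h a)]
theorem IsS.comp {f : Y →ₗ[k] W} {g : X →ₗ[k] Y} (hf : IsS S f) (hg : IsS S g) :
    IsS S (f ∘ₗ g) := fun a ha x => by simp [hg a ha x, hf a ha]
theorem IsE.toS {f : X →ₗ[k] Y} (hf : IsE E f) : IsS S f := fun a _ x => hf a x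
theorem IsH.toS (hS : ∀ a ∈ S, h a = a) {f : X →ₗ[k] Y} (hf : IsH h f) : IsS S f :=
  fun a ha x => by rw [hf a x, hS a ha]
theorem IsS.sum {ι : Type*} (t : Finset ι) {f : ι → X →ₗ[k] Y} (hf : ∀ i, IsS S (f i)) :
    IsS S (∑ i ∈ t, f i) := fun a ha x => by
  simp [fun i => hf i a ha x, Finset.smul_sum]
theorem IsH.symm_comp {θ : Y ≃ₗ[k] Y} (hθ : IsH h θ.toLinearMap) {g : X →ₗ[k] Y} (hg : IsH h g) :
    IsE E (θ.symm.toLinearMap ∘ₗ g) := fun a x => by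
  apply θ.injective
  have := hθ a (θ.symm (g x))
  simp only [LinearEquiv.coe_coe, LinearEquiv.apply_symm_apply] at this
  simp [hg a x, this]
theorem IsH.comp_symm {θ : X ≃ₗ[k] X} (hθ : IsH h θ.toLinearMap) {g : X →ₗ[k] Y} (hg : IsH h g) :
    IsE E (g ∘ₗ θ.symm.toLinearMap) := fun a x => by
  have h1 : θ.symm (a • x) = h.symm a • θ.symm x := by
    apply θ.injective
    have := hθ (h.symm a) (θ.symm x)
    simp only [LinearEquiv.coe_coe, LinearEquiv.apply_symm_apply, AlgEquiv.apply_symm_apply] at this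
    simp [this]
  simp [h1, hg (h.symm a)]
theorem IsE.congr {f g : X →ₗ[k] Y} (hf : IsE E f) (e : ∀ x, g x = f x) : IsE E g := fun a x => by
  rw [e, e, hf a x]
theorem IsH.congr {f g : X →ₗ[k] Y} (hf : IsH h f) (e : ∀ x, g x = f x) : IsH h g := fun a x => by
  rw [e, e, hf a x]

/-- the `E`-linear map underlying an `IsE` map -/
def IsE.toE {f : X →ₗ[k] Y} (hf : IsE E f) : X →ₗ[E] Y where
  toFun := f
  map_add' := f.map_add
  map_smul' := hf

@[simp] theorem IsE.toE_apply {f : X →ₗ[k] Y} (hf : IsE E f) (x : X) : hf.toE x = f x := rfl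

theorem isE_restrict [IsScalarTower k E X] [IsScalarTower k E Y] (f : X →ₗ[E] Y) :
    IsE E (f.restrictScalars k) := fun a x => f.map_smul a x

/-- `a ↦ a • x` -/
def rr [IsScalarTower k E X] (x : X) : E →ₗ[k] X :=
  (LinearMap.toSpanSingleton E X x).restrictScalars k

@[simp] theorem rr_apply [IsScalarTower k E X] (x : X) (a : E) : (rr x : E →ₗ[k] X) a = a • x := rfl

theorem isE_rr [IsScalarTower k E X] (x : X) : IsE E (rr x : E →ₗ[k] X) := isE_restrict _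

/-- the `S`-linear maps -/
def sMaps (S : Subalgebra k E) (X Y : Type*) [AddCommGroup X] [Module k X] [Module E X]
    [AddCommGroup Y] [Module k Y] [Module E Y] [IsScalarTower k E Y] : Submodule k (X →ₗ[k] Y) where
  carrier := {f | IsS S f}
  add_mem' := IsS.add
  zero_mem' := IsS.zero
  smul_mem' := fun c _ hf => hf.smul c

/-- the trace condition -/
def TC (S : Subalgebra k E) (ω : X →ₗ[k] Y) : Prop :=
  ∀ γ : Y →ₗ[k] X, IsS S γ → trace k Y (ω ∘ₗ γ) = 0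

theorem TC.add {f g : X →ₗ[k] Y} (hf : TC S f) (hg : TC S g) : TC S (f + g) := fun γ hγ => by
  rw [LinearMap.add_comp, map_add, hf γ hγ, hg γ hγ, add_zero]
theorem TC.comp_S {f : Y →ₗ[k] W} {g : X →ₗ[k] Y} (hf : TC S f) (hg : IsS S g) :
    TC S (f ∘ₗ g) := fun γ hγ => by
  rw [LinearMap.comp_assoc]; exact hf _ (hg.comp hγ)
theorem TC.S_comp [FiniteDimensional k Y] [FiniteDimensional k W] {f : Y →ₗ[k] W} {g : X →ₗ[k] Y}
    (hf : IsS S f) (hg : TC S g) : TC S (f ∘ₗ g) := fun γ hγ => by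
  rw [LinearMap.comp_assoc, LinearMap.trace_comp_comm', LinearMap.comp_assoc]
  exact hg _ (hγ.comp hf)
theorem TC.congr {f g : X →ₗ[k] Y} (hf : TC S f) (e : ∀ x, g x = f x) : TC S g := by
  have : g = f := LinearMap.ext e
  rwa [this]

end Preds

namespace CR

variable {k : Type u} [Field k] {E : Type u} [Ring E] [Algebra k E] (T : CR k E)

/-- the differential as a `k`-linear map -/
def dk (n : ℤ) : T.P (n + 1) →ₗ[k] T.P n := (T.d n).restrictScalars k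

theorem dk_apply (n : ℤ) (x : T.P (n + 1)) : T.dk n x = T.d n x := rfl
theorem isE_dk (n : ℤ) : IsE E (T.dk n) := isE_restrict _
theorem dk_dk (n : ℤ) (x : T.P (n + 1 + 1)) : T.dk n (T.dk (n + 1) x) = 0 := T.d_d n x

instance finDim [FiniteDimensional k E] (n : ℤ) : FiniteDimensional k (T.P n) :=
  Module.Finite.trans E (T.P n)

variable (V : Type*) [AddCommGroup V] [Module k V] [Module E V] [IsScalarTower k E V]

theorem taE [Module.Finite E V] [Module.Projective E V] (n : ℤ) (f : T.P (n + 1) →ₗ[k] V)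
    (hf : IsE E f) (h0 : ∀ x, f (T.dk (n + 1) x) = 0) :
    ∃ g : T.P n →ₗ[k] V, IsE E g ∧ ∀ x, g (T.dk n x) = f x := by
  obtain ⟨g, hg⟩ := T.ta' V n hf.toE (LinearMap.ext h0)
  exact ⟨g.restrictScalars k, isE_restrict g, fun x => LinearMap.congr_fun hg x⟩

theorem liftE [Module.Projective E V] (n : ℤ) (f : V →ₗ[k] T.P (n + 1))
    (hf : IsE E f) (h0 : ∀ x, T.dk n (f x) = 0) :
    ∃ g : V →ₗ[k] T.P (n + 1 + 1), IsE E g ∧ ∀ x, T.dk (n + 1) (g x) = f x := by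
  obtain ⟨g, hg⟩ := T.lift V n hf.toE (LinearMap.ext h0)
  exact ⟨g.restrictScalars k, isE_restrict g, fun x => LinearMap.congr_fun hg x⟩

/-- a `k`-linear contraction -/
noncomputable def s (n : ℤ) : T.P n →ₗ[k] T.P (n + 1) :=
  Classical.choose (exists_contraction T.P T.dk T.exact) n

theorem s_eq (n : ℤ) (x : T.P (n + 1)) :
    T.dk (n + 1) (T.s (n + 1) x) + T.s n (T.dk n x) = x :=
  Classical.choose_spec (exists_contraction T.P T.dk T.exact) n x

end CR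

/-- The input of the gluing construction. -/
structure Pkg (k : Type u) [Field k] (E : Type u) [Ring E] [Algebra k E] where
  S : Subalgebra k E
  h : E ≃ₐ[k] E
  h_S : ∀ a ∈ S, h a = a
  T : CR k E
  θ : ∀ n, T.P n ≃ₗ[k] T.P n
  θ_H : ∀ n, IsH h (θ n).toLinearMap
  θ_d : ∀ n x, T.dk n (θ (n + 1) x) = θ n (T.dk n x)
  κ : ∀ n, T.P n →ₗ[k] T.P (n + 1)
  κ_S : ∀ n, IsS S (κ n)
  κ_eq : ∀ n x, T.dk (n + 1) (κ (n + 1) x) + κ n (T.dk n x) = x + θ (n + 1) x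
  trE : ∀ f : E →ₗ[k] E, IsS S f → trace k E f = 0
  liftS : ∀ n (γ : E →ₗ[k] T.P (n + 1)), IsS S γ → (∀ a, T.dk n (γ a) = 0) →
    ∃ γ' : E →ₗ[k] T.P (n + 1 + 1), IsS S γ' ∧ ∀ a, T.dk (n + 1) (γ' a) = γ a
  taS : ∀ n (g : T.P (n + 1) →ₗ[k] E), IsS S g → (∀ x, g (T.dk (n + 1) x) = 0) →
    ∃ g' : T.P n →ₗ[k] E, IsS S g' ∧ ∀ x, g' (T.dk n x) = g x
  odd : ∀ n, (Module.finrank k (LinearMap.range (T.dk n)) : k) = 1
  sur : ∀ n m, ∃ y₀ : T.P (n + 1) →ₗ[k] T.P (m + 1),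
    ∀ y : T.P (n + 1) →ₗ[k] T.P (m + 1), IsE E y → (∀ x, T.dk m (y x) = 0) →
      (∀ x, y (T.dk (n + 1) x) = 0) →
      ∃ (c : k) (v : T.P (n + 1) →ₗ[k] T.P (m + 1)) (y' : T.P n →ₗ[k] T.P (m + 1)),
        (n - m - 1 ≠ 0 → c = 0) ∧ IsE E v ∧ (∀ x, T.dk m (v x) = 0) ∧
        (∀ x, v (T.dk (n + 1) x) = 0) ∧ IsE E y' ∧ (∀ x, T.dk m (y' x) = 0) ∧
        ∀ x, y x = c • y₀ x + v x + (θ (m + 1)).symm (v (θ (n + 1) x)) + y' (T.dk n x)
  vanS : ∀ n m, n - m - 1 ≠ 2 → n - m - 1 ≠ 3 → ∃ y₀ : T.P (n + 1) →ₗ[k] T.P (m + 1),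
    ∀ y : T.P (n + 1) →ₗ[k] T.P (m + 1), IsS S y → (∀ x, T.dk m (y x) = 0) →
      (∀ x, y (T.dk (n + 1) x) = 0) →
      ∃ (c : k) (y' : T.P n →ₗ[k] T.P (m + 1)),
        (n - m - 1 ≠ 0 → c = 0) ∧ IsS S y' ∧ (∀ x, T.dk m (y' x) = 0) ∧
        ∀ x, y x = c • y₀ x + y' (T.dk n x)

namespace Pkg

variable {k : Type u} [Field k] [CharP k 2] {E : Type u} [Ring E] [Algebra k E]
  [FiniteDimensional k E] (D : Pkg k E)

variable (V : Type*) [AddCommGroup V] [Module k V] [Module E V] [IsScalarTower k E V]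
  [Module.Finite E V] [Module.Projective E V]

theorem trS (f : V →ₗ[k] V) (hf : IsS D.S f) : trace k V f = 0 := by
  have : FiniteDimensional k V := Module.Finite.trans E V
  obtain ⟨r, g, p, h⟩ := exists_dualBasis E V
  have : f = ∑ j, rr (p j) ∘ₗ ((g j).restrictScalars k ∘ₗ f) := by
    ext x; simp [h]
  rw [this, map_sum]
  refine Finset.sum_eq_zero fun j _ => ?_
  rw [LinearMap.trace_comp_comm']
  exact D.trE _ (((isE_restrict _).toS.comp hf).comp (isE_rr _).toS)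

theorem tc_of_S {X : Type*} [AddCommGroup X] [Module k X] [Module E X] {f : X →ₗ[k] V}
    (hf : IsS D.S f) : TC D.S f := fun _ hγ => D.trS V _ (hf.comp hγ)

theorem taS' (n : ℤ) (f : D.T.P (n + 1) →ₗ[k] V) (hf : IsS D.S f)
    (h0 : ∀ x, f (D.T.dk (n + 1) x) = 0) :
    ∃ g : D.T.P n →ₗ[k] V, IsS D.S g ∧ ∀ x, g (D.T.dk n x) = f x := by
  obtain ⟨r, g, p, h⟩ := exists_dualBasis E V
  choose g' hg' hg'' using fun j => D.taS n ((g j).restrictScalars k ∘ₗ f)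
    ((isE_restrict _).toS.comp hf) (fun x => by simp [h0])
  refine ⟨∑ j, rr (p j) ∘ₗ g' j, IsS.sum _ fun j => (isE_rr _).toS.comp (hg' j), fun x => ?_⟩
  simp [hg'', h]

theorem liftS' (n : ℤ) (f : V →ₗ[k] D.T.P (n + 1)) (hf : IsS D.S f)
    (h0 : ∀ x, D.T.dk n (f x) = 0) :
    ∃ g : V →ₗ[k] D.T.P (n + 1 + 1), IsS D.S g ∧ ∀ x, D.T.dk (n + 1) (g x) = f x := by
  obtain ⟨r, g, p, h⟩ := exists_dualBasis E V
  choose g' hg' hg'' using fun j => D.liftS n (f ∘ₗ rr (p j))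
    (hf.comp (isE_rr _).toS) (fun x => by simp [h0])
  refine ⟨∑ j, g' j ∘ₗ (g j).restrictScalars k,
    IsS.sum _ fun j => (hg' j).comp (isE_restrict _).toS, fun x => ?_⟩
  simp only [LinearMap.coe_sum, Finset.sum_apply, map_sum, LinearMap.comp_apply, hg'', rr_apply,
    LinearMap.restrictScalars_apply]
  rw [← map_sum, h]

theorem θs_d (n : ℤ) (x : D.T.P (n + 1)) :
    D.T.dk n ((D.θ (n + 1)).symm x) = (D.θ n).symm (D.T.dk n x) := by
  apply (D.θ n).injective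
  rw [← D.θ_d]; simp

theorem ds (n : ℤ) (x : D.T.P (n + 1)) :
    D.T.dk (n + 1) (D.T.s (n + 1) x) = x + D.T.s n (D.T.dk n x) := by
  lc2 k (D.T.s_eq n x)

theorem sd (n : ℤ) (x : D.T.P (n + 1)) :
    D.T.s n (D.T.dk n x) = x + D.T.dk (n + 1) (D.T.s (n + 1) x) := by
  lc2 k (D.T.s_eq n x)

theorem dκ (n : ℤ) (x : D.T.P (n + 1)) :
    D.T.dk (n + 1) (D.κ (n + 1) x) = x + D.θ (n + 1) x + D.κ n (D.T.dk n x) := by
  lc2 k (D.κ_eq n x)

theorem κd (n : ℤ) (x : D.T.P (n + 1)) :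
    D.κ n (D.T.dk n x) = x + D.θ (n + 1) x + D.T.dk (n + 1) (D.κ (n + 1) x) := by
  lc2 k (D.κ_eq n x)

theorem dsd (n : ℤ) (x : D.T.P (n + 1)) : D.T.dk n (D.T.s n (D.T.dk n x)) = D.T.dk n x := by
  rw [D.sd, map_add, D.T.dk_dk, add_zero]

theorem trace_ds (n : ℤ) : trace k _ (D.T.dk n ∘ₗ D.T.s n) = 1 := by
  rw [trace_eq_finrank_range _ _ (D.dsd n), D.odd]

theorem np (m : ℤ) : D.T.NP m := by
  rintro ⟨σ, hσ⟩
  have h1 := D.trace_ds m
  have h2 := D.trS _ (D.T.dk m ∘ₗ σ.restrictScalars k)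
    ((D.T.isE_dk m).comp (isE_restrict σ)).toS
  have h3 : D.T.dk m ∘ₗ D.T.s m = (D.T.dk m ∘ₗ σ.restrictScalars k) ∘ₗ (D.T.dk m ∘ₗ D.T.s m) := by
    ext x; exact (LinearMap.congr_fun hσ (D.T.s m x)).symm
  have h4 : (D.T.dk m ∘ₗ D.T.s m) ∘ₗ (D.T.dk m ∘ₗ σ.restrictScalars k) =
      D.T.dk m ∘ₗ σ.restrictScalars k := by
    ext x; exact D.dsd m _
  rw [h3, LinearMap.trace_comp_comm', h4, h2] at h1
  exact zero_ne_one h1

end Pkg

end Crest.Agent.R186
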