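import Crest.Agent.R186.Pkg

/-! Row 186: dimension shifting. -/

set_option autoImplicit false
set_option linter.unusedSectionVars false
set_option linter.unusedSimpArgs false

namespace Crest.Agent.R186

universe u

variable {k : Type u} [Field k] [CharP k 2] {E : Type u} [Ring E] [Algebra k E]
  [FiniteDimensional k E]

section

variable {X V : Type*} [AddCommGroup X] [Module k X] [Module E X] [AddCommGroup V] [Module k V]
  [Module E V] [IsScalarTower k E V]

/-- corestriction -/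
def cod (K : Submodule E V) (f : X →ₗ[k] V) (h : ∀ x, f x ∈ K) : X →ₗ[k] K where
  toFun x := ⟨f x, h x⟩
  map_add' x y := Subtype.ext (f.map_add x y)
  map_smul' c x := Subtype.ext (f.map_smul c x)

/-- restriction of an automorphism -/
def resE (K : Submodule E V) (θ : V ≃ₗ[k] V) (h1 : ∀ x ∈ K, θ x ∈ K) (h2 : ∀ x ∈ K, θ.symm x ∈ K) :
    K ≃ₗ[k] K where
  toFun x := ⟨θ x, h1 x x.2⟩
  invFun x := ⟨θ.symm x, h2 x x.2⟩
  map_add' x y := Subtype.ext (θ.map_add x y)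
  map_smul' c x := Subtype.ext (θ.map_smul c x)
  left_inv x := Subtype.ext (θ.symm_apply_apply x)
  right_inv x := Subtype.ext (θ.apply_symm_apply x)

theorem IsS.tw {S : Subalgebra k E} {h : E ≃ₐ[k] E} (hS : ∀ a ∈ S, h a ∈ S) {θ : X ≃ₗ[k] X}
    {θ' : V ≃ₗ[k] V} (h1 : IsH h θ.toLinearMap) (h2 : IsH h θ'.toLinearMap) {v : X →ₗ[k] V}
    (hv : IsS S v) : IsS S (θ'.symm.toLinearMap ∘ₗ v ∘ₗ θ.toLinearMap) := fun a ha x => by
  apply θ'.injective
  have e1 := h1 a x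
  have e2 := h2 a (θ'.symm (v (θ x)))
  simp only [LinearEquiv.coe_coe, LinearEquiv.apply_symm_apply] at e1 e2
  simp [e1, e2, hv _ (hS a ha)]

end

/-- the setting of the dimension shift -/
structure Lev (T : CR k E) where
  S : Subalgebra k E
  h : E ≃ₐ[k] E
  hS : ∀ a ∈ S, h a ∈ S
  θ : ∀ n, T.P n ≃ₗ[k] T.P n
  θ_H : ∀ n, IsH h (θ n).toLinearMap
  θ_d : ∀ n x, T.dk n (θ (n + 1) x) = θ n (T.dk n x)
  lift : ∀ (V N : Type u) [AddCommGroup V] [Module k V] [Module E V] [IsScalarTower k E V]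
    [AddCommGroup N] [Module k N] [Module E N] [IsScalarTower k E N] (π : V →ₗ[E] N),
    Function.Surjective π → ∀ j (f : T.P j →ₗ[k] N), IsS S f →
      ∃ g : T.P j →ₗ[k] V, IsS S g ∧ ∀ x, π (g x) = f x
  ta : ∀ (V : Type u) [AddCommGroup V] [Module k V] [Module E V] [IsScalarTower k E V]
    [Module.Finite E V] [Module.Projective E V] n (f : T.P (n + 1) →ₗ[k] V), IsS S f →
      (∀ x, f (T.dk (n + 1) x) = 0) → ∃ g : T.P n →ₗ[k] V, IsS S g ∧ ∀ x, g (T.dk n x) = f x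
  rk : ∀ (V : Type u) [AddCommGroup V] [Module k V] [Module E V] [IsScalarTower k E V]
    [Module.Finite E V] [Module.Projective E V], (Module.finrank k V : k) = 0
  cond : ℤ → Prop

namespace Lev

variable {T : CR k E} (L : Lev T)

section

variable (N : Type u) [AddCommGroup N] [Module k N] [Module E N] [IsScalarTower k E N]
  (θN : N ≃ₗ[k] N)

/-- the cokernel of `1 + Θ` has dimension at most one (zero if `p`) -/
def SurP (p : Prop) (n : ℤ) : Prop :=
  ∃ y₀ : T.P (n + 1) →ₗ[k] N, IsS L.S y₀ ∧ (∀ x, y₀ (T.dk (n + 1) x) = 0) ∧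
    ∀ y : T.P (n + 1) →ₗ[k] N, IsS L.S y → (∀ x, y (T.dk (n + 1) x) = 0) →
      ∃ (c : k) (v : T.P (n + 1) →ₗ[k] N) (y' : T.P n →ₗ[k] N), (p → c = 0) ∧ IsS L.S v ∧
        (∀ x, v (T.dk (n + 1) x) = 0) ∧ IsS L.S y' ∧
        ∀ x, y x = c • y₀ x + v x + θN.symm (v (L.θ (n + 1) x)) + y' (T.dk n x)

/-- the property that is shifted -/
def Good (o : ℤ) : Prop :=
  (Module.finrank k N : k) = 1 ∧ ∀ n, L.cond (n - o) → L.SurP N θN (n - o ≠ 0) n

end

variable {N' V N : Type u} [AddCommGroup N'] [Module k N'] [Module E N'] [IsScalarTower k E N']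
  [AddCommGroup V] [Module k V] [Module E V] [IsScalarTower k E V] [Module.Finite E V]
  [Module.Projective E V] [AddCommGroup N] [Module k N] [Module E N] [IsScalarTower k E N]
  {θ' : N' ≃ₗ[k] N'} {θV : V ≃ₗ[k] V} {θN : N ≃ₗ[k] N} (ι : N' →ₗ[E] V) (π : V →ₗ[E] N)

theorem factor (hι : Function.Injective ι) (hex : Function.Exact ι π) {X : Type*} [AddCommGroup X]
    [Module k X] [Module E X] (f : X →ₗ[k] V) (hf : IsS L.S f) (h0 : ∀ x, π (f x) = 0) :
    ∃ r : X →ₗ[k] N', IsS L.S r ∧ ∀ x, ι (r x) = f x := by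
  choose r hr using fun x => (hex (f x)).1 (h0 x)
  refine ⟨⟨⟨r, fun x y => hι (by simp [hr])⟩, fun c x => hι (by simp [hr])⟩,
    fun a ha x => hι ?_, hr⟩
  simp [hr, hf a ha x]

theorem surP_iff (hι : Function.Injective ι) (hπ : Function.Surjective π)
    (hex : Function.Exact ι π) (hV : IsH L.h θV.toLinearMap) (h1 : ∀ x, ι (θ' x) = θV (ι x))
    (h2 : ∀ x, π (θV x) = θN (π x)) (p : Prop) (n : ℤ) :
    L.SurP N θN p n ↔ L.SurP N' θ' p (n + 1) := by
  have h1' : ∀ x, ι (θ'.symm x) = θV.symm (ι x) := fun x => by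
    apply θV.injective; rw [← h1]; simp
  have h2' : ∀ x, π (θV.symm x) = θN.symm (π x) := fun x => by
    apply θN.injective; rw [← h2]; simp
  have πι : ∀ x, π (ι x) = 0 := hex.apply_apply_eq_zero
  have dS := fun j => (T.isE_dk j).toS (S := L.S)
  have ιS := (isE_restrict (k := k) ι).toS (S := L.S)
  have πS := (isE_restrict (k := k) π).toS (S := L.S)
  have up : ∀ f : T.P (n + 1) →ₗ[k] N, IsS L.S f → (∀ x, f (T.dk (n + 1) x) = 0) →
      ∃ (F : T.P (n + 1) →ₗ[k] V) (g : T.P (n + 1 + 1) →ₗ[k] N'), IsS L.S F ∧ IsS L.S g ∧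
        (∀ x, π (F x) = f x) ∧ (∀ x, ι (g x) = F (T.dk (n + 1) x)) ∧
        ∀ x, g (T.dk (n + 1 + 1) x) = 0 := fun f hf hf0 => by
    obtain ⟨F, hF, eF⟩ := L.lift V N π hπ _ f hf
    obtain ⟨g, hg, eg⟩ := L.factor ι π hι hex (F ∘ₗ T.dk (n + 1)) (hF.comp (dS _))
      (fun x => by simp [eF, hf0])
    exact ⟨F, g, hF, hg, eF, eg, fun x => hι (by simp [eg, T.dk_dk])⟩
  have down : ∀ g : T.P (n + 1 + 1) →ₗ[k] N', IsS L.S g → (∀ x, g (T.dk (n + 1 + 1) x) = 0) →
      ∃ F : T.P (n + 1) →ₗ[k] V, IsS L.S F ∧ ∀ x, F (T.dk (n + 1) x) = ι (g x) := fun g hg hg0 =>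
    L.ta V _ (ι.restrictScalars k ∘ₗ g) (ιS.comp hg) (fun x => by simp [hg0])
  constructor
  · rintro ⟨f₀, hf₀, hf₀0, H⟩
    obtain ⟨F₀, g₀, hF₀, hg₀, a1, a2, a3⟩ := up f₀ hf₀ hf₀0
    refine ⟨g₀, hg₀, a3, fun g hg hg0 => ?_⟩
    obtain ⟨F, hF, eF⟩ := down g hg hg0
    obtain ⟨c, v, f', hc, hv, hv0, hf', e⟩ := H (π.restrictScalars k ∘ₗ F) (πS.comp hF)
      (fun x => by simp [eF, πι])
    obtain ⟨W, u, hW, hu, b1, b2, b3⟩ := up v hv hv0
    obtain ⟨F', hF', eF'⟩ := L.lift V N π hπ _ f' hf'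
    obtain ⟨r, hr, er⟩ := L.factor ι π hι hex
      (F + c • F₀ + W + θV.symm.toLinearMap ∘ₗ W ∘ₗ (L.θ (n + 1)).toLinearMap + F' ∘ₗ T.dk n)
      ((((hF.add (hF₀.smul c)).add hW).add (hW.tw L.hS (L.θ_H _) hV)).add (hF'.comp (dS _)))
      (fun x => by
        have := e x
        simp only [LinearMap.comp_apply, LinearMap.restrictScalars_apply] at this
        simp only [LinearMap.add_apply, LinearMap.comp_apply, LinearMap.smul_apply, map_add,
          LinearMap.map_smul_of_tower, a1, b1, eF', h2', LinearEquiv.coe_coe, this]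
        lc2 k (rfl : (0 : N) = 0))
    refine ⟨c, u, r, hc, hu, b3, hr, fun x => hι ?_⟩
    simp only [LinearMap.add_apply, LinearMap.comp_apply, LinearMap.smul_apply, map_add,
      LinearMap.map_smul_of_tower, er, h1', a2, b2, LinearEquiv.coe_coe, eF, T.dk_dk, map_zero,
      L.θ_d]
    lc2 k (rfl : (0 : V) = 0)
  · rintro ⟨g₀, hg₀, hg₀0, H⟩
    obtain ⟨F₀, hF₀, eF₀⟩ := down g₀ hg₀ hg₀0
    refine ⟨π.restrictScalars k ∘ₗ F₀, πS.comp hF₀, fun x => by simp [eF₀, πι],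
      fun f hf hf0 => ?_⟩
    obtain ⟨F, g, hF, hg, a1, a2, a3⟩ := up f hf hf0
    obtain ⟨c, u, r, hc, hu, hu0, hr, e⟩ := H g hg a3
    obtain ⟨W, hW, eW⟩ := down u hu hu0
    obtain ⟨ζ, hζ, eζ⟩ := L.ta V n
      (F + c • F₀ + W + θV.symm.toLinearMap ∘ₗ W ∘ₗ (L.θ (n + 1)).toLinearMap +
        ι.restrictScalars k ∘ₗ r)
      ((((hF.add (hF₀.smul c)).add hW).add (hW.tw L.hS (L.θ_H _) hV)).add (ιS.comp hr))
      (fun x => by
        simp only [LinearMap.add_apply, LinearMap.comp_apply, LinearMap.smul_apply,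
          LinearMap.restrictScalars_apply, LinearEquiv.coe_coe, ← L.θ_d, eW, eF₀, ← a2, e, map_add,
          LinearMap.map_smul_of_tower, h1']
        lc2 k (rfl : (0 : V) = 0))
    refine ⟨c, π.restrictScalars k ∘ₗ W, π.restrictScalars k ∘ₗ ζ, hc, πS.comp hW,
      fun x => by simp [eW, πι], πS.comp hζ, fun x => ?_⟩
    simp only [LinearMap.add_apply, LinearMap.comp_apply, LinearMap.smul_apply,
      LinearMap.restrictScalars_apply, LinearEquiv.coe_coe, eζ, map_add,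
      LinearMap.map_smul_of_tower, h2', πι, a1]
    lc2 k (rfl : (0 : N) = 0)

theorem good_iff (hι : Function.Injective ι) (hπ : Function.Surjective π)
    (hex : Function.Exact ι π) (hV : IsH L.h θV.toLinearMap) (h1 : ∀ x, ι (θ' x) = θV (ι x))
    (h2 : ∀ x, π (θV x) = θN (π x)) (o : ℤ) : L.Good N θN o ↔ L.Good N' θ' (o + 1) := by
  have : FiniteDimensional k V := Module.Finite.trans E V
  have hr : (Module.finrank k N : k) = Module.finrank k N' := by
    have e1 := LinearMap.finrank_range_add_finrank_ker (π.restrictScalars k)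
    have e2 : LinearMap.range (π.restrictScalars k) = ⊤ := LinearMap.range_eq_top.2 hπ
    have e3 : LinearMap.ker (π.restrictScalars k) = LinearMap.range (ι.restrictScalars k) := by
      ext x; exact hex x
    rw [e2, e3, finrank_top, LinearMap.finrank_range_of_inj (f := ι.restrictScalars k) hι] at e1
    have e4 := L.rk V
    rw [← e1, Nat.cast_add] at e4
    exact eq_of_add_eq_zero k e4
  constructor
  · rintro ⟨a, b⟩
    refine ⟨hr ▸ a, fun n hn => ?_⟩
    obtain ⟨n, rfl⟩ : ∃ n', n = n' + 1 := ⟨n - 1, by ring⟩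
    have e : n + 1 - (o + 1) = n - o := by ring
    rw [e] at hn ⊢
    exact (L.surP_iff ι π hι hπ hex hV h1 h2 _ n).1 (b n hn)
  · rintro ⟨a, b⟩
    refine ⟨hr ▸ a, fun n hn => ?_⟩
    have e : n + 1 - (o + 1) = n - o := by ring
    have := b (n + 1) (e ▸ hn)
    rw [e] at this
    exact (L.surP_iff ι π hι hπ hex hV h1 h2 _ n).2 this

theorem θs_d (n : ℤ) (x : T.P (n + 1)) :
    T.dk n ((L.θ (n + 1)).symm x) = (L.θ n).symm (T.dk n x) := by
  apply (L.θ n).injective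
  rw [← L.θ_d]; simp

/-- the automorphism of the cycles -/
def θK (m : ℤ) : LinearMap.ker (T.d m) ≃ₗ[k] LinearMap.ker (T.d m) :=
  resE _ (L.θ (m + 1))
    (fun x hx => by
      change T.dk m _ = 0
      rw [L.θ_d, show T.dk m x = 0 from hx, map_zero])
    (fun x hx => by
      change T.dk m _ = 0
      rw [L.θs_d, show T.dk m x = 0 from hx, map_zero])

theorem good_K_iff (m : ℤ) : L.Good _ (L.θK m) (m + 1) ↔ L.Good _ (L.θK (m + 1)) (m + 1 + 1) := by
  refine L.good_iff (θV := L.θ (m + 1 + 1)) (θN := L.θK m) (θ' := L.θK (m + 1))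
    (LinearMap.ker (T.d (m + 1))).subtype
    ((T.d (m + 1)).codRestrict (LinearMap.ker (T.d m)) fun x => T.d_d m x) (Submodule.injective_subtype _) ?_ ?_
    (L.θ_H _) (fun x => rfl) (fun x => Subtype.ext (L.θ_d _ x)) _
  · rintro ⟨y, hy⟩
    obtain ⟨x, hx⟩ := (T.exact m y).1 hy
    exact ⟨x, Subtype.ext hx⟩
  · intro x
    constructor
    · intro h; exact ⟨⟨x, congrArg Subtype.val h⟩, rfl⟩
    · rintro ⟨y, rfl⟩; exact Subtype.ext y.2

theorem good_K_all (M : ℤ) (h : L.Good _ (L.θK M) (M + 1)) (m : ℤ) :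
    L.Good _ (L.θK m) (m + 1) := by
  induction m using Int.inductionOn' (b := M) with
  | zero => exact h
  | succ j _ ih => exact (L.good_K_iff j).1 ih
  | pred j _ ih =>
    obtain ⟨j, rfl⟩ : ∃ j', j = j' + 1 := ⟨j - 1, by ring⟩
    rw [show j + 1 - 1 = j by ring]
    exact (L.good_K_iff j).2 ih

theorem good_out {m : ℤ} (h : L.Good _ (L.θK m) (m + 1)) (n : ℤ) (hc : L.cond (n - m - 1)) :
    ∃ y₀ : T.P (n + 1) →ₗ[k] T.P (m + 1),
    ∀ y : T.P (n + 1) →ₗ[k] T.P (m + 1), IsS L.S y → (∀ x, T.dk m (y x) = 0) →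
      (∀ x, y (T.dk (n + 1) x) = 0) →
      ∃ (c : k) (v : T.P (n + 1) →ₗ[k] T.P (m + 1)) (y' : T.P n →ₗ[k] T.P (m + 1)),
        (n - m - 1 ≠ 0 → c = 0) ∧ IsS L.S v ∧ (∀ x, T.dk m (v x) = 0) ∧
        (∀ x, v (T.dk (n + 1) x) = 0) ∧ IsS L.S y' ∧ (∀ x, T.dk m (y' x) = 0) ∧
        ∀ x, y x = c • y₀ x + v x + (L.θ (m + 1)).symm (v (L.θ (n + 1) x)) + y' (T.dk n x) := by
  have e : n - (m + 1) = n - m - 1 := by ring
  obtain ⟨y₀, -, -, H⟩ := h.2 n (e ▸ hc)
  have ιS := (isE_restrict (k := k) (LinearMap.ker (T.d m)).subtype).toS (S := L.S)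
  refine ⟨(LinearMap.ker (T.d m)).subtype.restrictScalars k ∘ₗ y₀, fun y hy h0 h1 => ?_⟩
  obtain ⟨c, v, y', a1, a2, a3, a4, a5⟩ := H (cod _ y h0) (fun a ha x => Subtype.ext (hy a ha x))
    (fun x => Subtype.ext (h1 x))
  exact ⟨c, _, _, e ▸ a1, ιS.comp a2, fun x => (v x).2, fun x => congrArg Subtype.val (a3 x),
    ιS.comp a4, fun x => (y' x).2, fun x => congrArg Subtype.val (a5 x)⟩

theorem good_odd {m : ℤ} (h : L.Good _ (L.θK m) (m + 1)) :
    (Module.finrank k (LinearMap.range (T.dk (m + 1))) : k) = 1 := by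
  have e : LinearMap.range (T.dk (m + 1)) = (LinearMap.ker (T.d m)).restrictScalars k := by
    ext x; exact (T.exact m x).symm
  rw [e]; exact h.1

/-- from a module with a projective resolution that agrees with `T` in large degrees to the cycles
of `T` -/
theorem good_K (Pm : ℤ → Type u) [∀ n, AddCommGroup (Pm n)] [∀ n, Module k (Pm n)]
    [∀ n, Module E (Pm n)] [∀ n, IsScalarTower k E (Pm n)] [∀ n, Module.Finite E (Pm n)]
    [∀ n, Module.Projective E (Pm n)] (dP : ∀ n, Pm (n + 1) →ₗ[E] Pm n)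
    (θP : ∀ n, Pm n ≃ₗ[k] Pm n) (hH : ∀ n, IsH L.h (θP n).toLinearMap)
    (hd : ∀ n x, dP n (θP (n + 1) x) = θP n (dP n x))
    (aug : Pm 0 →ₗ[E] N) (hs : Function.Surjective aug) (ex0 : Function.Exact (dP 0) aug)
    (exP : ∀ n, 0 ≤ n → Function.Exact (dP (n + 1)) (dP n))
    (haug : ∀ x, aug (θP 0 x) = θN (aug x)) (pr : ∀ n, T.P n →ₗ[E] Pm n) (M : ℤ) (hM : 0 ≤ M)
    (hp0 : Function.Injective (pr M)) (hp1 : Function.Bijective (pr (M + 1)))
    (hpd : ∀ x, dP M (pr (M + 1) x) = pr M (T.d M x))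
    (hpθ : ∀ x, pr (M + 1) (L.θ (M + 1) x) = θP (M + 1) (pr (M + 1) x))
    (hZ : L.Good N θN (-1)) (m : ℤ) : L.Good _ (L.θK m) (m + 1) := by
  have hd' : ∀ n x, dP n ((θP (n + 1)).symm x) = (θP n).symm (dP n x) := fun n x => by
    apply (θP n).injective; rw [← hd]; simp
  let θB : ∀ n, LinearMap.range (dP n) ≃ₗ[k] LinearMap.range (dP n) := fun n =>
    resE (LinearMap.range (dP n)) (θP n)
      (fun y hy => by obtain ⟨x, rfl⟩ := LinearMap.mem_range.1 hy; exact ⟨_, hd n x⟩)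
      (fun y hy => by obtain ⟨x, rfl⟩ := LinearMap.mem_range.1 hy; exact ⟨_, hd' n x⟩)
  have ex : ∀ {A B C : Type u} [AddCommGroup A] [Module E A] [AddCommGroup B] [Module E B]
      [AddCommGroup C] [Module E C] (f : A →ₗ[E] B) (g : B →ₗ[E] C), Function.Exact f g →
      Function.Exact (LinearMap.range f).subtype g := fun f g h x =>
    (h x).trans ⟨fun ⟨y, hy⟩ => ⟨⟨x, y, hy⟩, rfl⟩, by rintro ⟨⟨_, y, rfl⟩, rfl⟩; exact ⟨y, rfl⟩⟩
  have g0 : L.Good _ (θB 0) 0 :=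
    (L.good_iff (θV := θP 0) (θ' := θB 0) (LinearMap.range (dP 0)).subtype aug
      (Submodule.injective_subtype _) hs (ex _ _ ex0) (hH _) (fun x => rfl) haug (-1)).1 hZ
  have g1 : ∀ n : ℤ, 0 ≤ n → L.Good _ (θB n) n := by
    intro n hn
    induction n, hn using Int.le_induction with
    | base => exact g0
    | succ n hn ih =>
      refine (L.good_iff (θV := θP (n + 1)) (θ' := θB (n + 1)) (θN := θB n)
        (LinearMap.range (dP (n + 1))).subtype
        (dP n).rangeRestrict (Submodule.injective_subtype _) (LinearMap.surjective_rangeRestrict _)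
        (ex _ _ fun x => ?_) (hH _) (fun x => rfl) (fun x => Subtype.ext (hd n x)) n).1 ih
      rw [← exP n hn x]
      exact Subtype.ext_iff
  refine L.good_K_all M ?_ m
  refine (L.good_iff (θV := θP (M + 1)) (θ' := L.θK M) (θN := θB M)
    (pr (M + 1) ∘ₗ (LinearMap.ker (T.d M)).subtype)
    (dP M).rangeRestrict (hp1.1.comp (Submodule.injective_subtype _))
    (LinearMap.surjective_rangeRestrict _) ?_ (hH _)
    (fun x => hpθ _) (fun x => Subtype.ext (hd M x)) M).1 (g1 M hM)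
  intro x
  obtain ⟨x, rfl⟩ := hp1.2 x
  constructor
  · intro h
    have h1 : dP M (pr (M + 1) x) = 0 := congrArg Subtype.val h
    exact ⟨⟨x, hp0 (by rw [← hpd, h1, map_zero])⟩, rfl⟩
  · rintro ⟨y, hy⟩
    apply Subtype.ext
    change dP M (pr (M + 1) x) = 0
    rw [← hy]
    change dP M (pr (M + 1) y) = 0
    rw [hpd, show T.d M y = 0 from y.2, map_zero]

end Lev

end Crest.Agent.R186
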