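import Crest.Agent.R186.GFun

/-! Row 186: the triangular algebra `Λ = [[E,0],[G E,E]]` and its complete resolution. -/

set_option autoImplicit false
set_option linter.unusedSectionVars false
set_option linter.unusedSimpArgs false

namespace Crest.Agent.R186

open LinearMap (trace toSpanSingleton)

universe u

namespace Pkg

variable {k : Type u} [Field k] [CharP k 2] {E : Type u} [Ring E] [Algebra k E]
  [FiniteDimensional k E] (D : Pkg k E)

/-- the bimodule `G E` over `E × E` -/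
def F : Type u := D.G E

noncomputable instance : AddCommGroup D.F := inferInstanceAs (AddCommGroup (D.G E))
noncomputable instance : Module k D.F := inferInstanceAs (Module k (D.G E))
instance : FiniteDimensional k D.F := inferInstanceAs (FiniteDimensional k (D.G E))
noncomputable instance : Module (E × E) D.F := Module.compHom (D.G E) (RingHom.snd E E)

/-- identity `F → G E` -/
def toG (γ : D.F) : D.G E := γ

theorem tsp_mul {X : Type u} [AddCommGroup X] [Module E X] (a : E) (x : X) :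
    toSpanSingleton E X (a • x) = toSpanSingleton E X x ∘ₗ toSpanSingleton E E a := by
  ext; simp

theorem tsp_add {X : Type u} [AddCommGroup X] [Module E X] (x y : X) :
    toSpanSingleton E X (x + y) = toSpanSingleton E X x + toSpanSingleton E X y := by
  ext; simp

theorem tsp_smul {X : Type u} [AddCommGroup X] [Module E X] [Module k X] [IsScalarTower k E X]
    (c : k) (x : X) : toSpanSingleton E X (c • x) = c • toSpanSingleton E X x := by
  ext; simp

theorem tsp_zero {X : Type u} [AddCommGroup X] [Module E X] :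
    toSpanSingleton E X 0 = 0 := by
  ext; simp

theorem tsp_one : toSpanSingleton E E 1 = LinearMap.id := by
  ext; simp

theorem tsp_comp {X Y : Type u} [AddCommGroup X] [Module E X] [AddCommGroup Y] [Module E Y]
    (f : X →ₗ[E] Y) (x : X) : f ∘ₗ toSpanSingleton E X x = toSpanSingleton E Y (f x) := by
  ext; simp

noncomputable instance : Module (E × E)ᵐᵒᵖ D.F where
  smul a ξ := D.map (toSpanSingleton E E a.unop.1) ξ
  one_smul ξ := by
    change D.map (toSpanSingleton E E 1) ξ = ξ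
    rw [tsp_one, D.map_id]
  mul_smul a b ξ := by
    change D.map (toSpanSingleton E E (b.unop.1 • a.unop.1)) ξ = D.map _ (D.map _ ξ)
    rw [tsp_mul, D.map_map]
  smul_zero a := map_zero (D.map _)
  smul_add a := map_add (D.map _)
  add_smul a b ξ := by
    change D.map (toSpanSingleton E E (a.unop.1 + b.unop.1)) (D.toG ξ) =
      D.map _ (D.toG ξ) + D.map _ (D.toG ξ)
    rw [tsp_add, D.map_add']; rfl
  zero_smul ξ := by
    change D.map (toSpanSingleton E E 0) ξ = 0
    rw [tsp_zero, D.map_zero']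

instance : SMulCommClass (E × E) (E × E)ᵐᵒᵖ D.F :=
  ⟨fun a b ξ => ((D.map (toSpanSingleton E E b.unop.1)).map_smul a.2 ξ).symm⟩

instance : IsScalarTower k (E × E) D.F := ⟨fun c a ξ => smul_assoc c a.2 (D.toG ξ)⟩

instance : IsScalarTower k (E × E)ᵐᵒᵖ D.F := ⟨fun c a ξ => by
  change D.map (toSpanSingleton E E (c • a.unop.1)) (D.toG ξ) = c • D.map _ (D.toG ξ)
  rw [tsp_smul (k := k), D.map_smul']⟩

/-- the triangular algebra -/
abbrev Λ : Type u := TrivSqZeroExt (E × E) D.F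

instance : FiniteDimensional k D.Λ := inferInstanceAs (FiniteDimensional k ((E × E) × D.F))

theorem toG_mul (a b : D.Λ) : D.toG (a * b).snd =
    a.fst.2 • D.toG b.snd + D.map (toSpanSingleton E E b.fst.1) (D.toG a.snd) := rfl

section Tr

variable (X U : Type u) [AddCommGroup X] [Module k X] [Module E X] [IsScalarTower k E X]
  [FiniteDimensional k X] [AddCommGroup U] [Module k U] [Module E U] [IsScalarTower k E U]

/-- the `Λ`-module `(X, U ⊕ G X)` -/
def Tr : Type u := X × U × D.G X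

noncomputable instance : AddCommGroup (D.Tr X U) :=
  inferInstanceAs (AddCommGroup (X × U × D.G X))
noncomputable instance : Module k (D.Tr X U) := inferInstanceAs (Module k (X × U × D.G X))

variable {X U}

variable {D} in
/-- first component -/
def Tr.c1 (t : D.Tr X U) : X := Prod.fst t
variable {D} in
/-- second component -/
def Tr.c2 (t : D.Tr X U) : U := Prod.fst (Prod.snd t)
variable {D} in
/-- third component -/
def Tr.c3 (t : D.Tr X U) : D.G X := Prod.snd (Prod.snd t)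

/-- constructor -/
def tr (x : X) (u : U) (ξ : D.G X) : D.Tr X U := (x, u, ξ)

theorem tr_ext {a b : D.Tr X U} (h1 : a.c1 = b.c1) (h2 : a.c2 = b.c2) (h3 : a.c3 = b.c3) :
    a = b := Prod.ext h1 (Prod.ext h2 h3)

noncomputable instance : SMul D.Λ (D.Tr X U) :=
  ⟨fun a t => D.tr (a.fst.1 • t.c1) (a.fst.2 • t.c2)
    (a.fst.2 • t.c3 + D.map (toSpanSingleton E X t.c1) (D.toG a.snd))⟩

theorem smul_1 (a : D.Λ) (t : D.Tr X U) : (a • t).c1 = a.fst.1 • t.c1 := rfl
theorem smul_2 (a : D.Λ) (t : D.Tr X U) : (a • t).c2 = a.fst.2 • t.c2 := rfl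
theorem smul_3 (a : D.Λ) (t : D.Tr X U) :
    (a • t).c3 = a.fst.2 • t.c3 + D.map (toSpanSingleton E X t.c1) (D.toG a.snd) := rfl
theorem add_1 (a b : D.Tr X U) : (a + b).c1 = a.c1 + b.c1 := rfl
theorem add_2 (a b : D.Tr X U) : (a + b).c2 = a.c2 + b.c2 := rfl
theorem add_3 (a b : D.Tr X U) : (a + b).c3 = a.c3 + b.c3 := rfl
theorem zero_1 : (0 : D.Tr X U).c1 = 0 := rfl
theorem zero_2 : (0 : D.Tr X U).c2 = 0 := rfl
theorem zero_3 : (0 : D.Tr X U).c3 = 0 := rfl
theorem tr_1 (x : X) (u : U) (ξ : D.G X) : (D.tr x u ξ).c1 = x := rfl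
theorem tr_2 (x : X) (u : U) (ξ : D.G X) : (D.tr x u ξ).c2 = u := rfl
theorem tr_3 (x : X) (u : U) (ξ : D.G X) : (D.tr x u ξ).c3 = ξ := rfl

noncomputable instance : Module D.Λ (D.Tr X U) where
  one_smul t := D.tr_ext (one_smul _ _) (one_smul _ _) (by
    rw [smul_3]
    change (1 : E) • t.c3 + D.map _ 0 = _
    rw [one_smul, map_zero, add_zero])
  mul_smul a b t := D.tr_ext (mul_smul _ _ _) (mul_smul _ _ _) (by
    rw [smul_3, smul_3, smul_3, toG_mul, smul_1, tsp_mul, map_add, map_smul, D.map_map, smul_add,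
      smul_smul, add_assoc]
    rfl)
  smul_zero a := D.tr_ext (smul_zero _) (smul_zero _) (by
    rw [smul_3, zero_1, zero_3, tsp_zero, D.map_zero', smul_zero, add_zero])
  smul_add a t t' := D.tr_ext (smul_add _ _ _) (smul_add _ _ _) (by
    rw [add_3, smul_3, smul_3, smul_3, add_1, add_3, tsp_add, D.map_add', smul_add]; abel)
  add_smul a b t := D.tr_ext (add_smul _ _ _) (add_smul _ _ _) (by
    rw [add_3, smul_3, smul_3, smul_3]
    change (a.fst.2 + b.fst.2) • t.c3 + D.map _ (D.toG a.snd + D.toG b.snd) = _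
    rw [map_add, add_smul]; abel)
  zero_smul t := D.tr_ext (zero_smul _ _) (zero_smul _ _) (by
    rw [smul_3]
    change (0 : E) • t.c3 + D.map _ 0 = 0
    rw [zero_smul, map_zero, add_zero])

instance : IsScalarTower k D.Λ (D.Tr X U) := ⟨fun c a t =>
  D.tr_ext (smul_assoc c a.fst.1 t.c1) (smul_assoc c a.fst.2 t.c2) (by
    change (c • a.fst.2) • t.c3 + D.map _ (c • D.toG a.snd) = c • (a • t).c3
    rw [smul_3, smul_add, smul_assoc, LinearMap.map_smul_of_tower])⟩

variable {X' U' X'' U'' : Type u} [AddCommGroup X'] [Module k X'] [Module E X']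
  [IsScalarTower k E X'] [FiniteDimensional k X'] [AddCommGroup U'] [Module k U'] [Module E U']
  [IsScalarTower k E U'] [AddCommGroup X''] [Module k X''] [Module E X'']
  [IsScalarTower k E X''] [FiniteDimensional k X''] [AddCommGroup U''] [Module k U''] [Module E U'']
  [IsScalarTower k E U'']

/-- maps between such modules -/
noncomputable def mk3 (f : X →ₗ[E] X') (g : U →ₗ[E] U') (w : U →ₗ[E] D.G X') :
    D.Tr X U →ₗ[D.Λ] D.Tr X' U' where
  toFun t := D.tr (f t.c1) (g t.c2) (w t.c2 + D.map f t.c3)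
  map_add' a b := D.tr_ext (map_add f _ _) (map_add g _ _) (by
    simp only [add_3, tr_3, add_2, map_add]; abel)
  map_smul' a t := D.tr_ext (map_smul f _ _) (map_smul g _ _) (by
    simp only [RingHom.id_apply, smul_3, tr_3, tr_1, smul_2, map_add, map_smul,
      D.map_map, tsp_comp, smul_add, add_assoc])

theorem mk3_apply (f : X →ₗ[E] X') (g : U →ₗ[E] U') (w : U →ₗ[E] D.G X') (t : D.Tr X U) :
    D.mk3 f g w t = D.tr (f t.c1) (g t.c2) (w t.c2 + D.map f t.c3) := rfl

theorem mk3_comp (f : X →ₗ[E] X') (g : U →ₗ[E] U') (w : U →ₗ[E] D.G X') (f' : X' →ₗ[E] X'')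
    (g' : U' →ₗ[E] U'') (w' : U' →ₗ[E] D.G X'') :
    D.mk3 f' g' w' ∘ₗ D.mk3 f g w = D.mk3 (f' ∘ₗ f) (g' ∘ₗ g) (w' ∘ₗ g + D.map f' ∘ₗ w) :=
  LinearMap.ext fun t => D.tr_ext rfl rfl (by
    change w' (g t.c2) + D.map f' (w t.c2 + D.map f t.c3) =
      w' (g t.c2) + D.map f' (w t.c2) + D.map (f' ∘ₗ f) t.c3
    rw [map_add, D.map_map, add_assoc])

theorem mk3_add (f f' : X →ₗ[E] X') (g g' : U →ₗ[E] U') (w w' : U →ₗ[E] D.G X') :
    D.mk3 f g w + D.mk3 f' g' w' = D.mk3 (f + f') (g + g') (w + w') :=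
  LinearMap.ext fun t => D.tr_ext rfl rfl (by
    change (w t.c2 + D.map f t.c3) + (w' t.c2 + D.map f' t.c3) =
      w t.c2 + w' t.c2 + D.map (f + f') t.c3
    rw [D.map_add']; abel)

theorem mk3_inj {f f' : X →ₗ[E] X'} {g g' : U →ₗ[E] U'} {w w' : U →ₗ[E] D.G X'}
    (h : D.mk3 f g w = D.mk3 f' g' w') : f = f' ∧ g = g' ∧ w = w' := by
  refine ⟨LinearMap.ext fun x => ?_, LinearMap.ext fun u => ?_, LinearMap.ext fun u => ?_⟩
  · exact congrArg (fun t => t.c1) (LinearMap.congr_fun h (D.tr x 0 0))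
  · exact congrArg (fun t => t.c2) (LinearMap.congr_fun h (D.tr 0 u 0))
  · have : w u + D.map f 0 = w' u + D.map f' 0 :=
      congrArg (fun t => t.c3) (LinearMap.congr_fun h (D.tr 0 u 0))
    simpa using this

theorem mk3_zero : D.mk3 (0 : X →ₗ[E] X') (0 : U →ₗ[E] U') 0 = 0 :=
  LinearMap.ext fun t => D.tr_ext rfl rfl (by
    change 0 + D.map 0 t.c3 = 0
    rw [D.map_zero', add_zero])

theorem mk3_eq_zero {f : X →ₗ[E] X'} {g : U →ₗ[E] U'} {w : U →ₗ[E] D.G X'} :
    D.mk3 f g w = 0 ↔ f = 0 ∧ g = 0 ∧ w = 0 :=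
  ⟨fun h => D.mk3_inj (h.trans D.mk3_zero.symm), by rintro ⟨rfl, rfl, rfl⟩; exact D.mk3_zero⟩

/-- elements of `Λ` -/
def el (a b : E) (γ : D.G E) : D.Λ := ((a, b), γ)

theorem el_smul (a b : E) (γ : D.G E) (t : D.Tr X U) : D.el a b γ • t =
    D.tr (a • t.c1) (b • t.c2) (b • t.c3 + D.map (toSpanSingleton E X t.c1) γ) := rfl

theorem tr_decomp [Module.Finite E X] [Module.Projective E X] {r : ℕ} (g : Fin r → X →ₗ[E] E)
    (p : Fin r → X) (hp : ∀ x, ∑ j, g j x • p j = x) (ξ : D.G X) :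
    ∑ j, D.map (toSpanSingleton E X (p j)) (D.map (g j) ξ) = ξ := by
  simp only [D.map_map]
  rw [← D.map_sum']
  have : ∑ j, toSpanSingleton E X (p j) ∘ₗ g j = LinearMap.id := by ext x; simp [hp]
  rw [this, D.map_id]

theorem sum_tr {ι : Type*} (t : Finset ι) (x : ι → X) (u : ι → U) (ξ : ι → D.G X) :
    ∑ i ∈ t, D.tr (x i) (u i) (ξ i) = D.tr (∑ i ∈ t, x i) (∑ i ∈ t, u i) (∑ i ∈ t, ξ i) := by
  classical
  induction t using Finset.induction_on with
  | empty => rfl
  | insert i t hi ih => simp only [Finset.sum_insert hi, ih]; rfl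

theorem mk3_surj [Module.Finite E X] [Module.Projective E X]
    (Φ : D.Tr X U →ₗ[D.Λ] D.Tr X' U') : ∃ f g w, D.mk3 f g w = Φ := by
  have h1 : ∀ (a : E) (x : X), Φ (D.tr (a • x) 0 0) = D.el a 0 0 • Φ (D.tr x 0 0) := fun a x => by
    rw [← map_smul, el_smul]; congr 1
    exact D.tr_ext rfl (by simp [tr_2]) (by simp [tr_3])
  have h2 : ∀ (a : E) (u : U), Φ (D.tr 0 (a • u) 0) = D.el 0 a 0 • Φ (D.tr 0 u 0) := fun a x => by
    rw [← map_smul, el_smul]; congr 1
    exact D.tr_ext (by simp [tr_1]) rfl (by simp [tr_3])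
  have a1 : ∀ x y : X, Φ (D.tr (x + y) 0 0) = Φ (D.tr x 0 0) + Φ (D.tr y 0 0) := fun x y => by
    rw [← map_add]; congr 1
    exact D.tr_ext rfl (add_zero _).symm (add_zero _).symm
  have a2 : ∀ x y : U, Φ (D.tr 0 (x + y) 0) = Φ (D.tr 0 x 0) + Φ (D.tr 0 y 0) := fun x y => by
    rw [← map_add]; congr 1
    exact D.tr_ext (add_zero _).symm rfl (add_zero _).symm
  let f : X →ₗ[E] X' := ⟨⟨fun x => (Φ (D.tr x 0 0)).c1, fun x y => by rw [a1]; rfl⟩,
    fun a x => by simp only [h1]; rfl⟩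
  let g : U →ₗ[E] U' := ⟨⟨fun x => (Φ (D.tr 0 x 0)).c2, fun x y => by rw [a2]; rfl⟩,
    fun a x => by simp only [h2]; rfl⟩
  let w : U →ₗ[E] D.G X' := ⟨⟨fun x => (Φ (D.tr 0 x 0)).c3, fun x y => by rw [a2]; rfl⟩,
    fun a x => by simp only [h2, el_smul, tr_3, map_zero, add_zero]; rfl⟩
  have e1 : ∀ x, Φ (D.tr x 0 0) = D.tr (f x) 0 0 := fun x => by
    have := h1 1 x
    rw [one_smul, el_smul] at this
    refine D.tr_ext rfl ?_ ?_
    · rw [this, tr_2, tr_2, zero_smul]
    · rw [this, tr_3, tr_3, zero_smul, map_zero, add_zero]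
  have e2 : ∀ u, Φ (D.tr 0 u 0) = D.tr 0 (g u) (w u) := fun u => by
    have := h2 1 u
    rw [one_smul, el_smul] at this
    refine D.tr_ext ?_ rfl rfl
    rw [this, tr_1, tr_1, zero_smul]
  obtain ⟨r, gg, p, hp⟩ := exists_dualBasis E X
  have e3 : ∀ ξ, Φ (D.tr 0 0 ξ) = D.tr 0 0 (D.map f ξ) := fun ξ => by
    have b1 : ∀ (x : X) (γ : D.G E), (D.tr 0 0 (D.map (toSpanSingleton E X x) γ) : D.Tr X U) =
        D.el 0 0 γ • D.tr x 0 0 := fun x γ => by
      rw [el_smul]; exact D.tr_ext (by simp [tr_1]) (by simp [tr_2]) (by simp [tr_3, tr_1])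
    have b2 : (D.tr 0 0 ξ : D.Tr X U) =
        ∑ j, D.tr 0 0 (D.map (toSpanSingleton E X (p j)) (D.map (gg j) ξ)) := by
      rw [sum_tr, D.tr_decomp gg p hp]; simp
    rw [b2, map_sum]
    simp only [b1, map_smul, e1]
    simp only [el_smul, tr_1, tr_2, tr_3, zero_smul, zero_add]
    rw [sum_tr]
    refine D.tr_ext (by simp [tr_1]) (by simp [tr_2]) ?_
    rw [tr_3, tr_3]
    conv_rhs => rw [← D.tr_decomp gg p hp ξ, map_sum]
    refine Finset.sum_congr rfl fun j _ => ?_
    rw [D.map_map (toSpanSingleton E X (p j)), tsp_comp]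
  refine ⟨f, g, w, LinearMap.ext fun t => ?_⟩
  have : t = D.tr t.c1 0 0 + D.tr 0 t.c2 0 + D.tr 0 0 t.c3 :=
    D.tr_ext (by simp [add_1, tr_1]) (by simp [add_2, tr_2]) (by simp [add_3, tr_3])
  conv_rhs => rw [this, map_add, map_add, e1, e2, e3]
  exact D.tr_ext (by simp [add_1, tr_1, mk3_apply]) (by simp [add_2, tr_2, mk3_apply])
    (by simp [add_3, tr_3, mk3_apply])

/-- the regular module -/
noncomputable def reg : D.Tr E E ≃ₗ[D.Λ] D.Λ where
  toFun t := D.el t.c1 t.c2 t.c3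
  invFun a := D.tr a.fst.1 a.fst.2 (D.toG a.snd)
  map_add' _ _ := rfl
  map_smul' _ _ := rfl
  left_inv _ := rfl
  right_inv _ := rfl

theorem tr_fin_proj [Module.Finite E X] [Module.Projective E X] [Module.Finite E U]
    [Module.Projective E U] :
    Module.Finite D.Λ (D.Tr X U) ∧ Module.Projective D.Λ (D.Tr X U) := by
  obtain ⟨r, g, p, hp⟩ := exists_dualBasis E X
  obtain ⟨r', g', p', hp'⟩ := exists_dualBasis E U
  refine finite_projective_of_dualBasis (ι := Fin r ⊕ Fin r')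
    (Sum.elim (fun j => D.reg.toLinearMap ∘ₗ D.mk3 (g j) 0 0)
      (fun j => D.reg.toLinearMap ∘ₗ D.mk3 0 (g' j) 0))
    (Sum.elim (fun j => D.tr (p j) 0 0) (fun j => D.tr 0 (p' j) 0)) fun t => ?_
  rw [Fintype.sum_sum_type]
  have e1 : ∀ j, (D.reg.toLinearMap ∘ₗ D.mk3 (g j) 0 0) t • (D.tr (p j) 0 0 : D.Tr X U) =
      D.tr (g j t.c1 • p j) 0 (D.map (toSpanSingleton E X (p j)) (D.map (g j) t.c3)) := fun j =>
    D.tr_ext rfl (smul_zero _) (by
      change _ • (0 : D.G X) + D.map _ (0 + D.map (g j) t.c3) = _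
      rw [smul_zero, zero_add, zero_add]; rfl)
  have e2 : ∀ j, (D.reg.toLinearMap ∘ₗ D.mk3 0 (g' j) 0) t • (D.tr 0 (p' j) 0 : D.Tr X U) =
      D.tr 0 (g' j t.c2 • p' j) 0 := fun j =>
    D.tr_ext (smul_zero _) rfl (by
      change _ • (0 : D.G X) + D.map (toSpanSingleton E X 0) _ = 0
      rw [smul_zero, tsp_zero, D.map_zero', add_zero])
  simp only [Sum.elim_inl, Sum.elim_inr, e1, e2, sum_tr, hp, hp', D.tr_decomp g p hp]
  exact D.tr_ext (by simp [add_1, tr_1]) (by simp [add_2, tr_2]) (by simp [add_3, tr_3])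

end Tr

end Pkg

end Crest.Agent.R186
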