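import Crest.Agent.R186.Basic
import Crest.Prelude.Def_SymmetricAlgebra

/-! Row 186: the trivial extension algebra `TE k Λ = Λ ⋉ DΛ` and the induced modules
`Ind k Λ P = P × νP`. -/

set_option autoImplicit false

namespace Crest.Agent.R186

universe u

/-- a linear form vanishing on the kernel of `u` factors through `u` -/
theorem exists_form_factor {k V W : Type*} [Field k] [AddCommGroup V] [Module k V]
    [AddCommGroup W] [Module k W] (u : V →ₗ[k] W) (ℓ : V →ₗ[k] k)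
    (h : ∀ x, u x = 0 → ℓ x = 0) : ∃ ℓ' : W →ₗ[k] k, ∀ x, ℓ' (u x) = ℓ x := by
  have h1 : ℓ ∈ (LinearMap.ker u).dualAnnihilator :=
    (Submodule.mem_dualAnnihilator ℓ).2 fun x hx => h x hx
  rw [← LinearMap.range_dualMap_eq_dualAnnihilator_ker] at h1
  obtain ⟨ℓ', hℓ'⟩ := h1
  exact ⟨ℓ', fun x => LinearMap.congr_fun hℓ' x⟩

section DM

variable (k : Type u) [Field k] (Λ : Type u) [Ring Λ] [Algebra k Λ]

/-- the dual bimodule `DΛ` -/
def DM : Type u := Λ →ₗ[k] k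

namespace DM

instance : AddCommGroup (DM k Λ) := inferInstanceAs (AddCommGroup (Λ →ₗ[k] k))
instance : Module k (DM k Λ) := inferInstanceAs (Module k (Λ →ₗ[k] k))

variable {k Λ}

/-- the underlying linear form -/
def ev (φ : DM k Λ) : Λ →ₗ[k] k := φ

/-- a linear form as an element of the bimodule -/
def mk (φ : Λ →ₗ[k] k) : DM k Λ := φ

@[simp] theorem ev_mk (φ : Λ →ₗ[k] k) : (mk φ).ev = φ := rfl

@[ext] theorem ext {φ ψ : DM k Λ} (h : ∀ y, φ.ev y = ψ.ev y) : φ = ψ := LinearMap.ext h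

@[simp] theorem ev_zero (y : Λ) : (0 : DM k Λ).ev y = 0 := rfl
@[simp] theorem ev_add (φ ψ : DM k Λ) (y : Λ) : (φ + ψ).ev y = φ.ev y + ψ.ev y := rfl
@[simp] theorem ev_ksmul (c : k) (φ : DM k Λ) (y : Λ) : (c • φ).ev y = c * φ.ev y := rfl

instance : SMul Λ (DM k Λ) := ⟨fun a φ => mk (φ.ev ∘ₗ LinearMap.mulRight k a)⟩
instance : SMul Λᵐᵒᵖ (DM k Λ) := ⟨fun b φ => mk (φ.ev ∘ₗ LinearMap.mulLeft k b.unop)⟩

@[simp] theorem ev_smul (a : Λ) (φ : DM k Λ) (y : Λ) : (a • φ).ev y = φ.ev (y * a) := rfl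
@[simp] theorem ev_op_smul (b : Λᵐᵒᵖ) (φ : DM k Λ) (y : Λ) :
    (b • φ).ev y = φ.ev (b.unop * y) := rfl

instance : Module Λ (DM k Λ) where
  one_smul φ := by ext; simp
  mul_smul a b φ := by ext; simp [mul_assoc]
  smul_zero a := by ext; simp
  smul_add a φ ψ := by ext; simp
  add_smul a b φ := by ext; simp [mul_add]
  zero_smul φ := by ext; simp

instance : Module Λᵐᵒᵖ (DM k Λ) where
  one_smul φ := by ext; simp
  mul_smul a b φ := by ext; simp [mul_assoc]
  smul_zero a := by ext; simp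
  smul_add a φ ψ := by ext; simp
  add_smul a b φ := by ext; simp [add_mul]
  zero_smul φ := by ext; simp

instance : SMulCommClass Λ Λᵐᵒᵖ (DM k Λ) := ⟨fun a b φ => by ext; simp [mul_assoc]⟩
instance : IsScalarTower k Λ (DM k Λ) := ⟨fun c a φ => by ext; simp⟩
instance : IsScalarTower k Λᵐᵒᵖ (DM k Λ) := ⟨fun c a φ => by ext; simp⟩

instance [FiniteDimensional k Λ] : FiniteDimensional k (DM k Λ) :=
  inferInstanceAs (FiniteDimensional k (Λ →ₗ[k] k))

end DM

/-- the trivial extension algebra -/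
abbrev TE : Type u := TrivSqZeroExt Λ (DM k Λ)

instance [FiniteDimensional k Λ] : FiniteDimensional k (TE k Λ) :=
  inferInstanceAs (FiniteDimensional k (Λ × DM k Λ))

/-- the symmetrizing form -/
def teForm : TE k Λ →ₗ[k] k where
  toFun x := x.snd.ev 1
  map_add' x y := by simp
  map_smul' c x := by simp

theorem teForm_mul (x y : TE k Λ) : teForm k Λ (x * y) = y.snd.ev x.fst + x.snd.ev y.fst := by
  simp [teForm]

theorem isSymmetric_TE [FiniteDimensional k Λ] :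
    Crest.AlgebraR.IsSymmetricAlgebra k (TE k Λ) := by
  let φ : TE k Λ →ₗ[k] Module.Dual k (TE k Λ) :=
    (LinearMap.mul k (TE k Λ)).compr₂ (teForm k Λ)
  have hφ : ∀ x y, φ x y = teForm k Λ (x * y) := fun x y => rfl
  have hinj : Function.Injective φ := by
    rw [injective_iff_map_eq_zero]
    intro x hx
    have h : ∀ y : TE k Λ, y.snd.ev x.fst + x.snd.ev y.fst = 0 := fun y => by
      rw [← teForm_mul, ← hφ, hx]; rfl
    refine TrivSqZeroExt.ext ?_ ?_
    · refine (Module.forall_dual_apply_eq_zero_iff k x.fst).1 fun g => ?_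
      simpa using h (TrivSqZeroExt.inr (DM.mk g))
    · ext b
      simpa using h (TrivSqZeroExt.inl b)
  refine ⟨LinearMap.linearEquivOfInjective φ hinj Subspace.dual_finrank_eq.symm, ?_⟩
  intro a x b y
  have hs : ∀ u v : TE k Λ, teForm k Λ (u * v) = teForm k Λ (v * u) := fun u v => by
    rw [teForm_mul, teForm_mul, add_comm]
  change teForm k Λ (a * x * b * y) = teForm k Λ (x * (b * y * a))
  rw [mul_assoc, mul_assoc, hs a]
  simp only [mul_assoc]

end DM

section Nu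

variable (k : Type u) [Field k] (Λ : Type u) [Ring Λ] [Algebra k Λ]
variable (P : Type u) [AddCommGroup P] [Module Λ P]
variable (Q : Type u) [AddCommGroup Q] [Module Λ Q]

/-- the Nakayama functor on a projective module -/
def Nu : Type u := (P →ₗ[Λ] Λ) →ₗ[k] k

/-- right multiplication of a form `P → Λ` by an element of `Λ` -/
def rmul (a : Λ) : (P →ₗ[Λ] Λ) →ₗ[k] (P →ₗ[Λ] Λ) where
  toFun g := LinearMap.toSpanSingleton Λ Λ a ∘ₗ g
  map_add' g h := by ext; simp [add_mul]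
  map_smul' c g := by ext; simp

@[simp] theorem rmul_apply (a : Λ) (g : P →ₗ[Λ] Λ) (p : P) : rmul k Λ P a g p = g p * a := rfl

/-- precomposition of forms -/
def pre (f : P →ₗ[Λ] Q) : (Q →ₗ[Λ] Λ) →ₗ[k] (P →ₗ[Λ] Λ) where
  toFun g := g ∘ₗ f
  map_add' g h := by ext; simp
  map_smul' c g := by ext; simp

@[simp] theorem pre_apply (f : P →ₗ[Λ] Q) (g : Q →ₗ[Λ] Λ) : pre k Λ P Q f g = g ∘ₗ f := rfl

/-- evaluation of forms -/
def evalAt (p : P) : (P →ₗ[Λ] Λ) →ₗ[k] Λ where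
  toFun g := g p
  map_add' g h := by simp
  map_smul' c g := by simp

@[simp] theorem evalAt_apply (p : P) (g : P →ₗ[Λ] Λ) : evalAt k Λ P p g = g p := rfl

/-- `a ↦ g · a` -/
def rmulBy (g : P →ₗ[Λ] Λ) : Λ →ₗ[k] (P →ₗ[Λ] Λ) where
  toFun a := rmul k Λ P a g
  map_add' a b := by ext; simp [mul_add]
  map_smul' c a := by ext; simp

@[simp] theorem rmulBy_apply (g : P →ₗ[Λ] Λ) (a : Λ) : rmulBy k Λ P g a = rmul k Λ P a g := rfl

namespace Nu

instance : AddCommGroup (Nu k Λ P) := inferInstanceAs (AddCommGroup ((P →ₗ[Λ] Λ) →ₗ[k] k))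
instance : Module k (Nu k Λ P) := inferInstanceAs (Module k ((P →ₗ[Λ] Λ) →ₗ[k] k))

variable {k Λ P Q}

/-- the underlying linear form -/
def ev (ξ : Nu k Λ P) : (P →ₗ[Λ] Λ) →ₗ[k] k := ξ

/-- a linear form as an element of `Nu` -/
def mk (ξ : (P →ₗ[Λ] Λ) →ₗ[k] k) : Nu k Λ P := ξ

@[simp] theorem ev_mk (ξ : (P →ₗ[Λ] Λ) →ₗ[k] k) : (mk ξ).ev = ξ := rfl

@[ext] theorem ext {ξ ζ : Nu k Λ P} (h : ∀ g, ξ.ev g = ζ.ev g) : ξ = ζ := LinearMap.ext h

@[simp] theorem ev_zero (g : P →ₗ[Λ] Λ) : (0 : Nu k Λ P).ev g = 0 := rfl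
@[simp] theorem ev_add (ξ ζ : Nu k Λ P) (g : P →ₗ[Λ] Λ) :
    (ξ + ζ).ev g = ξ.ev g + ζ.ev g := rfl
@[simp] theorem ev_ksmul (c : k) (ξ : Nu k Λ P) (g : P →ₗ[Λ] Λ) :
    (c • ξ).ev g = c * ξ.ev g := rfl

theorem ev_sum {ι : Type*} (s : Finset ι) (ξ : ι → Nu k Λ P) (g : P →ₗ[Λ] Λ) :
    (∑ j ∈ s, ξ j).ev g = ∑ j ∈ s, (ξ j).ev g := by
  classical
  induction s using Finset.induction_on with
  | empty => simp
  | insert a s ha ih => simp [Finset.sum_insert ha, ih]

instance : SMul Λ (Nu k Λ P) := ⟨fun a ξ => mk (ξ.ev ∘ₗ rmul k Λ P a)⟩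

@[simp] theorem ev_smul (a : Λ) (ξ : Nu k Λ P) (g : P →ₗ[Λ] Λ) :
    (a • ξ).ev g = ξ.ev (rmul k Λ P a g) := rfl

instance : Module Λ (Nu k Λ P) where
  one_smul ξ := by
    ext g; simp only [ev_smul]; congr 1; ext; simp
  mul_smul a b ξ := by
    ext g; simp only [ev_smul]; congr 1; ext; simp [mul_assoc]
  smul_zero a := by ext; simp
  smul_add a φ ψ := by ext; simp
  add_smul a b φ := by
    ext g; simp only [ev_smul, ev_add]; rw [← map_add]; congr 1; ext; simp [mul_add]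
  zero_smul φ := by
    ext g; simp only [ev_smul, ev_zero]
    have : rmul k Λ P 0 g = 0 := by ext; simp
    rw [this, map_zero]

instance : IsScalarTower k Λ (Nu k Λ P) := ⟨fun c a φ => by
  ext g
  simp only [ev_smul, ev_ksmul]
  have : rmul k Λ P (c • a) g = c • rmul k Λ P a g := by ext; simp
  rw [this, map_smul, smul_eq_mul]⟩

/-- functoriality of `Nu` -/
def map (f : P →ₗ[Λ] Q) : Nu k Λ P →ₗ[Λ] Nu k Λ Q where
  toFun ξ := mk (ξ.ev ∘ₗ pre k Λ P Q f)
  map_add' ξ ζ := by ext; simp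
  map_smul' a ξ := by
    ext g
    simp only [ev_mk, LinearMap.comp_apply, pre_apply, ev_smul, RingHom.id_apply]
    congr 1

@[simp] theorem ev_map (f : P →ₗ[Λ] Q) (ξ : Nu k Λ P) (g : Q →ₗ[Λ] Λ) :
    (map f ξ).ev g = ξ.ev (g ∘ₗ f) := rfl

/-- the pairing `DΛ × P → νP` -/
def star (φ : DM k Λ) (p : P) : Nu k Λ P := mk (φ.ev ∘ₗ evalAt k Λ P p)

@[simp] theorem ev_star (φ : DM k Λ) (p : P) (g : P →ₗ[Λ] Λ) :
    (star φ p).ev g = φ.ev (g p) := rfl

/-- the coefficient `νP → DΛ` of a form `g` -/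
def coef (g : P →ₗ[Λ] Λ) (ξ : Nu k Λ P) : DM k Λ := DM.mk (ξ.ev ∘ₗ rmulBy k Λ P g)

@[simp] theorem ev_coef (g : P →ₗ[Λ] Λ) (ξ : Nu k Λ P) (a : Λ) :
    (coef g ξ).ev a = ξ.ev (rmul k Λ P a g) := rfl

theorem sum_star_coef {ι : Type*} [Fintype ι] (g : ι → P →ₗ[Λ] Λ) (p : ι → P)
    (h : ∀ x, ∑ j, g j x • p j = x) (ξ : Nu k Λ P) : ∑ j, star (coef (g j) ξ) (p j) = ξ := by
  ext f
  simp only [ev_sum, ev_star, ev_coef]
  rw [← map_sum]
  congr 1
  ext x
  conv_rhs => rw [← h x]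
  simp [LinearMap.sum_apply, map_sum]

end Nu

end Nu

section Ind

variable (k : Type u) [Field k] (Λ : Type u) [Ring Λ] [Algebra k Λ]
variable (P : Type u) [AddCommGroup P] [Module Λ P]
variable (Q : Type u) [AddCommGroup Q] [Module Λ Q]

/-- the induced module -/
def Ind : Type u := P × Nu k Λ P

namespace Ind

instance : AddCommGroup (Ind k Λ P) := inferInstanceAs (AddCommGroup (P × Nu k Λ P))
instance [Module k P] : Module k (Ind k Λ P) := inferInstanceAs (Module k (P × Nu k Λ P))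

variable {k Λ P Q}

/-- first component -/
def fst (x : Ind k Λ P) : P := Prod.fst x
/-- second component -/
def snd (x : Ind k Λ P) : Nu k Λ P := Prod.snd x
/-- constructor -/
def mk (p : P) (ξ : Nu k Λ P) : Ind k Λ P := (p, ξ)

@[simp] theorem fst_mk (p : P) (ξ : Nu k Λ P) : (mk p ξ).fst = p := rfl
@[simp] theorem snd_mk (p : P) (ξ : Nu k Λ P) : (mk p ξ).snd = ξ := rfl

theorem ext {x y : Ind k Λ P} (h1 : x.fst = y.fst) (h2 : x.snd = y.snd) : x = y := Prod.ext h1 h2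

@[simp] theorem fst_zero : (0 : Ind k Λ P).fst = 0 := rfl
@[simp] theorem snd_zero : (0 : Ind k Λ P).snd = 0 := rfl
@[simp] theorem fst_add (x y : Ind k Λ P) : (x + y).fst = x.fst + y.fst := rfl
@[simp] theorem snd_add (x y : Ind k Λ P) : (x + y).snd = x.snd + y.snd := rfl
@[simp] theorem fst_ksmul [Module k P] (c : k) (x : Ind k Λ P) : (c • x).fst = c • x.fst := rfl
@[simp] theorem snd_ksmul [Module k P] (c : k) (x : Ind k Λ P) : (c • x).snd = c • x.snd := rfl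

theorem fst_sum {ι : Type*} (s : Finset ι) (x : ι → Ind k Λ P) :
    (∑ j ∈ s, x j).fst = ∑ j ∈ s, (x j).fst := Prod.fst_sum
theorem snd_sum {ι : Type*} (s : Finset ι) (x : ι → Ind k Λ P) :
    (∑ j ∈ s, x j).snd = ∑ j ∈ s, (x j).snd := Prod.snd_sum

instance : SMul (TE k Λ) (Ind k Λ P) :=
  ⟨fun a x => mk (a.fst • x.fst) (a.fst • x.snd + Nu.star a.snd x.fst)⟩

@[simp] theorem fst_smul (a : TE k Λ) (x : Ind k Λ P) : (a • x).fst = a.fst • x.fst := rfl
@[simp] theorem snd_smul (a : TE k Λ) (x : Ind k Λ P) :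
    (a • x).snd = a.fst • x.snd + Nu.star a.snd x.fst := rfl

instance : Module (TE k Λ) (Ind k Λ P) where
  one_smul x := ext (by simp) (by ext; simp)
  mul_smul a b x := ext (by simp [mul_smul]) (by ext; simp [mul_smul, add_assoc])
  smul_zero a := ext (by simp) (by ext; simp)
  smul_add a x y := ext (by simp) (by ext; simp; ring)
  add_smul a b x := ext (by simp [add_smul]) (by ext; simp [add_smul]; ring)
  zero_smul x := ext (by simp) (by ext; simp)

instance [Module k P] [IsScalarTower k Λ P] : IsScalarTower k (TE k Λ) (Ind k Λ P) :=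
  ⟨fun c a x => ext (by simp) (by ext; simp [mul_add])⟩

/-- the general linear map between induced modules -/
def hom (f : P →ₗ[Λ] Q) (w : P →ₗ[Λ] Nu k Λ Q) : Ind k Λ P →ₗ[TE k Λ] Ind k Λ Q where
  toFun x := mk (f x.fst) (w x.fst + Nu.map f x.snd)
  map_add' x y := ext (by simp) (by simp; abel)
  map_smul' a x := ext (by simp) (by ext; simp; ring)

@[simp] theorem fst_hom (f : P →ₗ[Λ] Q) (w : P →ₗ[Λ] Nu k Λ Q) (x : Ind k Λ P) :
    (hom f w x).fst = f x.fst := rfl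
@[simp] theorem snd_hom (f : P →ₗ[Λ] Q) (w : P →ₗ[Λ] Nu k Λ Q) (x : Ind k Λ P) :
    (hom f w x).snd = w x.fst + Nu.map f x.snd := rfl

/-- the general linear map to the ring -/
def homA (f : P →ₗ[Λ] Λ) (w : P →ₗ[Λ] DM k Λ) : Ind k Λ P →ₗ[TE k Λ] TE k Λ where
  toFun x := TrivSqZeroExt.inl (f x.fst) + TrivSqZeroExt.inr (w x.fst + Nu.coef f x.snd)
  map_add' x y := TrivSqZeroExt.ext (by simp) (by ext; simp; ring)
  map_smul' a x := TrivSqZeroExt.ext (by simp) (by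
    ext b
    have : rmul k Λ P a.fst (rmul k Λ P b f) = rmul k Λ P (b * a.fst) f := by
      ext; simp [mul_assoc]
    simp [this]; ring)

@[simp] theorem fst_homA (f : P →ₗ[Λ] Λ) (w : P →ₗ[Λ] DM k Λ) (x : Ind k Λ P) :
    (homA f w x).fst = f x.fst := by simp [homA]
@[simp] theorem snd_homA (f : P →ₗ[Λ] Λ) (w : P →ₗ[Λ] DM k Λ) (x : Ind k Λ P) :
    (homA f w x).snd = w x.fst + Nu.coef f x.snd := by simp [homA]

theorem dualBasis {ι : Type*} [Fintype ι] (g : ι → P →ₗ[Λ] Λ) (p : ι → P)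
    (h : ∀ x, ∑ j, g j x • p j = x) (x : Ind k Λ P) :
    ∑ j, homA (g j) 0 x • mk (p j) (0 : Nu k Λ P) = x := by
  refine ext ?_ ?_
  · simp [fst_sum, h]
  · simp [snd_sum, Nu.sum_star_coef g p h]

theorem finite_projective [Module.Finite Λ P] [Module.Projective Λ P] :
    Module.Finite (TE k Λ) (Ind k Λ P) ∧ Module.Projective (TE k Λ) (Ind k Λ P) := by
  obtain ⟨r, g, p, h⟩ := exists_dualBasis Λ P
  exact finite_projective_of_dualBasis _ _ (dualBasis g p h)

theorem hom_ext [Module.Finite Λ P] [Module.Projective Λ P] {M : Type*} [AddCommGroup M]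
    [Module (TE k Λ) M] {F G : Ind k Λ P →ₗ[TE k Λ] M} (h : ∀ p, F (mk p 0) = G (mk p 0)) :
    F = G := by
  obtain ⟨r, g, p, hp⟩ := exists_dualBasis Λ P
  ext x
  rw [← dualBasis g p hp x]
  simp [map_sum, h]

theorem mk_add (p q : P) : (mk (p + q) 0 : Ind k Λ P) = mk p 0 + mk q 0 := ext rfl (by simp)

theorem mk_smul (a : Λ) (p : P) :
    (mk (a • p) 0 : Ind k Λ P) = (TrivSqZeroExt.inl a : TE k Λ) • mk p 0 :=
  ext (by simp) (by ext; simp)

/-- first component of a map of induced modules -/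
def homFst (F : Ind k Λ P →ₗ[TE k Λ] Ind k Λ Q) : P →ₗ[Λ] Q where
  toFun p := (F (mk p 0)).fst
  map_add' p q := by simp [mk_add]
  map_smul' a p := by simp [mk_smul]

/-- second component of a map of induced modules -/
def homSnd (F : Ind k Λ P →ₗ[TE k Λ] Ind k Λ Q) : P →ₗ[Λ] Nu k Λ Q where
  toFun p := (F (mk p 0)).snd
  map_add' p q := by simp [mk_add]
  map_smul' a p := by ext; simp [mk_smul]

/-- first component of a map to the ring -/
def homAFst (F : Ind k Λ P →ₗ[TE k Λ] TE k Λ) : P →ₗ[Λ] Λ where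
  toFun p := (F (mk p 0)).fst
  map_add' p q := by simp [mk_add]
  map_smul' a p := by simp [mk_smul]

/-- second component of a map to the ring -/
def homASnd (F : Ind k Λ P →ₗ[TE k Λ] TE k Λ) : P →ₗ[Λ] DM k Λ where
  toFun p := (F (mk p 0)).snd
  map_add' p q := by simp [mk_add]
  map_smul' a p := by ext; simp [mk_smul]

@[simp] theorem homFst_apply (F : Ind k Λ P →ₗ[TE k Λ] Ind k Λ Q) (p : P) :
    homFst F p = (F (mk p 0)).fst := rfl
@[simp] theorem homSnd_apply (F : Ind k Λ P →ₗ[TE k Λ] Ind k Λ Q) (p : P) :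
    homSnd F p = (F (mk p 0)).snd := rfl
@[simp] theorem homAFst_apply (F : Ind k Λ P →ₗ[TE k Λ] TE k Λ) (p : P) :
    homAFst F p = (F (mk p 0)).fst := rfl
@[simp] theorem homASnd_apply (F : Ind k Λ P →ₗ[TE k Λ] TE k Λ) (p : P) :
    homASnd F p = (F (mk p 0)).snd := rfl

theorem hom_zero_mk (f : P →ₗ[Λ] Q) (p : P) :
    hom (k := k) f 0 (mk p 0) = mk (f p) 0 := ext (by simp) (by simp)

end Ind

end Ind

end Crest.Agent.R186
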