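import Crest.Agent.R186.ZS
import Crest.Agent.R186.Sing

/-! Row 186: from Gorenstein data with a twist to the input package of the gluing construction. -/

set_option autoImplicit false
set_option linter.unusedSectionVars false
set_option linter.unusedSimpArgs false
set_option maxHeartbeats 400000

namespace Crest.Agent.R186

open LinearMap (trace)
open Finsupp (single)

universe u

variable {k : Type u} [Field k] [CharP k 2] {E : Type u} [Ring E] [Algebra k E]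
  [FiniteDimensional k E]

theorem coker_le_one' {V : Type*} [AddCommGroup V] [Module k V]
    [FiniteDimensional k V] (Z : Submodule k V) (Ψ : V →ₗ[k] V) (hZ : ∀ x ∈ Z, Ψ x ∈ Z)
    (l : V →ₗ[k] k) (p : Prop) (h : ∀ x ∈ Z, Ψ x = 0 → (p ∨ l x = 0) → x = 0) :
    ∃ y₀ ∈ Z, ∀ y ∈ Z, ∃ (c : k) (x : V), (p → c = 0) ∧ x ∈ Z ∧ y = c • y₀ + Ψ x := by
  obtain ⟨y₀, -, H⟩ := coker_le_one (⊤ : Submodule k Z) (Ψ.restrict hZ) (fun _ _ => trivial)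
    (l ∘ₗ Z.subtype) p (fun x h1 h2 => Subtype.ext (h x x.2 (congrArg Subtype.val h1) h2))
  refine ⟨y₀, y₀.2, fun y hy => ?_⟩
  obtain ⟨c, x, h1, -, h2⟩ := H ⟨y, hy⟩ trivial
  exact ⟨c, x, h1, x.2, congrArg Subtype.val h2⟩

/-- twisting data -/
structure Tw (X : GDat k E) (Z : ZS k E) where
  h : E ≃ₐ[k] E
  h_S : ∀ a ∈ Z.S, h a = a
  χ_h : ∀ a, X.χ (h a) = X.χ a
  θP : ∀ n, X.P.M n ≃ₗ[k] X.P.M n
  θQ : ∀ n, X.Q.M n ≃ₗ[k] X.Q.M n
  κP : ∀ n, X.P.M n →ₗ[k] X.P.M (n + 1)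
  κQ : ∀ n, X.Q.M n →ₗ[k] X.Q.M (n + 1)
  θP_H : ∀ n (a : E) x, θP n (a • x) = h a • θP n x
  θQ_H : ∀ n (a : E) x, θQ n (a • x) = h a • θQ n x
  κP_S : ∀ n, ∀ a ∈ Z.S, ∀ x, κP n (a • x) = a • κP n x
  κQ_S : ∀ n, ∀ a ∈ Z.S, ∀ x, κQ n (a • x) = a • κQ n x
  θP_d : ∀ n x, X.dP n (θP (n + 1) x) = θP n (X.dP n x)
  θQ_d : ∀ n x, X.dQ n (θQ (n + 1) x) = θQ n (X.dQ n x)
  θ_c : ∀ n x, X.c n (θP n x) = θQ n (X.c n x)
  κP_eq : ∀ n x, X.dP (n + 1) (κP (n + 1) x) + κP n (X.dP n x) = x + θP (n + 1) x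
  κQ_eq : ∀ n x, X.dQ (n + 1) (κQ (n + 1) x) + κQ n (X.dQ n x) = x + θQ (n + 1) x
  κ_c : ∀ n x, X.c (n + 1) (κP n x) = κQ n (X.c n x)
  genP : ∀ n i hi, i ≠ X.i₀ → X.χ (X.P.e i) = 0 ∨
    ∃ w : k, w ≠ 1 ∧ θP n (X.P.gen n i hi) = w • X.P.gen n i hi
  genQ : ∀ n i hi, ∃ w : k, w ≠ 1 ∧ θQ n (X.Q.gen n i hi) = w • X.Q.gen n i hi
  aug_θ : ∀ x, X.aug (θP 0 x) = X.aug x
  W : Type u
  [ring : Ring W]
  [alg : Algebra k W]
  ρ : E →ₐ[k] W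
  ι : k →ₗ[k] W
  l : W →ₗ[k] k
  ι_S : ∀ a ∈ Z.S, ∀ c, ι (X.χ a * c) = ρ a * ι c
  l_S : ∀ a ∈ Z.S, ∀ w, l (ρ a * w) = X.χ a * l w
  l_ι : ∀ c, l (ι c) = 0
  l_zι : ∀ c, l (ρ Z.z * ι c) = c
  η₁ : X.P.I →₀ W
  η₂ : X.Q.I →₀ W
  c₁ : IsContr (cx (am (aρ ρ) X.P.Eps)) (cx (am (aρ ρ) X.DPt)) η₁
  c₂ : IsContr (cx (am (aρ ρ) X.Q.Eps)) (cx (am (aρ ρ) X.DQt)) η₂
  d₁ : ∀ i, X.P.deg i ≠ 0 → η₁ i = 0
  d₂ : ∀ i, X.Q.deg i ≠ 4 → η₂ i = 0

attribute [instance] Tw.ring Tw.alg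

namespace Tw

variable {X : GDat k E} {Z : ZS k E} (t : Tw X Z)

/-- the twist of the complete resolution -/
noncomputable def θ (n : ℤ) : X.T.P n ≃ₗ[k] X.T.P n := (t.θP n).prodCongr (t.θQ (n + 1))

/-- the homotopy -/
noncomputable def κ (n : ℤ) : X.T.P n →ₗ[k] X.T.P (n + 1) := (t.κP n).prodMap (t.κQ (n + 1))

theorem θ_H (n : ℤ) : IsH t.h (t.θ n).toLinearMap := fun a x =>
  Prod.ext (t.θP_H n a x.1) (t.θQ_H (n + 1) a x.2)

theorem κ_S (n : ℤ) : IsS Z.S (t.κ n) := fun a ha x =>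
  Prod.ext (t.κP_S n a ha x.1) (t.κQ_S (n + 1) a ha x.2)

theorem θ_d (n : ℤ) (x : X.T.P (n + 1)) : X.T.dk n (t.θ (n + 1) x) = t.θ n (X.T.dk n x) := by
  refine Prod.ext (t.θP_d n x.1) ?_
  change X.c _ (t.θP _ x.1) + X.dQ _ (t.θQ _ x.2) = t.θQ _ (X.c _ x.1 + X.dQ _ x.2)
  rw [map_add, t.θ_c, t.θQ_d]

theorem κ_eq (n : ℤ) (x : X.T.P (n + 1)) :
    X.T.dk (n + 1) (t.κ (n + 1) x) + t.κ n (X.T.dk n x) = x + t.θ (n + 1) x := by
  refine Prod.ext (t.κP_eq n x.1) ?_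
  change X.c _ (t.κP _ x.1) + X.dQ _ (t.κQ _ x.2) + t.κQ _ (X.c _ x.1 + X.dQ _ x.2) =
    x.2 + t.θQ _ x.2
  rw [map_add, t.κ_c, ← t.κQ_eq]
  lc2 k (rfl : (0 : X.Q.M (n + 1 + 1)) = 0)

theorem finrank_via : (Module.finrank k (Via X.χ) : k) = 1 := by
  rw [(Via.val X.χ).finrank_eq]; simp

theorem hom_zero (n : ℤ) (v : X.T.P n →ₗ[k] Via X.χ) (hv : IsE E v)
    (h0 : ∀ x, v x + v (t.θ n x) = 0)
    (h1 : n ≠ 0 ∨ v (X.P.π k n (single X.i₀ (X.P.e X.i₀)), 0) = 0) : v = 0 := by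
  have key : ∀ (x : X.T.P n) (w : k), w ≠ 1 → t.θ n x = w • x → v x = 0 := fun x w hw e => by
    have := h0 x
    rw [e, map_smul] at this
    have h2 : (1 + w) • v x = 0 := by rw [add_smul, one_smul, this]
    exact (smul_eq_zero.1 h2).resolve_left fun h3 => hw (eq_of_add_eq_zero k h3).symm
  have hP : hv.toE ∘ₗ LinearMap.inl E (X.P.M n) (X.Q.M (n + 1)) = 0 :=
    X.P.hom_ext _ _ fun i hi => by
      change v (X.P.gen n i hi, 0) = 0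
      by_cases e : i = X.i₀
      · subst e
        rcases h1 with h1 | h1
        · exact absurd (hi.symm.trans X.deg₀) h1
        · rw [← X.P.π_coe (k := k) n (X.P.gen n _ hi)]; exact h1
      · rcases t.genP n i hi e with h2 | ⟨w, hw, e2⟩
        · have e3 : (X.P.gen n i hi, (0 : X.Q.M (n + 1))) = X.P.e i • (X.P.gen n i hi, 0) :=
            Prod.ext (Subtype.ext (by simp [GI.gen, X.P.ee])) (by simp)
          have := hv (X.P.e i) (X.P.gen n i hi, 0)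
          refine (congrArg v e3).trans (this.trans ((Via.val X.χ).injective ?_))
          rw [Via.val_smul, h2, zero_mul, map_zero]
        · exact key _ w hw (Prod.ext e2 (by
            change t.θQ _ 0 = w • (0 : X.Q.M (n + 1)); rw [map_zero, smul_zero]))
  have hQ : hv.toE ∘ₗ LinearMap.inr E (X.P.M n) (X.Q.M (n + 1)) = 0 :=
    X.Q.hom_ext _ _ fun i hi => by
      change v (0, X.Q.gen _ i hi) = 0
      obtain ⟨w, hw, e2⟩ := t.genQ _ i hi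
      exact key _ w hw (Prod.ext (by
        change t.θP _ 0 = w • (0 : X.P.M n); rw [map_zero, smul_zero]) e2)
  refine LinearMap.ext fun x => ?_
  have e1 : v (x.1, 0) = 0 := LinearMap.congr_fun hP x.1
  have e2 : v (0, x.2) = 0 := LinearMap.congr_fun hQ x.2
  have e3 := v.map_add (x.1, 0) (0, x.2)
  rw [e1, e2, add_zero] at e3
  exact Eq.trans (congrArg v (Prod.ext (add_zero x.1).symm (zero_add x.2).symm)) e3

/-- the level of `E` -/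
noncomputable def LE : Lev X.T := Z.levE X.T t.h t.θ t.θ_H t.θ_d

theorem baseE : t.LE.Good (Via X.χ) (LinearEquiv.refl _ _) (-1) := by
  refine ⟨finrank_via, fun n _ => ?_⟩
  let C : Submodule k (X.T.P (n + 1) →ₗ[k] Via X.χ) :=
    { carrier := {y | IsE E y ∧ ∀ x, y (X.T.dk (n + 1) x) = 0}
      add_mem' := fun ⟨a1, a3⟩ ⟨b1, b3⟩ => ⟨a1.add b1, fun x => by simp [a3, b3]⟩
      zero_mem' := ⟨IsE.zero, fun x => by simp⟩
      smul_mem' := fun c _ ⟨a1, a3⟩ => ⟨a1.smul c, fun x => by simp [a3]⟩ }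
  obtain ⟨y₀, hy₀, H⟩ := coker_le_one' C
    (LinearMap.id + LinearMap.lcomp k _ (t.θ (n + 1)).toLinearMap)
    (fun y hy => C.add_mem hy ⟨fun a x => by
      have := hy.1.comp_H (t.θ_H _) a x
      refine this.trans ((Via.val X.χ).injective ?_)
      rw [Via.val_smul, Via.val_smul, t.χ_h]; rfl, fun x => by
      change y (t.θ _ _) = 0
      rw [← t.θ_d, hy.2]⟩)
    ((Via.val X.χ).toLinearMap ∘ₗ LinearMap.applyₗ
      ((X.P.π k (n + 1) (single X.i₀ (X.P.e X.i₀)), 0) : X.T.P (n + 1))) (n - -1 ≠ 0)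
    (fun v hv h0 h1 => t.hom_zero _ v hv.1 (LinearMap.congr_fun h0)
      (h1.imp (fun h => by omega) fun h => (Via.val X.χ).injective (h.trans (map_zero _).symm)))
  refine ⟨y₀, hy₀.1.toS, hy₀.2, fun y hy h0 => ?_⟩
  obtain ⟨c, v, h1, h2, h3⟩ := H y ⟨fun a x => hy a trivial x, h0⟩
  refine ⟨c, v, 0, h1, h2.1.toS, h2.2, IsS.zero, fun x => ?_⟩
  rw [h3, LinearMap.zero_apply, add_zero, add_assoc]
  rfl

include t in
theorem baseS : (Z.levS X.T).Good (Via X.χ) (LinearEquiv.refl _ _) (-1) := by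
  refine ⟨finrank_via, fun n hn => ?_⟩
  have hn' : n + 1 + 1 ≠ 4 := fun h => hn (by omega)
  let ι : Via X.χ →ₗ[k] Via t.ρ :=
    (Via.val t.ρ).symm.toLinearMap ∘ₗ t.ι ∘ₗ (Via.val X.χ).toLinearMap
  let l : Via t.ρ →ₗ[k] Via X.χ :=
    (Via.val X.χ).symm.toLinearMap ∘ₗ t.l ∘ₗ (Via.val t.ρ).toLinearMap
  have hι : IsS Z.S ι := fun a ha x => t.ι_S a ha x
  have hl : IsS Z.S l := fun a ha x => t.l_S a ha x
  let η₁ : X.P.I →₀ Via t.ρ := t.η₁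
  let η₂ : X.Q.I →₀ Via t.ρ := t.η₂
  have c₁ : IsContr (cx (am (aN k E (Via t.ρ)) X.P.Eps)) (cx (am (aN k E (Via t.ρ)) X.DPt)) η₁ :=
    t.c₁
  have c₂ : IsContr (cx (am (aN k E (Via t.ρ)) X.Q.Eps)) (cx (am (aN k E (Via t.ρ)) X.DQt)) η₂ :=
    t.c₂
  let f₀ : X.T.P (n + 1) →ₗ[E] Via t.ρ := GI.ofH (n + 1) η₁ ∘ₗ LinearMap.fst _ _ _
  have hf₀ : ∀ x, f₀ (X.T.dk (n + 1) x) = 0 := fun x => by
    have := GI.ofH_res (k := k) X.hDP _ X.tP (n + 1 + 1) (n + 1) rfl η₁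
    rw [c₁.dη, GI.ofH_eq_zero _ 0 (fun _ _ => rfl)] at this
    exact LinearMap.congr_fun this x.1
  refine ⟨l ∘ₗ f₀.restrictScalars k, hl.comp (isE_restrict _).toS, fun x => by simp [hf₀],
    fun y hy h0 => ?_⟩
  have h1 : IsS Z.S (ι ∘ₗ y) := hι.comp hy
  have hΦ : IsE E ((ι ∘ₗ y) ∘ₗ aN k E _ Z.z + aN k E _ Z.z ∘ₗ (ι ∘ₗ y)) :=
    Z.isE_of ((h1.comp Z.isE_z.toS).add (Z.isE_z.toS.comp h1)) fun x => by
      simp [← mul_smul, Z.zz]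
  obtain ⟨c, g, e⟩ : ∃ (c : k) (g : X.T.P n →ₗ[E] Via t.ρ), hΦ.toE = c • f₀ + g ∘ₗ X.T.d n :=
    X.van c₁ c₂ n (fun j hj => t.d₂ j (by omega)) hΦ.toE
    (LinearMap.ext fun x => by
      change ι (y (Z.z • X.T.dk _ x)) + Z.z • ι (y (X.T.dk _ x)) = 0
      simp [← X.T.isE_dk _ Z.z x, h0])
  have e' : ∀ x, y x = c • l (f₀ x) + l (g (X.T.dk n x)) := fun x => by
    have e1 : ι (y (Z.z • x)) + Z.z • ι (y x) = c • f₀ x + g (X.T.dk n x) := LinearMap.congr_fun e x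
    have e2 : l (ι (y (Z.z • x))) = 0 := t.l_ι _
    have e3 : l (Z.z • ι (y x)) = y x := t.l_zι _
    rw [← map_smul, ← map_add, ← e1, map_add, e2, e3, zero_add]
  by_cases h : n + 1 = 0
  · refine ⟨c, 0, l ∘ₗ g.restrictScalars k, fun h' => absurd h (by omega),
      IsS.zero, fun _ => rfl, hl.comp (isE_restrict _).toS, fun x => ?_⟩
    rw [e']; simp
  · refine ⟨0, 0, l ∘ₗ g.restrictScalars k, fun _ => rfl,
      IsS.zero, fun _ => rfl, hl.comp (isE_restrict _).toS, fun x => ?_⟩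
    have : f₀ x = 0 := by
      change GI.ofH (n + 1) η₁ x.1 = 0
      rw [GI.ofH_eq_zero (n + 1) η₁ (fun i hi => t.d₁ i (by omega))]; rfl
    rw [e', this]; simp

theorem good (L : Lev X.T) (θP : ∀ n, X.P.M n ≃ₗ[k] X.P.M n)
    (hH : ∀ n (a : E) x, θP n (a • x) = L.h a • θP n x)
    (hd : ∀ n x, X.dP n (θP (n + 1) x) = θP n (X.dP n x)) (haug : ∀ x, X.aug (θP 0 x) = X.aug x)
    (hp : ∀ n x, (L.θ n x).1 = θP n x.1) (hZ : L.Good (Via X.χ) (LinearEquiv.refl _ _) (-1))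
    (m : ℤ) : L.Good _ (L.θK m) (m + 1) := by
  have hinj : ∀ n, X.b ≤ n →
      Function.Injective (LinearMap.fst E (X.P.M n) (X.Q.M (n + 1))) := fun n hn x y h =>
    Prod.ext h ((X.Q_eq_zero _ (by omega) _).trans (X.Q_eq_zero _ (by omega) _).symm)
  have key := L.good_K (N := Via X.χ) (θN := LinearEquiv.refl _ _) (fun n => ↥(X.P.M n))
  exact key X.dP θP hH hd X.aug X.aug_surj X.exact_aug X.exact_dP haug
    (fun n => LinearMap.fst E (X.P.M n) (X.Q.M (n + 1))) (max X.b 0) (le_max_right _ _)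
    (hinj _ (le_max_left _ _))
    ⟨hinj (max X.b 0 + 1) (by omega), LinearMap.fst_surjective⟩ (fun x => rfl)
    (fun x => hp _ x) hZ m

theorem goodE (m : ℤ) : t.LE.Good _ (t.LE.θK m) (m + 1) :=
  good t.LE t.θP t.θP_H t.θP_d t.aug_θ (fun _ _ => rfl) t.baseE m

include t in
theorem goodS (m : ℤ) : (Z.levS X.T).Good _ ((Z.levS X.T).θK m) (m + 1) :=
  good _ (fun _ => LinearEquiv.refl _ _) (fun _ _ _ => rfl) (fun _ _ => rfl) (fun _ => rfl)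
    (fun _ _ => rfl) t.baseS m

/-- the package -/
noncomputable def pkg : Pkg k E where
  S := Z.S
  h := t.h
  h_S := t.h_S
  T := X.T
  θ := t.θ
  θ_H := t.θ_H
  θ_d := t.θ_d
  κ := t.κ
  κ_S := t.κ_S
  κ_eq := t.κ_eq
  trE := Z.trE
  liftS n γ hγ h0 := Z.lift (X.T.d (n + 1)) γ hγ fun a => (X.T.exact n _).1 (h0 a)
  taS := Z.taS X.T
  odd n := by
    have := t.LE.good_odd (t.goodE (n - 1))
    rwa [sub_add_cancel] at this
  sur n m := by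
    obtain ⟨y₀, H⟩ := t.LE.good_out (t.goodE m) n trivial
    refine ⟨y₀, fun y hy h0 h1 => ?_⟩
    obtain ⟨c, v, y', a1, a2, a3, a4, a5, a6, a7⟩ := H y hy.toS h0 h1
    exact ⟨c, v, y', a1, fun a x => a2 a trivial x, a3, a4, fun a x => a5 a trivial x, a6, a7⟩
  vanS n m _ h3 := by
    obtain ⟨y₀, H⟩ := (Z.levS X.T).good_out (t.goodS m) n h3
    refine ⟨y₀, fun y hy h0 h1 => ?_⟩
    obtain ⟨c, v, y', a1, -, -, -, a5, a6, a7⟩ := H y hy h0 h1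
    refine ⟨c, y', a1, a5, a6, fun x => ?_⟩
    rw [a7, add_assoc (c • y₀ x)]
    erw [tt k (v x)]
    rw [add_zero]

end Tw

end Crest.Agent.R186
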