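import Crest.Agent.R186.Shift
import Crest.Agent.R186.MC

/-! Row 186: algebras `E = S ⊕ S z` with `z` central of square zero. -/

set_option autoImplicit false
set_option linter.unusedSectionVars false
set_option linter.unusedSimpArgs false

namespace Crest.Agent.R186

open LinearMap (trace)

universe u

variable {k : Type u} [Field k] [CharP k 2] {E : Type u} [Ring E] [Algebra k E]
  [FiniteDimensional k E]

variable (k E) in
/-- `E = S ⊕ S z` -/
structure ZS where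
  S : Subalgebra k E
  z : E
  p0 : E →ₗ[k] E
  p1 : E →ₗ[k] E
  zc : ∀ a, z * a = a * z
  zz : z * z = 0
  dec : ∀ a, p0 a + p1 a * z = a
  m0 : ∀ a, p0 a ∈ S
  m1 : ∀ a, p1 a ∈ S
  s0 : IsS S p0
  s1 : IsS S p1
  p11 : p1 1 = 0
  p1z : p1 z = 1
  tr0 : ∀ c, trace k E (aL k E c ∘ₗ p0) = 0
  tr1 : ∀ c, trace k E (aL k E c ∘ₗ p1) = 0

namespace ZS

variable (Z : ZS k E)

section
variable {X N : Type*} [AddCommGroup X] [Module k X] [Module E X] [IsScalarTower k E X]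
  [AddCommGroup N] [Module k N] [Module E N] [IsScalarTower k E N]

theorem apply_smul {f : X →ₗ[k] N} (hf : IsS Z.S f) (a : E) (x : X) :
    f (a • x) = Z.p0 a • f x + Z.p1 a • f (Z.z • x) := by
  conv_lhs => rw [← Z.dec a, add_smul, mul_smul, map_add, hf _ (Z.m0 a), hf _ (Z.m1 a)]

theorem isE_of {f : X →ₗ[k] N} (hf : IsS Z.S f) (hz : ∀ x, f (Z.z • x) = Z.z • f x) : IsE E f :=
  fun a x => by
    rw [Z.apply_smul hf, hz, ← mul_smul, ← add_smul, Z.dec]

theorem isE_z : IsE E (aN k E X Z.z) := fun a x => by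
  simp only [aN_apply, ← mul_smul, Z.zc]

end

theorem p1_mem {a : E} (ha : a ∈ Z.S) : Z.p1 a = 0 := by
  have := Z.s1 a ha 1
  simpa [Z.p11] using this

theorem p1_mul_z {a : E} (ha : a ∈ Z.S) : Z.p1 (Z.z * a) = a := by
  have := Z.s1 a ha Z.z
  simpa [Z.p1z, Z.zc] using this

theorem trE (f : E →ₗ[k] E) (hf : IsS Z.S f) : trace k E f = 0 := by
  have : f = aL k E (f 1) ∘ₗ Z.p0 + aL k E (f Z.z) ∘ₗ Z.p1 := by
    ext a
    simpa using Z.apply_smul hf a 1
  rw [this, map_add, Z.tr0, Z.tr1, add_zero]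

include Z in
theorem rk (V : Type u) [AddCommGroup V] [Module k V] [Module E V] [IsScalarTower k E V]
    [Module.Finite E V] [Module.Projective E V] : (Module.finrank k V : k) = 0 := by
  have : FiniteDimensional k V := Module.Finite.trans E V
  obtain ⟨r, g, p, h⟩ := exists_dualBasis E V
  have e : (LinearMap.id : V →ₗ[k] V) = ∑ j, rr (p j) ∘ₗ (g j).restrictScalars k := by
    ext x; simp [h]
  rw [← LinearMap.trace_id k V, e, map_sum]
  refine Finset.sum_eq_zero fun j _ => ?_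
  rw [LinearMap.trace_comp_comm']
  exact Z.trE _ ((isE_restrict _).toS.comp (isE_rr _).toS)

theorem lift {X V N : Type*} [AddCommGroup X] [Module k X] [Module E X] [IsScalarTower k E X]
    [Module.Finite E X] [Module.Projective E X] [AddCommGroup V] [Module k V] [Module E V]
    [IsScalarTower k E V] [AddCommGroup N] [Module k N] [Module E N] [IsScalarTower k E N]
    (π : V →ₗ[E] N) (f : X →ₗ[k] N) (hf : IsS Z.S f) (hr : ∀ x, ∃ v, π v = f x) :
    ∃ g : X →ₗ[k] V, IsS Z.S g ∧ ∀ x, π (g x) = f x := by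
  obtain ⟨r, g, p, h⟩ := exists_dualBasis E X
  choose v hv using hr
  refine ⟨∑ j, (rr (v (p j)) ∘ₗ Z.p0 + rr (v (Z.z • p j)) ∘ₗ Z.p1) ∘ₗ (g j).restrictScalars k,
    IsS.sum _ fun j => (((isE_rr _).toS.comp Z.s0).add ((isE_rr _).toS.comp Z.s1)).comp
      (isE_restrict _).toS, fun x => ?_⟩
  conv_rhs => rw [← h x, map_sum]
  simp only [LinearMap.coe_sum, Finset.sum_apply, map_sum, LinearMap.comp_apply, LinearMap.add_apply,
    rr_apply, map_add, map_smul, hv, LinearMap.restrictScalars_apply]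
  exact Finset.sum_congr rfl fun j _ => (Z.apply_smul hf _ _).symm

variable (T : CR k E)

theorem taS (n : ℤ) (g : T.P (n + 1) →ₗ[k] E) (hg : IsS Z.S g)
    (h0 : ∀ x, g (T.dk (n + 1) x) = 0) :
    ∃ g' : T.P n →ₗ[k] E, IsS Z.S g' ∧ ∀ x, g' (T.dk n x) = g x := by
  have key : ∀ p : E →ₗ[k] E, IsS Z.S p → (∀ a, p a ∈ Z.S) →
      ∃ g' : T.P n →ₗ[k] E, IsS Z.S g' ∧ ∀ x, g' (T.dk n x) = p (g x) := fun p hp hm => by
    have h1 := hp.comp hg
    obtain ⟨G, hG, eG⟩ := T.taE E n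
      ((p ∘ₗ g) ∘ₗ aN k E _ Z.z + aN k E _ Z.z ∘ₗ (p ∘ₗ g))
      (Z.isE_of ((h1.comp Z.isE_z.toS).add (Z.isE_z.toS.comp h1)) fun x => by
        simp [← mul_smul, Z.zz, mul_add, ← mul_assoc])
      (fun x => by simp [← T.isE_dk _ Z.z x, h0])
    refine ⟨Z.p1 ∘ₗ G, Z.s1.comp hG.toS, fun x => ?_⟩
    simp [eG, Z.p1_mem (hm _), Z.p1_mul_z (hm _)]
  obtain ⟨g0, a0, b0⟩ := key _ Z.s0 Z.m0
  obtain ⟨g1, a1, b1⟩ := key _ Z.s1 Z.m1
  refine ⟨g0 + aN k E _ Z.z ∘ₗ g1, a0.add (Z.isE_z.toS.comp a1), fun x => ?_⟩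
  simp [b0, b1, Z.zc, Z.dec]

theorem ta (V : Type u) [AddCommGroup V] [Module k V] [Module E V] [IsScalarTower k E V]
    [Module.Finite E V] [Module.Projective E V] (n : ℤ) (f : T.P (n + 1) →ₗ[k] V) (hf : IsS Z.S f)
    (h0 : ∀ x, f (T.dk (n + 1) x) = 0) :
    ∃ g : T.P n →ₗ[k] V, IsS Z.S g ∧ ∀ x, g (T.dk n x) = f x := by
  obtain ⟨r, g, p, h⟩ := exists_dualBasis E V
  choose g' hg' hg'' using fun j => Z.taS T n ((g j).restrictScalars k ∘ₗ f)
    ((isE_restrict _).toS.comp hf) (fun x => by simp [h0])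
  refine ⟨∑ j, rr (p j) ∘ₗ g' j, IsS.sum _ fun j => (isE_rr _).toS.comp (hg' j), fun x => ?_⟩
  simp [hg'', h]

/-- the level of `S` -/
noncomputable def levS : Lev T where
  S := Z.S
  h := AlgEquiv.refl
  hS := fun _ h => h
  θ := fun _ => LinearEquiv.refl _ _
  θ_H := fun _ _ _ => rfl
  θ_d := fun _ _ => rfl
  lift := fun _ _ _ _ _ _ _ _ _ _ π hπ _ f hf => Z.lift π f hf fun _ => hπ _
  ta := fun V _ _ _ _ _ _ => Z.ta T V
  rk := fun V _ _ _ _ _ _ => Z.rk V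
  cond a := a ≠ 3

/-- the level of `E` -/
noncomputable def levE (h : E ≃ₐ[k] E) (θ : ∀ n, T.P n ≃ₗ[k] T.P n)
    (θ_H : ∀ n, IsH h (θ n).toLinearMap)
    (θ_d : ∀ n x, T.dk n (θ (n + 1) x) = θ n (T.dk n x)) : Lev T where
  S := ⊤
  h := h
  hS := fun _ h => h
  θ := θ
  θ_H := θ_H
  θ_d := θ_d
  lift := fun _ _ _ _ _ _ _ _ _ _ π hπ _ f hf => by
    obtain ⟨g, hg⟩ := Module.projective_lifting_property π
      (IsE.toE (f := f) fun a x => hf a trivial x) hπ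
    exact ⟨g.restrictScalars k, (isE_restrict g).toS, fun x => LinearMap.congr_fun hg x⟩
  ta := fun V _ _ _ _ _ _ n f hf h0 => by
    obtain ⟨g, hg, e⟩ := T.taE V n f (fun a x => hf a trivial x) h0
    exact ⟨g, hg.toS, e⟩
  rk := fun V _ _ _ _ _ _ => Z.rk V
  cond _ := True

end ZS

end Crest.Agent.R186
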